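import Crest.Agent.R165.E.Final

/-! # R165 block E: the torus (owner helper12; statement FROZEN) -/

set_option autoImplicit false
noncomputable section
open Classical Filter Topology Crest.ProbabilityR.IsingModel

namespace Crest.Agent.R165

theorem torus_limit {k : Cons} {R : ℕ} {V : Finset Site → ℝ} (hk : ConsOK R k) (hV : PotOK R V) :
    ∃ B₂ : ℝ, 0 < B₂ ∧ ∀ {c : ℝ × ℝ} {J lam C₁ B₁ ε₂ CM B : ℝ}, Ctx k R V c J lam C₁ B₁ ε₂ CM B → B ≤ B₂ →
      ∀ (O : Cfg → ℝ) (r : ℕ), DependsOn O ↑(edgesIn (box 0 r)) →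
        Tendsto (fun L : ℕ => torusExpect (L + 1) J lam R V (betaOf J c) fun σ => O (nOf (liftT (L + 1) σ))) atTop
          (𝓝 (omegaO k R V c (betaOf J c * lam) O r)) :=
  E.torus_main hk hV fun 𝔤 j h => (hk.step 𝔤 j h).gram

end Crest.Agent.R165
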