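import Crest.Agent.R165.A.Hat
import Crest.Agent.R165.P.Main

/-! # R165/E (torus, owner helper12): initial activities, generic in the geometry -/

set_option autoImplicit false
noncomputable section
open Classical Crest.ProbabilityR.IsingModel

namespace Crest.Agent.R165.E

variable {X A : Type} [CommRing A] [Algebra ℝ A] [Algebra ℚ A]

theorem grp_zero {B : Type} [CommRing B] (G : Geo X) (l : ℕ) (P : Finset X → B) (Z : Finset X) :
    G.grp l l P (fun _ => 0) Z = if G.Conn l Z then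
      ∑ 𝒮 ∈ Z.powerset.powerset.filter (fun 𝒮 => 𝒮.biUnion id = Z), ∏ Y ∈ 𝒮, P Y else 0 := by
  unfold Geo.grp
  split_ifs
  · rw [Finset.sum_filter]
    refine Finset.sum_congr rfl fun 𝒮 _ => ?_
    rw [Finset.sum_eq_single_of_mem ∅ (Geo.mem_fams.2 (by simp)) fun 𝒳 _ h => by
      obtain ⟨Y, hY⟩ := Finset.nonempty_iff_ne_empty.2 h
      rw [Finset.prod_eq_zero hY rfl, mul_zero, ite_self]]
    simp
  · rfl

theorem grp_dependsOn (G : Geo X) (l : ℕ) {ed : Finset X → Finset Edge} (hm : ∀ Y Z, Y ⊆ Z → ed Y ⊆ ed Z)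
    {P : Finset X → Cfg → A} (hP : ∀ Y, DependsOn (P Y) ↑(ed Y)) (Z : Finset X) :
    DependsOn (G.grp l l P (fun _ => 0) Z) ↑(ed Z) := by
  intro n n' h
  rw [grp_zero]
  split_ifs
  · simp only [Finset.sum_apply, Finset.prod_apply]
    refine Finset.sum_congr rfl fun 𝒮 h𝒮 => Finset.prod_congr rfl fun Y hY => hP Y fun e he => h e ?_
    exact hm Y Z (mem_pp.1 (Finset.mem_filter.1 h𝒮).1 Y hY) he
  · rfl

theorem hat_sum {ι : Type} (x : Edge → A) (E₀ : Finset Edge) (s : Finset ι) (F : ι → Cfg → A) :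
    hat x E₀ (∑ i ∈ s, F i) = ∑ i ∈ s, hat x E₀ (F i) := by
  simp only [hat, Finset.sum_apply, Finset.mul_sum]
  rw [Finset.sum_comm]
  refine Finset.sum_congr rfl fun T _ => ?_
  rw [Finset.sum_comm, Finset.sum_mul]

theorem hat_sub (x : Edge → A) (E₀ : Finset Edge) (F F' : Cfg → A) : hat x E₀ (F - F') = hat x E₀ F - hat x E₀ F' := by
  simp only [hat, Pi.sub_apply, mul_sub, Finset.sum_sub_distrib, sub_mul]

theorem hat_const_mul (x : Edge → A) (E₀ : Finset Edge) (a : A) (F : Cfg → A) :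
    hat x E₀ (fun n => a * F n) = a * hat x E₀ F := by
  simp only [hat, Finset.mul_sum]
  refine Finset.sum_congr rfl fun T _ => ?_
  rw [← mul_assoc, Finset.mul_sum]
  congr 1
  exact Finset.sum_congr rfl fun U _ => by ring

theorem hat_one (x : Edge → A) (E₀ : Finset Edge) : hat x E₀ 1 = 1 := by
  rw [hat_congr x (Finset.empty_subset E₀) (fun _ _ _ => rfl), BA.hat_empty]
  rfl

theorem initg_hat_prod (x : Edge → A) {ed : Finset X → Finset Edge} {Q : Finset X → Cfg → A}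
    (hQ : ∀ Y, DependsOn (Q Y) ↑(ed Y)) (𝒳 : Finset (Finset X))
    (hd : ∀ Y ∈ 𝒳, ∀ Z ∈ 𝒳, Y ≠ Z → Disjoint (ed Y) (ed Z)) :
    DependsOn (∏ Z ∈ 𝒳, Q Z) ↑(𝒳.biUnion ed) ∧
      hat x (𝒳.biUnion ed) (∏ Z ∈ 𝒳, Q Z) = ∏ Z ∈ 𝒳, hat x (ed Z) (Q Z) := by
  refine ⟨fun n n' h => ?_, ?_⟩
  · simp only [Finset.prod_apply]
    exact Finset.prod_congr rfl fun Y hY => hQ Y fun e he => h e (Finset.subset_biUnion_of_mem ed hY he)
  induction 𝒳 using Finset.induction_on with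
  | empty => simp [hat_one]
  | insert Y 𝒳 hY ih =>
    rw [Finset.biUnion_insert, Finset.prod_insert hY, Finset.prod_insert hY, hat_mul x ?_ (hQ Y) ?_,
      ih fun U hU V hV => hd U (Finset.mem_insert_of_mem hU) V (Finset.mem_insert_of_mem hV)]
    · exact (Finset.disjoint_biUnion_right _ _ _).2 fun Z hZ =>
        hd Y (Finset.mem_insert_self _ _) Z (Finset.mem_insert_of_mem hZ) fun e => hY (e ▸ hZ)
    · intro n n' h
      simp only [Finset.prod_apply]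
      exact Finset.prod_congr rfl fun Y hY => hQ Y fun e he => h e (Finset.subset_biUnion_of_mem ed hY he)

/-- `xi_grp` in the ring `Cfg → A` (with `K = 0`, `Xi 0 = 1`), `hat_sum`; for a separated family induction with `hat_mul`, `hat_congr` -/
theorem xi_hat (G : Geo X) (l : ℕ) {ed : Finset X → Finset Edge} (hm : ∀ Y Z, Y ⊆ Z → ed Y ⊆ ed Z)
    (hd : ∀ Y Z, Disjoint Y Z → Disjoint (ed Y) (ed Z)) (x : Edge → A) {P : Finset X → Cfg → A}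
    (hP : ∀ Y, DependsOn (P Y) ↑(ed Y)) (hc : ∀ Y, ¬ G.Conn l Y → P Y = 0) (Λ : Finset X) :
    G.Xi l (fun Z => hat x (ed Z) (G.grp l l P (fun _ => 0) Z)) Λ = hat x (ed Λ) (∏ Y ∈ Λ.powerset, (1 + P Y)) := by
  have h1 := xi_grp G (le_refl l) P (fun _ => 0) hc (fun _ _ => rfl) Λ
  have h2 : G.Xi l (fun _ => (0 : Cfg → A)) Λ = 1 := by
    rw [Geo.Xi, Finset.sum_eq_single_of_mem ∅ (Geo.mem_fams.2 (by simp)) fun 𝒳 _ h => ?_, Finset.prod_empty]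
    obtain ⟨Y, hY⟩ := Finset.nonempty_iff_ne_empty.2 h
    exact Finset.prod_eq_zero hY rfl
  rw [h2, mul_one] at h1
  rw [h1, Geo.Xi, Geo.Xi, hat_sum]
  refine Finset.sum_congr rfl fun 𝒳 h => ?_
  obtain ⟨h3, -, h4⟩ := Geo.mem_fams.1 h
  obtain ⟨h5, h6⟩ := initg_hat_prod x (grp_dependsOn G l hm hP) 𝒳 fun Y hY Z hZ hne =>
    hd Y Z (Finset.disjoint_left.2 fun a ha ha' => (h4 Y hY Z hZ hne).not_mem ha ha')
  rw [hat_congr x (Finset.biUnion_subset.2 fun Y hY => hm Y Λ (h3 Y hY)) h5, h6]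

theorem hat_mem (T : Subalgebra ℝ A) {x : Edge → A} {E₀ : Finset Edge} {F : Cfg → A} (hx : ∀ e ∈ E₀, x e ∈ T)
    (hF : ∀ n, F n ∈ T) : hat x E₀ F ∈ T := by
  refine T.sum_mem fun U hU => T.mul_mem (T.sum_mem fun V _ => T.mul_mem (T.pow_mem (T.neg_mem T.one_mem) _) (hF _))
    (T.prod_mem fun e he => hx e (Finset.mem_powerset.1 hU he))

theorem grp_mem (G : Geo X) (l : ℕ) (T : Subalgebra ℝ A) {P : Finset X → Cfg → A} {Z : Finset X}
    (hP : ∀ Y ⊆ Z, ∀ n, P Y n ∈ T) (n : Cfg) : G.grp l l P (fun _ => 0) Z n ∈ T := by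
  rw [grp_zero]
  split_ifs
  · rw [Finset.sum_apply]
    refine T.sum_mem fun 𝒮 h𝒮 => ?_
    rw [Finset.prod_apply]
    exact T.prod_mem fun Y hY => hP Y (Finset.mem_powerset.1 (Finset.mem_powerset.1 (Finset.mem_filter.1 h𝒮).1 hY)) n
  · exact T.zero_mem

/-- `∑_T 2^|T| ξ^|T| = (1 + 2ξ)^|E|` (`Finset.prod_one_add` / `sum_pow_mul_eq_add_pow`), `BdAx.sum`, `BdAx.prod` -/
theorem bd_hat {Bd : Finset X → A → ℝ → Prop} {e : A →ₐ[ℝ] ℝ} (hB : BdAx Bd e) {Z : Finset X} {x : Edge → A}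
    {E₀ : Finset Edge} {ξ b : ℝ} (hξ : 0 ≤ ξ) (hx : ∀ e ∈ E₀, Bd Z (x e) ξ) {F : Cfg → A} (hF : ∀ n, Bd Z (F n) b) :
    Bd Z (hat x E₀ F) ((1 + 2 * ξ) ^ E₀.card * b) := by
  induction E₀ using Finset.induction_on generalizing F with
  | empty => simpa [BA.hat_empty] using hF _
  | insert i E hi ih =>
    have h1 := fun j hj => hx j (Finset.mem_insert_of_mem hj)
    rw [BA.hat_insert x hi, Finset.card_insert_of_notMem hi, sub_eq_add_neg]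
    convert hB.add (ih h1 hF) (hB.mul (hx i (Finset.mem_insert_self _ _))
      (hB.add (ih h1 (F := fun n => F (Function.update n i true)) fun n => hF _) (hB.neg (ih h1 hF)))) using 1
    ring

/-- `grp_zero`; for each `𝒮`: `hat_congr` to `𝒮.biUnion ed`, `bd_hat` with `BdAx.prod_sub`, `card_biUnion_le`; distribute the weight
`w Y = (1 + 2ξ)^|ed Y| ≥ 1` over the members; `w (b₁ + b₀ b₁) ≤ w b₁ + (w b₀)(w b₁)` -/
theorem bd_hat_grp (G : Geo X) (l : ℕ) {Bd : Finset X → A → ℝ → Prop} {e : A →ₐ[ℝ] ℝ} (hB : BdAx Bd e)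
    {ed : Finset X → Finset Edge} (hm : ∀ Y Z, Y ⊆ Z → ed Y ⊆ ed Z) {x : Edge → A} {ξ : ℝ} (hξ : 0 ≤ ξ)
    (hx : ∀ Y, ∀ e ∈ ed Y, Bd Y (x e) ξ) {P₀ P₁ : Finset X → Cfg → A} (h₀ : ∀ Y, DependsOn (P₀ Y) ↑(ed Y))
    (h₁ : ∀ Y, DependsOn (P₁ Y) ↑(ed Y)) {b₀ b₁ p₀ p₁ : Finset X → ℝ} (hb₀ : ∀ Y n, Bd Y (P₀ Y n) (b₀ Y))
    (hb₁ : ∀ Y n, Bd Y (P₁ Y n) (b₁ Y)) (hp₀ : ∀ Y, p₀ Y = (1 + 2 * ξ) ^ (ed Y).card * b₀ Y)
    (hp₁ : ∀ Y, p₁ Y = (1 + 2 * ξ) ^ (ed Y).card * b₁ Y) (Z : Finset X) :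
    Bd Z (hat x (ed Z) (G.grp l l (fun Y => P₀ Y + P₁ Y + P₀ Y * P₁ Y) (fun _ => 0) Z) -
        hat x (ed Z) (G.grp l l P₀ (fun _ => 0) Z))
      (G.grp l l (fun Y => p₀ Y + p₁ Y + p₀ Y * p₁ Y) (fun _ => (0 : ℝ)) Z - G.grp l l p₀ (fun _ => (0 : ℝ)) Z) := by
  simp only [grp_zero]
  split_ifs
  swap
  · simpa using hB.zero Z
  rw [hat_sum, hat_sum, ← Finset.sum_sub_distrib, ← Finset.sum_sub_distrib]
  refine hB.sum _ fun 𝒮 h𝒮 => ?_
  have hsub : ∀ Y ∈ 𝒮, Y ⊆ Z := fun Y hY =>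
    Finset.mem_powerset.1 (Finset.mem_powerset.1 (Finset.mem_filter.1 h𝒮).1 hY)
  have hE : 𝒮.biUnion ed ⊆ ed Z := Finset.biUnion_subset.2 fun Y hY => hm Y Z (hsub Y hY)
  have hdep : DependsOn (∏ Y ∈ 𝒮, (P₀ Y + P₁ Y + P₀ Y * P₁ Y) - ∏ Y ∈ 𝒮, P₀ Y) ↑(𝒮.biUnion ed) := by
    intro n n' h
    have e₀ : ∀ Y ∈ 𝒮, P₀ Y n = P₀ Y n' := fun Y hY => h₀ Y fun i hi => h i (Finset.subset_biUnion_of_mem ed hY hi)
    have e₁ : ∀ Y ∈ 𝒮, P₁ Y n = P₁ Y n' := fun Y hY => h₁ Y fun i hi => h i (Finset.subset_biUnion_of_mem ed hY hi)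
    simp only [Pi.sub_apply, Finset.prod_apply, Pi.add_apply, Pi.mul_apply]
    rw [Finset.prod_congr rfl e₀, Finset.prod_congr rfl fun Y hY => by rw [e₀ Y hY, e₁ Y hY]]
  rw [← hat_sub, hat_congr x hE hdep]
  have c₀ : ∀ Y, 0 ≤ b₀ Y := fun Y => hB.nonneg (hb₀ Y fun _ => false)
  have c₁ : ∀ Y, 0 ≤ b₁ Y := fun Y => hB.nonneg (hb₁ Y fun _ => false)
  have hw : ∀ k : ℕ, 1 ≤ (1 + 2 * ξ) ^ k := fun k => one_le_pow₀ (by linarith)
  have h1 : ∀ n, Bd Z ((∏ Y ∈ 𝒮, (P₀ Y + P₁ Y + P₀ Y * P₁ Y) - ∏ Y ∈ 𝒮, P₀ Y) n)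
      (∏ Y ∈ 𝒮, (b₀ Y + (b₁ Y + b₀ Y * b₁ Y)) - ∏ Y ∈ 𝒮, b₀ Y) := fun n => by
    simp only [Pi.sub_apply, Finset.prod_apply, Pi.add_apply, Pi.mul_apply, add_assoc]
    exact hB.prod_sub 𝒮 (fun Y hY => hB.mono (hb₀ Y n) (hsub Y hY) le_rfl) fun Y hY =>
      hB.mono (hB.add (hb₁ Y n) (hB.mul (hb₀ Y n) (hb₁ Y n))) (hsub Y hY) le_rfl
  refine hB.mono (bd_hat hB hξ (fun i hi => ?_) h1) subset_rfl ?_
  · exact hx Z i (hE hi)
  · have h2 : (1 + 2 * ξ) ^ (𝒮.biUnion ed).card ≤ ∏ Y ∈ 𝒮, (1 + 2 * ξ) ^ (ed Y).card := by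
      rw [Finset.prod_pow_eq_pow_sum]
      exact pow_le_pow_right₀ (by linarith) Finset.card_biUnion_le
    refine (mul_le_mul_of_nonneg_right h2 (hB.nonneg (h1 fun _ => false))).trans ?_
    rw [mul_sub, ← Finset.prod_mul_distrib, ← Finset.prod_mul_distrib]
    simp only [← hp₀]
    refine sub_le_sub_right (Finset.prod_le_prod (fun Y _ => ?_) fun Y _ => ?_) _
    · have := c₀ Y
      have := c₁ Y
      positivity
    · rw [hp₀, hp₁]
      have := mul_le_mul_of_nonneg_right (hw (ed Y).card)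
        (mul_nonneg (zero_le_one.trans (hw (ed Y).card)) (mul_nonneg (c₀ Y) (c₁ Y)))
      nlinarith

theorem initg_prod {B : Type} [CommRing B] {Z₀ : Finset X} {P : Finset X → B} (hP : ∀ Y, Y ≠ Z₀ → P Y = 0)
    {𝒮 : Finset (Finset X)} (h0 : 𝒮 ≠ ∅) (h1 : 𝒮 ≠ {Z₀}) : ∏ Y ∈ 𝒮, P Y = 0 := by
  have h : ¬ 𝒮 ⊆ {Z₀} := fun h => (Finset.subset_singleton_iff.1 h).elim h0 h1
  obtain ⟨Y, hY, hY'⟩ := Finset.not_subset.1 h
  exact Finset.prod_eq_zero hY (hP Y fun e => hY' (Finset.mem_singleton.2 e))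

/-- an activity carried by one polymer -/
theorem grp_single {B : Type} [CommRing B] (G : Geo X) (l : ℕ) {Z₀ : Finset X} (hc : G.Conn l Z₀) {P : Finset X → B}
    (hP : ∀ Y, Y ≠ Z₀ → P Y = 0) (Z : Finset X) : G.grp l l P (fun _ => 0) Z = P Z := by
  rw [grp_zero]
  by_cases hZ : Z = Z₀
  · subst hZ
    rw [if_pos hc, Finset.sum_eq_single_of_mem {Z} (by simp) fun 𝒮 h𝒮 hne => ?_, Finset.prod_singleton]
    refine initg_prod hP (fun h => ?_) hne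
    have := (Finset.mem_filter.1 h𝒮).2
    rw [h, Finset.biUnion_empty] at this
    exact hc.1.ne_empty this.symm
  · rw [hP Z hZ]
    split_ifs with h
    · refine Finset.sum_eq_zero fun 𝒮 h𝒮 => ?_
      have h1 := (Finset.mem_filter.1 h𝒮).2
      refine initg_prod hP (fun h' => ?_) fun h' => ?_
      · rw [h', Finset.biUnion_empty] at h1
        exact h.1.ne_empty h1.symm
      · rw [h', Finset.singleton_biUnion] at h1
        exact hZ h1.symm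
    · rfl

/-- the same for the hard activity (only `𝒮 = ∅`, `𝒳 = {Z₀}` contribute) -/
theorem grp_single' {B : Type} [CommRing B] (G : Geo X) (l l' : ℕ) {Z₀ : Finset X} (hc : G.Conn l' Z₀) {K : Finset X → B}
    (hK : ∀ Y, Y ≠ Z₀ → K Y = 0) (Z : Finset X) : G.grp l l' (fun _ => 0) K Z = K Z := by
  unfold Geo.grp
  have e : ∑ 𝒮 ∈ Z.powerset.powerset, ∑ 𝒳 ∈ G.fams l Z,
      (if (𝒮 ∪ 𝒳).biUnion id = Z then (∏ _Y ∈ 𝒮, (0 : B)) * ∏ Y ∈ 𝒳, K Y else 0) =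
      ∑ 𝒳 ∈ G.fams l Z, if 𝒳.biUnion id = Z then ∏ Y ∈ 𝒳, K Y else 0 := by
    rw [Finset.sum_eq_single_of_mem ∅ (by simp) fun 𝒮 _ h𝒮 => Finset.sum_eq_zero fun 𝒳 _ => by
      obtain ⟨Y, hY⟩ := Finset.nonempty_iff_ne_empty.2 h𝒮
      rw [Finset.prod_eq_zero hY rfl, zero_mul, ite_self]]
    simp
  rw [e]
  by_cases hZ : Z = Z₀
  · subst hZ
    rw [if_pos hc, Finset.sum_eq_single_of_mem {Z} (Geo.mem_fams.2 (by simp [hc.1])) fun 𝒳 _ hne => ?_]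
    · simp
    split_ifs with h1
    · refine initg_prod hK (fun h => ?_) hne
      rw [h, Finset.biUnion_empty] at h1
      exact hc.1.ne_empty h1.symm
    · rfl
  · rw [hK Z hZ]
    split_ifs with h
    · refine Finset.sum_eq_zero fun 𝒳 _ => ?_
      split_ifs with h1
      · refine initg_prod hK (fun h' => ?_) fun h' => ?_
        · rw [h', Finset.biUnion_empty] at h1
          exact h.1.ne_empty h1.symm
        · rw [h', Finset.singleton_biUnion] at h1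
          exact hZ h1.symm
      · rfl
    · rfl

theorem xi_single {B : Type} [CommRing B] (G : Geo X) (l : ℕ) {Z₀ Λ : Finset X} (h0 : Z₀.Nonempty) (hΛ : Z₀ ⊆ Λ)
    {K : Finset X → B} (hK : ∀ Y, Y ≠ Z₀ → K Y = 0) : G.Xi l K Λ = 1 + K Z₀ := by
  rw [Geo.Xi, Finset.sum_eq_add_of_mem ∅ {Z₀} (Geo.mem_fams.2 (by simp)) (Geo.mem_fams.2 (by simp [h0, hΛ]))
    (Finset.singleton_ne_empty _).symm fun 𝒳 _ h => initg_prod hK h.1 h.2]
  simp

end Crest.Agent.R165.E
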