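import Crest.Agent.R165.A.Part
import Crest.Agent.R165.A.Hat
import Crest.Agent.R165.A.Spin
import Crest.Agent.R165.B.Pot
import Crest.Agent.R165.Poly

/-! # R165/E (torus, owner helper12): definitions and the elementary API

The torus `XT N = (ℤ/N)²`, half-edges `IT N`. A *sector* `ε : Bool × Bool` chooses (anti)periodic boundary conditions;
everything is written in LIFTED form: `chi N ε x = ±1` is the sign of the sheet of `x ∈ ℤ²`, `Phi N ε : θ_i ↦ chi i • θ_{π i}`. -/

set_option autoImplicit false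
noncomputable section
open Classical Crest.ProbabilityR.IsingModel

namespace Crest.Agent.R165.E
open BA

abbrev XT (N : ℕ) : Type := ZMod N × ZMod N
abbrev IT (N : ℕ) : Type := XT N × Fin 4
abbrev Sec : Type := Bool × Bool

def piH (N : ℕ) (i : HE) : IT N := (toTorus N i.1, i.2)
def lift {N : ℕ} (x : XT N) : Site := ((x.1.val : ℤ), (x.2.val : ℤ))
def liftH {N : ℕ} (i : IT N) : HE := (lift i.1, i.2)
/-- fundamental domain -/
def dom (N : ℕ) : Finset Site := Finset.Ico (0 : ℤ) N ×ˢ Finset.Ico (0 : ℤ) N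
def EN (N : ℕ) : Finset Edge := dom N ×ˢ Finset.univ
def redS (N : ℕ) (x : Site) : Site := (x.1 % N, x.2 % N)
def red (N : ℕ) (e : Edge) : Edge := (redS N e.1, e.2)
/-- periodic extension of a contour configuration given on `EN N` -/
def per (N : ℕ) (n : Cfg) : Cfg := fun e => n (red N e)
/-- periodic lift of a spin configuration -/
def lf (N : ℕ) (σ : XT N → Bool) : Site → Bool := fun z => σ (toTorus N z)
def sgn (b : Bool) (k : ℤ) : ℝ := if b = true ∧ Odd k then -1 else 1
/-- sign of the sheet -/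
def chi (N : ℕ) (ε : Sec) (x : Site) : ℝ := sgn ε.1 (x.1 / N) * sgn ε.2 (x.2 / N)
/-- the lattice of periods -/
def pv (N : ℕ) (n : Site) : Site := (N * n.1, N * n.2)

def TL (N : ℕ) (ε : Sec) : GV HE →ₗ[ℝ] GV (IT N) :=
  Finsupp.linearCombination ℝ fun i => Finsupp.single (piH N i) (chi N ε i.1)
/-- the algebra map of even parts induced by a linear map -/
def gE {I J : Type} (T : GV I →ₗ[ℝ] GV J) : Ev I →ₐ[ℝ] Ev J :=
  ((gmap T).comp (Subalgebra.val _)).codRestrict _ fun a => gmap_mem_even _ a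
def Phi (N : ℕ) (ε : Sec) : Ev HE →ₐ[ℝ] Ev (IT N) := gE (TL N ε)

def a0T (N : ℕ) (i j : IT N) : ℝ := if i.1 = j.1 then A0 i.2 j.2 else 0
def g0T (N : ℕ) (i j : IT N) : ℝ := if i.1 = j.1 then G0 i.2 j.2 else 0
def qT (N : ℕ) (ε : Sec) (t : ℝ) (i j : IT N) : ℝ :=
  if j = piH N (oppHE (liftH i)) then sgA i.2 * t * chi N ε (lift i.1 + dv i.2) else 0
def j4 (α β : Fin 4) : ℝ := if α = 0 ∧ β = 1 then 1 else if α = 1 ∧ β = 0 then -1 else 0
/-- rank two perturbation acting on constants -/
def jT (N : ℕ) (κ : ℝ) (i j : IT N) : ℝ := κ / (N : ℝ) ^ 2 * j4 i.2 j.2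
def aT (N : ℕ) (ε : Sec) (t κ : ℝ) (i j : IT N) : ℝ := a0T N i j + (qT N ε t + jT N κ) i j
/-- the Pfaffian of `aT` -/
def PT (N : ℕ) [NeZero N] (ε : Sec) (t κ : ℝ) : ℝ :=
  gauss (g0T N) (IsNilpotent.exp (quad Finset.univ (qT N ε t + jT N κ)))
def IsKerT (N : ℕ) [NeZero N] (ε : Sec) (κ : ℝ) (g : IT N → IT N → ℝ) : Prop :=
  Antisym g ∧ ∀ i k, ∑ j, aT N ε tc κ i j * g k j = if i = k then 1 else 0
/-- the five admissible kernels -/
def Adm (N : ℕ) (ε : Sec) (κ : ℝ) : Prop :=
  (ε ≠ (false, false) ∧ κ = 0) ∨ (ε = (false, false) ∧ |κ| = 1 / (2 * N))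
def up (N : ℕ) (ε : Sec) (f : IT N → ℝ) : Fn := fun i => chi N ε i.1 * f (piH N i)
/-- lifted kernel -/
def gL (N : ℕ) (ε : Sec) (g : IT N → IT N → ℝ) (i j : HE) : ℝ := chi N ε i.1 * chi N ε j.1 * g (piH N i) (piH N j)

/-- torus partition function in contour variables -/
def ZT (N : ℕ) [NeZero N] (t : ℝ) (F : Cfg → ℝ) : ℝ :=
  ∑ σ : XT N → Bool, (∏ e ∈ EN N, if nOf (lf N σ) e = true then t else 1) * F (nOf (lf N σ))
/-- the Boltzmann factor of the RG at scale 0 -/
def XB (N : ℕ) (ε : Sec) (r t : ℝ) (F : Cfg → ℝ) : Ev (IT N) :=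
  exA augE (∑ x ∈ dom N, Phi N ε (pLoc id (fun _ => r) wPl (fun _ => t) x)) *
    hat (fun e => (r ^ 2 * t) • Phi N ε (eM id e)) (EN N) fun n => algebraMap ℝ _ (F (per N n))
/-- lower left corner of the bounding box -/
def anc (B : Finset Site) : Site := if h : B.Nonempty then (B.inf' h Prod.fst, B.inf' h Prod.snd) else 0
/-- one representative for each shape on the torus -/
def tShapes (N R : ℕ) : Finset (Finset Site) :=
  ((dom N).biUnion fun z => box z R).powerset.filter fun B => IsShape R B ∧ anc B ∈ dom N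
/-- sup-distance on the torus -/
def dT {N : ℕ} (x y : XT N) : ℕ := max (x.1 - y.1).valMinAbs.natAbs (x.2 - y.2).valMinAbs.natAbs

variable {N : ℕ}

/-! ### task E/Basic-a (arithmetic; `ZMod.intCast_eq_intCast_iff'`, `ZMod.val_intCast`, `Int.add_mul_ediv_left`, `Int.mul_ediv_add_emod`) -/

theorem toTorus_add (x y : Site) : toTorus N (x + y) = toTorus N x + toTorus N y := by
  simp [toTorus]

theorem toTorus_sub (x y : Site) : toTorus N (x - y) = toTorus N x - toTorus N y := by
  simp [toTorus]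

theorem toTorus_pv (n : Site) : toTorus N (pv N n) = 0 := by
  simp [toTorus, pv]

theorem toTorus_eq_iff {x y : Site} : toTorus N x = toTorus N y ↔ ∃ n, y = x + pv N n := by
  refine ⟨fun h => ?_, ?_⟩
  · obtain ⟨a, ha⟩ := (ZMod.intCast_eq_intCast_iff_dvd_sub _ _ _).1 (congrArg Prod.fst h)
    obtain ⟨b, hb⟩ := (ZMod.intCast_eq_intCast_iff_dvd_sub _ _ _).1 (congrArg Prod.snd h)
    exact ⟨(a, b), Prod.ext (by simp [pv, ← ha]) (by simp [pv, ← hb])⟩
  · rintro ⟨n, rfl⟩
    rw [toTorus_add, toTorus_pv, add_zero]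

theorem toTorus_lift [NeZero N] (x : XT N) : toTorus N (lift x) = x := by
  simp [toTorus, lift]

theorem lift_toTorus [NeZero N] (x : Site) : lift (toTorus N x) = redS N x := by
  simp only [toTorus, lift, redS, ZMod.val_intCast]

theorem lift_mem [NeZero N] (x : XT N) : lift x ∈ dom N := by
  simp only [dom, lift, Finset.mem_product, Finset.mem_Ico, Nat.cast_nonneg, Nat.cast_lt, ZMod.val_lt, and_self]

theorem redS_of_mem {x : Site} (h : x ∈ dom N) : redS N x = x := by
  simp only [dom, Finset.mem_product, Finset.mem_Ico] at h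
  exact Prod.ext (Int.emod_eq_of_lt h.1.1 h.1.2) (Int.emod_eq_of_lt h.2.1 h.2.2)

theorem redS_mem [NeZero N] (x : Site) : redS N x ∈ dom N := by
  rw [← lift_toTorus]
  exact lift_mem _

theorem toTorus_redS (x : Site) : toTorus N (redS N x) = toTorus N x := by
  simp [toTorus, redS]

theorem redS_eq_iff {x y : Site} : redS N x = redS N y ↔ toTorus N x = toTorus N y := by
  simp only [toTorus, redS, Prod.mk.injEq, ZMod.intCast_eq_intCast_iff']

theorem piH_liftH [NeZero N] (i : IT N) : piH N (liftH i) = i := by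
  simp [piH, liftH, toTorus_lift]

/-- sums over the fundamental domain (`Finset.sum_bij'` with `toTorus`, `lift`) -/
theorem prod_dom [NeZero N] {M : Type} [CommMonoid M] (f : Site → M) : ∏ x ∈ dom N, f x = ∏ x : XT N, f (lift x) := by
  refine Finset.prod_bij' (fun x _ => toTorus N x) (fun x _ => lift x) (fun _ _ => Finset.mem_univ _)
    (fun x _ => lift_mem x) (fun x hx => ?_) (fun x _ => toTorus_lift x) fun x hx => ?_
  · rw [lift_toTorus, redS_of_mem hx]
  · rw [lift_toTorus, redS_of_mem hx]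

theorem sum_dom [NeZero N] {M : Type} [AddCommMonoid M] (f : Site → M) : ∑ x ∈ dom N, f x = ∑ x : XT N, f (lift x) := by
  exact prod_dom (M := Multiplicative M) f

/-- a periodic function has the same sum over a shifted fundamental domain (`sum_dom`, `Equiv.addRight (toTorus N a)`) -/
theorem sum_dom_shift [NeZero N] {M : Type} [AddCommMonoid M] (f : Site → M) (hf : ∀ x n, f (x + pv N n) = f x) (a : Site) :
    ∑ x ∈ dom N, f (x + a) = ∑ x ∈ dom N, f x := by
  rw [sum_dom, sum_dom, ← Equiv.sum_comp (Equiv.addRight (toTorus N a)) fun x => f (lift x)]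
  refine Finset.sum_congr rfl fun x _ => ?_
  obtain ⟨n, hn⟩ := toTorus_eq_iff.1 (show toTorus N (lift x + a) = toTorus N (lift (x + toTorus N a)) by
    rw [toTorus_add, toTorus_lift, toTorus_lift])
  rw [Equiv.coe_addRight, hn, hf]

theorem card_dom : (dom N).card = N ^ 2 := by
  simp [dom, sq]

theorem sgn_add (b : Bool) (k l : ℤ) : sgn b (k + l) = sgn b k * sgn b l := by
  cases b
  · simp [sgn]
  · by_cases hk : Odd k <;> by_cases hl : Odd l <;> simp [sgn, Int.odd_add, hk, hl, ← Int.not_odd_iff_even]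

theorem chi_sq (ε : Sec) (x : Site) : chi N ε x * chi N ε x = 1 := by
  unfold chi sgn
  split_ifs <;> norm_num

theorem abs_chi (ε : Sec) (x : Site) : |chi N ε x| = 1 := by
  unfold chi sgn
  split_ifs <;> norm_num

theorem chi_of_mem (ε : Sec) {x : Site} (h : x ∈ dom N) : chi N ε x = 1 := by
  simp only [dom, Finset.mem_product, Finset.mem_Ico] at h
  simp [chi, sgn, Int.ediv_eq_zero_of_lt h.1.1 h.1.2, Int.ediv_eq_zero_of_lt h.2.1 h.2.2]

theorem chi_ff (x : Site) : chi N (false, false) x = 1 := by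
  simp [chi, sgn]

theorem chi_pv [NeZero N] (ε : Sec) (n : Site) : chi N ε (pv N n) = sgn ε.1 n.1 * sgn ε.2 n.2 := by
  have h : (N : ℤ) ≠ 0 := by exact_mod_cast NeZero.ne N
  simp only [chi, pv, Int.mul_ediv_cancel_left _ h]

theorem chi_add_pv [NeZero N] (ε : Sec) (x n : Site) : chi N ε (x + pv N n) = chi N ε x * chi N ε (pv N n) := by
  have h : (N : ℤ) ≠ 0 := by exact_mod_cast NeZero.ne N
  rw [chi_pv]
  simp only [chi, pv, Prod.fst_add, Prod.snd_add, Int.add_mul_ediv_left _ _ h, sgn_add]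
  ring

/-- `chi (x + a) chi x` is periodic in `x` -/
theorem chi_shift [NeZero N] (ε : Sec) {x y : Site} (h : toTorus N x = toTorus N y) (a : Site) :
    chi N ε (x + a) * chi N ε x = chi N ε (y + a) * chi N ε y := by
  obtain ⟨n, rfl⟩ := toTorus_eq_iff.1 h
  rw [add_right_comm, chi_add_pv, chi_add_pv, mul_mul_mul_comm, chi_sq, mul_one]

theorem per_nOf [NeZero N] (σ : XT N → Bool) : per N (nOf (lf N σ)) = nOf (lf N σ) := by
  funext e
  obtain ⟨x, j⟩ := e
  fin_cases j <;> simp [per, nOf, lf, red, edgeB0, edgeB1, toTorus_add, toTorus_redS]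

theorem per_ind_cont [NeZero N] (σ : XT N → Bool) : per N (ind (cont (EN N) (lf N σ))) = nOf (lf N σ) := by
  rw [← per_nOf]
  funext e
  have : red N e ∈ EN N := Finset.mem_product.2 ⟨redS_mem _, Finset.mem_univ _⟩
  simp [per, ind, cont, this]

/-! ### task E/Basic-b (algebra) -/

theorem coe_gE {I J : Type} (T : GV I →ₗ[ℝ] GV J) (a : Ev I) : (gE T a : Gr J) = gmap T (a : Gr I) := rfl

theorem augE_gE {I J : Type} (T : GV I →ₗ[ℝ] GV J) (a : Ev I) : augE (gE T a) = augE a := by
  change aug (gmap T (a : Gr I)) = aug (a : Gr I)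
  generalize (a : Gr I) = x
  induction x using CliffordAlgebra.left_induction with
  | algebraMap r => rw [AlgHom.commutes, AlgHom.commutes, AlgHom.commutes]
  | add x y hx hy => rw [map_add, map_add, map_add, hx, hy]
  | ι_mul x m hx => simp only [map_mul, gmap_iota, aug_iota, zero_mul]

theorem TL_single (ε : Sec) (i : HE) : TL N ε (Finsupp.single i 1) = Finsupp.single (piH N i) (chi N ε i.1) := by
  simp [TL]

theorem gmap_TL_th (ε : Sec) (i : HE) : gmap (TL N ε) (th i) = chi N ε i.1 • th (piH N i) := by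
  rw [th, gmap_iota, TL_single, th, ← map_smul, Finsupp.smul_single, smul_eq_mul, mul_one]

theorem Phi_th2 (ε : Sec) (i j : HE) :
    Phi N ε (th2 i j) = (chi N ε i.1 * chi N ε j.1) • th2 (piH N i) (piH N j) := by
  refine Subtype.ext ?_
  change gmap (TL N ε) (th i * th j) = (chi N ε i.1 * chi N ε j.1) • (th (piH N i) * th (piH N j))
  rw [map_mul, gmap_TL_th, gmap_TL_th, smul_mul_smul_comm]

theorem Phi_eM (ε : Sec) (e : Edge) :
    Phi N ε (eM id e) = (chi N ε (e.1 + uv e.2) * chi N ε e.1) • eM (piH N) e := by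
  rw [eM, Phi_th2, mul_comm]
  rfl

theorem eM_red (e : Edge) : eM (piH N) (red N e) = eM (piH N) e := by
  simp only [eM, piH, he0, he1, red, toTorus_add, toTorus_redS]

theorem Phi_eM_red [NeZero N] (ε : Sec) (e : Edge) : Phi N ε (eM id (red N e)) = Phi N ε (eM id e) := by
  rw [Phi_eM, Phi_eM, eM_red]
  exact congrArg (· • _) (chi_shift ε (toTorus_redS e.1) (uv e.2))

theorem Phi_a0M (ε : Sec) (x : Site) : Phi N ε (a0M id x) = a0M (piH N) x := by
  simp only [a0M, map_sum]
  refine Finset.sum_congr rfl fun α _ => Finset.sum_congr rfl fun β _ => ?_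
  split_ifs
  · rw [Phi_th2]
    change (chi N ε x * chi N ε x) • _ = _
    rw [chi_sq, one_smul]
    rfl
  · exact map_zero _

/-- `pLoc` with constant data is periodic after projection -/
theorem Phi_pLoc_per [NeZero N] (ε : Sec) (r t : ℝ) {x y : Site} (h : toTorus N x = toTorus N y) :
    Phi N ε (pLoc id (fun _ => r) wPl (fun _ => t) x) = Phi N ε (pLoc id (fun _ => r) wPl (fun _ => t) y) := by
  have h1 : ∀ α, red N (edgeOf x α) = red N (edgeOf y α) := fun α => by
    have h2 : ∀ a, redS N (x - a) = redS N (y - a) := fun a =>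
      redS_eq_iff.2 (by rw [toTorus_sub, toTorus_sub, h])
    have h3 := redS_eq_iff.2 h
    fin_cases α
    · exact Prod.ext h3 rfl
    · exact Prod.ext h3 rfl
    · exact Prod.ext (h2 _) rfl
    · exact Prod.ext (h2 _) rfl
  have h4 : ∀ α, Phi N ε (eM id (edgeOf x α)) = Phi N ε (eM id (edgeOf y α)) := fun α => by
    rw [← Phi_eM_red, h1, Phi_eM_red]
  have h5 : a0M (piH N) x = a0M (piH N) y := by simp only [a0M, piH, h]
  simp only [pLoc, map_add, map_sum, map_smul, Phi_a0M, h4, h5, wPl]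

theorem map_hat {A B : Type} [CommRing A] [CommRing B] [Algebra ℝ A] [Algebra ℝ B] (Ψ : A →ₐ[ℝ] B) (x : Edge → A)
    (E₀ : Finset Edge) (F : Cfg → A) : Ψ (hat x E₀ F) = hat (fun e => Ψ (x e)) E₀ fun n => Ψ (F n) := by
  simp only [hat, map_sum, map_mul, map_prod, map_pow, map_neg, map_one]

/-- charts for `hat`: `T ↦ T.image (red N)` is a bijection of the power sets (`Finset.powerset_image`, `sum_image`, `card_image_of_injOn`) -/
theorem hat_red {A : Type} [CommRing A] (x : Edge → A) (hx : ∀ e, x (red N e) = x e) (E₀ : Finset Edge)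
    (hE : Set.InjOn (red N) ↑E₀) {F : Cfg → A} (hF : DependsOn F ↑E₀) :
    hat x (E₀.image (red N)) (fun n => F (per N n)) = hat x E₀ F := by
  have hi : ∀ {T : Finset Edge}, T ⊆ E₀ → Set.InjOn (fun U : Finset Edge => U.image (red N)) ↑T.powerset :=
    fun {T} hT U hU U' hU' e => by
      have h1 : ∀ {U : Finset Edge}, U ∈ (↑T.powerset : Set (Finset Edge)) → (↑U : Set Edge) ⊆ ↑E₀ := fun hU =>
        Finset.coe_subset.2 ((Finset.mem_powerset.1 (Finset.mem_coe.1 hU)).trans hT)
      refine Finset.coe_injective ((hE.image_eq_image_iff (h1 hU) (h1 hU')).1 ?_)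
      simpa only [Finset.coe_image] using congrArg (fun s : Finset Edge => (s : Set Edge)) e
  rw [hat, hat, Finset.powerset_image, Finset.sum_image (hi subset_rfl)]
  refine Finset.sum_congr rfl fun T hT => ?_
  have hT' := Finset.mem_powerset.1 hT
  rw [Finset.powerset_image, Finset.sum_image (hi hT'), Finset.prod_image (hE.mono hT'),
    Finset.card_image_of_injOn (hE.mono hT')]
  simp only [hx]
  congr 1
  refine Finset.sum_congr rfl fun U hU => ?_
  have hU' := (Finset.mem_powerset.1 hU).trans hT'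
  rw [Finset.card_image_of_injOn (hE.mono hU')]
  congr 1
  refine hF fun e he => ?_
  simp only [per, ind, Finset.mem_image, decide_eq_decide]
  exact ⟨fun ⟨a, ha, h⟩ => hE (hU' ha) he h ▸ ha, fun h => ⟨e, h, rfl⟩⟩

theorem bil_TL (ε : Sec) {g : IT N → IT N → ℝ} (hg : Antisym g) (i j : HE) :
    bil g (TL N ε (Finsupp.single i 1)) (TL N ε (Finsupp.single j 1)) = gL N ε g i j := by
  have h : ∀ (k : IT N) (c : ℝ), Finsupp.single k c = c • Finsupp.single k (1 : ℝ) := fun k c => by simp
  rw [TL_single, TL_single, h (piH N i), h (piH N j)]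
  simp only [map_smul, LinearMap.smul_apply, hg.bil_single, smul_eq_mul, gL]
  ring

theorem antisym_gL (ε : Sec) {g : IT N → IT N → ℝ} (hg : Antisym g) : Antisym (gL N ε g) := by
  intro i j
  simp only [gL, hg (piH N i) (piH N j)]
  ring

end Crest.Agent.R165.E
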