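import Crest.Agent.R165.E.Defs

/-! # R165/E (torus, owner helper12): the torus geometry -/

set_option autoImplicit false
noncomputable section
open Classical Crest.ProbabilityR.IsingModel

namespace Crest.Agent.R165.E
open BA

variable {N : ℕ}

theorem geo_min [NeZero N] (k : ℤ) : ((k : ZMod N)).valMinAbs.natAbs ≤ k.natAbs :=
  ZMod.natAbs_min_of_le_div_two N _ k (ZMod.coe_valMinAbs _) (ZMod.natAbs_valMinAbs_le _)

theorem geo_eq [NeZero N] {k : ℤ} (h : 2 * k.natAbs ≤ N) : ((k : ZMod N)).valMinAbs.natAbs = k.natAbs :=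
  le_antisymm (geo_min k) (ZMod.natAbs_min_of_le_div_two N k _ (ZMod.coe_valMinAbs _).symm (by omega))

theorem geo_eq' [NeZero N] {k : ℤ} (h : 2 * k.natAbs < N) : ((k : ZMod N)).valMinAbs = k :=
  (ZMod.valMinAbs_spec _ _).2 ⟨rfl, by constructor <;> omega⟩

/-- `ZMod.natAbs_min_of_le_div_two` / `ZMod.valMinAbs` has minimal absolute value in its class -/
theorem dT_le [NeZero N] (x y : Site) : dT (toTorus N x) (toTorus N y) ≤ supd x y := by
  unfold dT supd toTorus
  simp only [← Int.cast_sub]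
  exact max_le_max (geo_min _) (geo_min _)

theorem dT_eq [NeZero N] {x y : Site} (h : 2 * supd x y ≤ N) : dT (toTorus N x) (toTorus N y) = supd x y := by
  unfold supd at h
  unfold dT supd toTorus
  simp only [← Int.cast_sub]
  rw [geo_eq (by omega), geo_eq (by omega)]

/-- the lift nearest to `x` -/
def near (N : ℕ) (x : Site) (y : XT N) : Site :=
  x + ((y.1 - (x.1 : ZMod N)).valMinAbs, (y.2 - (x.2 : ZMod N)).valMinAbs)

theorem toTorus_near [NeZero N] (x : Site) (y : XT N) : toTorus N (near N x y) = y := by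
  simp [toTorus, near]

theorem supd_near [NeZero N] (x : Site) (y : XT N) : supd x (near N x y) = dT (toTorus N x) y := by
  unfold dT supd toTorus near
  rw [← ZMod.natAbs_valMinAbs_neg (_ - y.1), ← ZMod.natAbs_valMinAbs_neg (_ - y.2)]
  simp

theorem near_toTorus [NeZero N] {x y : Site} (h : 2 * supd x y < N) : near N x (toTorus N y) = y := by
  unfold supd at h
  unfold near toTorus
  simp only [← Int.cast_sub]
  rw [geo_eq' (by omega), geo_eq' (by omega)]
  ext <;> simp

theorem two_dT_le [NeZero N] (x y : XT N) : 2 * dT x y ≤ N := by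
  have h1 := ZMod.natAbs_valMinAbs_le (x.1 - y.1)
  have h2 := ZMod.natAbs_valMinAbs_le (x.2 - y.2)
  unfold dT
  omega

theorem dT_tri [NeZero N] (x y z : XT N) : dT x z ≤ dT x y + dT y z := by
  have key : ∀ a b c : ZMod N, (a - c).valMinAbs.natAbs ≤ (a - b).valMinAbs.natAbs + (b - c).valMinAbs.natAbs :=
    fun a b c => by
      have := ZMod.natAbs_valMinAbs_add_le (a - b) (b - c)
      rw [sub_add_sub_cancel] at this
      exact this.trans (Int.natAbs_add_le _ _)
  have h1 := key x.1 y.1 z.1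
  have h2 := key x.2 y.2 z.2
  unfold dT
  omega

theorem filter_dT [NeZero N] (x : Site) (R : ℕ) :
    (Finset.univ.filter fun y : XT N => dT (toTorus N x) y ≤ R) = (box x R).image (toTorus N) := by
  ext y
  simp only [Finset.mem_filter, Finset.mem_univ, true_and, Finset.mem_image, mem_box]
  constructor
  · intro h
    exact ⟨near N x y, by rwa [supd_comm, supd_near], toTorus_near x y⟩
  · rintro ⟨z, hz, rfl⟩
    exact (dT_le x z).trans (by rwa [supd_comm])

/-- centres `x + l • (a, b)`, `|a|, |b| ≤ R / l + 1` -/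
theorem cover_box (x : Site) (R l : ℕ) (hl : 1 ≤ l) :
    ∃ C : Finset Site, C.card ≤ (2 * (R / l) + 3) ^ 2 ∧ ∀ y ∈ box x R, ∃ c ∈ C, supd c y ≤ l := by
  refine ⟨(box 0 (R / l + 1)).image fun a => x + ((l : ℤ) * a.1, (l : ℤ) * a.2), Finset.card_image_le.trans ?_, fun y hy => ?_⟩
  · rw [card_box]; exact le_of_eq (by ring)
  · rw [mem_box'] at hy
    have hl' : (0 : ℤ) < l := by exact_mod_cast hl
    have key : ∀ t : ℤ, -(R : ℤ) ≤ t → t ≤ R → -((R / l + 1 : ℕ) : ℤ) ≤ t / l ∧ t / l ≤ ((R / l + 1 : ℕ) : ℤ) ∧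
        (l * (t / l) - t).natAbs ≤ l := fun t h1 h2 => by
      have e1 := Int.mul_ediv_add_emod t l
      have e2 := Int.emod_nonneg t hl'.ne'
      have e3 := Int.emod_lt_of_pos t hl'
      have e4 := Int.mul_ediv_add_emod (R : ℤ) l
      have e5 := Int.emod_lt_of_pos (R : ℤ) hl'
      have e6 := Int.ediv_le_ediv hl' h2
      push_cast
      refine ⟨?_, by omega, by omega⟩
      rw [Int.le_ediv_iff_mul_le hl']
      nlinarith
    obtain ⟨a1, a2, a3⟩ := key (y.1 - x.1) (by omega) (by omega)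
    obtain ⟨b1, b2, b3⟩ := key (y.2 - x.2) (by omega) (by omega)
    refine ⟨_, Finset.mem_image_of_mem _ (a := ((y.1 - x.1) / l, (y.2 - x.2) / l)) ?_, ?_⟩
    · rw [mem_box']; simp only [Prod.fst_zero, Prod.snd_zero]; omega
    · unfold supd
      simp only [Prod.fst_add, Prod.snd_add]
      omega

def GT (N : ℕ) [NeZero N] : Geo (XT N) where
  d := dT
  d_self x := by simp [dT]
  d_comm x y := by
    unfold dT
    rw [← ZMod.natAbs_valMinAbs_neg (x.1 - y.1), ← ZMod.natAbs_valMinAbs_neg (x.2 - y.2), neg_sub, neg_sub]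
  d_tri := dT_tri
  ball x R := Finset.univ.filter fun y => dT x y ≤ R
  mem_ball x R y := by simp
  cover x R l hl := by
    obtain ⟨C, hC, h⟩ := cover_box (lift x) R l hl
    refine ⟨C.image (toTorus N), Finset.card_image_le.trans hC, fun y hy => ?_⟩
    rw [← toTorus_lift x, filter_dT, Finset.mem_image] at hy
    obtain ⟨z, hz, rfl⟩ := hy
    obtain ⟨c, hc, h'⟩ := h z hz
    exact ⟨_, Finset.mem_image_of_mem _ hc, (dT_le c z).trans h'⟩

theorem injOn_toTorus {W : Set Site} (h : ∀ x ∈ W, ∀ y ∈ W, supd x y < N) : Set.InjOn (toTorus N) W := by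
  intro x hx y hy e
  have h1 := h x hx y hy
  unfold supd at h1
  unfold toTorus at e
  obtain ⟨e1, e2⟩ := Prod.mk.inj e
  rw [ZMod.intCast_eq_intCast_iff_dvd_sub] at e1 e2
  have a1 := Int.eq_zero_of_dvd_of_natAbs_lt_natAbs e1 (by omega)
  have a2 := Int.eq_zero_of_dvd_of_natAbs_lt_natAbs e2 (by omega)
  exact Prod.ext (by omega) (by omega)

end Crest.Agent.R165.E
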