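import Crest.Agent.R165.D4.Main
import Crest.Agent.R165.E.Geo
import Crest.Agent.R165.E.Defs

/-! # R165/E (torus, owner helper12): charts for the algebra with sources, periodised kernels, the torus step -/

set_option autoImplicit false
noncomputable section
open Classical Crest.ProbabilityR.IsingModel

namespace Crest.Agent.R165.E

variable {N : ℕ}

abbrev IxT (N : ℕ) : Type := IxH (IT N)
abbrev AlT (N : ℕ) : Type := Ev (IxT N)

/-- projection plane → torus -/
def TI (N : ℕ) (ε : Sec) : GV Ix →ₗ[ℝ] GV (IxT N) :=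
  vmap (Sum.elim (fun i => chi N ε i.1 • dl (piH N i)) fun q => dz q.1 q.2)
def PhI (N : ℕ) (ε : Sec) : Al →ₐ[ℝ] AlT N := gmapE (TI N ε)
def nearH (N : ℕ) (x : Site) (a : IT N) : HE := (near N x a.1, a.2)
/-- the section centred at `x` -/
def SI (N : ℕ) (ε : Sec) (x : Site) : GV (IxT N) →ₗ[ℝ] GV Ix :=
  vmap (Sum.elim (fun a => chi N ε (near N x a.1) • dl (nearH N x a)) fun q => dz q.1 q.2)
def PsI (N : ℕ) (ε : Sec) (x : Site) : AlT N →ₐ[ℝ] Al := gmapE (SI N ε x)
/-- periodisation of a translation invariant kernel of short range -/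
def perK (N : ℕ) (ε : Sec) (k : HE → HE → ℝ) (a b : IT N) : ℝ :=
  chi N ε (near N (lift a.1) b.1) * k (liftH a) (nearH N (lift a.1) b)
def ShI (k : HE → HE → ℝ) : Prop := ∀ (a : Site) (i j : HE), k (i.1 + a, i.2) (j.1 + a, j.2) = k i j
def Rng (k : HE → HE → ℝ) (r : ℕ) : Prop := ∀ i j : HE, r < supd i.1 j.1 → k i j = 0
def gleP (p : Par) (j : ℕ) (i i' : HE) : ℝ := R165.chi p j (i.1 - i'.1) * gPl i i'
/-- elements whose half-edge generators lie over `W` -/
def Over (W : Set Site) (F : Al) : Prop := (F : Gr Ix) ∈ supA {i | ∀ a : HE, i = Sum.inl a → a.1 ∈ W}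

/-- one local observable in the plane -/
structure Ob where
  R : ℕ
  Gam : ℕ → ℝ
  h : ℝ
  y : Edge
  O : Cfg → ℝ
  oS : Finset Site

def Ob.g (o : Ob) : Geom := gPlane o.R o.Gam (fun _ => o.h) 0 1 (fun _ => o.y) (fun _ => o.O) fun _ => o.oS
def ups (p : Par) (Γ : ℕ → ℝ) (j : ℕ) (x : Site) : Set (GV Ix) := (gPl0 0 Γ).Ups p j x
def rad (p : Par) (j : ℕ) : ℕ := if j = 0 then 3 else p.lam j

def LcT (N : ℕ) [NeZero N] (p : Par) (j : ℕ) : Finset (XT N) → Subalgebra ℝ (AlT N) := LcS (GT N) Prod.fst (p.rho j)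
def CovT (N : ℕ) (ε : Sec) (p : Par) (j : ℕ) : IxT N → IxT N → ℝ := extG (perK N ε (gleP p (j + 1) - gleP p j))
def spT (N : ℕ) (ε : Sec) (p : Par) (o : Ob) (j : ℕ) : Sp (XT N) (AlT N) where
  l := p.l j
  l' := p.l (j + 1)
  mu := muE (CovT N ε p j)
  loc x := (PhI N ε).toLinearMap ∘ₗ (o.g.sp p j).loc (lift x) ∘ₗ (PsI N ε (lift x)).toLinearMap
  cst := cstA.toLinearMap
  mv _ := 0
def UT (N : ℕ) (ε : Sec) (p : Par) (o : Ob) (j : ℕ) (x : XT N) : Set (GV (IxT N)) :=
  {v | ∃ z, toTorus N z = x ∧ ∃ u ∈ o.g.U p j z, v = TI N ε u}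
def BT (N : ℕ) (ε : Sec) (p : Par) (o : Ob) (j : ℕ) : Finset (XT N) → AlT N → ℝ → Prop := BdU (UT N ε p o j)

theorem ups_ob (p : Par) (o : Ob) (j : ℕ) (x : Site) : o.g.Ups p j x = ups p o.Gam j x := rfl

/-! ### task E/Chart-a (kernels) -/

/-- `eta_props` for the empty set (`Fz = ∅` since `|tc| = tc`), `sgn ∅ = 1` -/
theorem gle_plane {p : Par} (hp : p.OK) (R : ℕ) (Gam h : ℕ → ℝ) (jN : ℕ∞) (m : ℕ) (y : ℕ → Edge) (O : ℕ → Cfg → ℝ)
    (oS : ℕ → Finset Site) (j : ℕ) : (gPlane R Gam h jN m y O oS).gle p j = gleP p j := by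
  funext i i'
  have h0 : ∀ x, eta p j ∅ x = 0 := fun x => (eta_props hp j ∅ x).2.2.1 fun b hb => hb.elim
  have h1 : (gPlane R Gam h jN m y O oS).Fz = ∅ := by
    ext b
    simp [Geom.Fz, gPlane, wPl, tc_pos.1.le]
  simp only [Geom.gle, Geom.gloc, h1, h0]
  simp [gPlane, gleP, h0, R165.sgn]

theorem cov_ob {p : Par} (hp : p.OK) (o : Ob) (j : ℕ) : o.g.Cov p j = extG (gleP p (j + 1) - gleP p j) := by
  rw [Geom.Cov, Ob.g, gle_plane hp, gle_plane hp]

theorem gleP_zero (p : Par) : gleP p 0 = 0 := by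
  funext i i'
  simp [gleP, R165.chi]

theorem gleP_shI (p : Par) (j : ℕ) : ShI (gleP p j) := by
  intro a i i'
  simp only [gleP, gPl_shift, add_sub_add_right_eq_sub]

theorem gleP_rng {p : Par} (hp : p.OK) (j : ℕ) : Rng (gleP p j) (31 * p.lam j) := by
  intro i i' h
  rw [gleP, (chi_props hp j _).2.2.1 (by rwa [supd_sub]), zero_mul]

theorem gleP_antisym {p : Par} (hp : p.OK) (j : ℕ) : Antisym (gleP p j) := by
  intro i i'
  rw [gleP, gleP, gPl_ker.1 i i', ← neg_sub i.1, (chi_props hp j _).2.2.2.1, mul_neg]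

theorem lam_facts {p : Par} (hp : p.OK) (j : ℕ) : 100 * p.lam j = p.l j ∧ p.l (j + 1) = p.L * p.l j ∧ 800 ≤ p.l j ∧
    400 * p.l j ≤ p.l (j + 1) ∧ p.lam (j + 1) = p.L * p.lam j ∧ rad p j ≤ p.lam j ∧ rad p j ≤ rad p (j + 1) := by
  obtain ⟨h1, -, h2, h3, h4, -⟩ := D3.lam_eq hp j
  have h5 := (D3.lam_eq hp (j + 1)).1
  refine ⟨h1.symm, by simp only [Par.l]; ring, by omega, by omega, h3, ?_, ?_⟩
  · unfold rad
    split_ifs <;> omega
  · unfold rad
    rw [if_neg (Nat.succ_ne_zero j)]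
    split_ifs <;> omega

theorem ShI.sub {k k' : HE → HE → ℝ} (h : ShI k) (h' : ShI k') : ShI (k - k') := by
  intro a i j
  simp only [Pi.sub_apply, h a i j, h' a i j]

theorem cov_facts {p : Par} (hp : p.OK) (j : ℕ) : ShI (gleP p (j + 1) - gleP p j) ∧
    Rng (gleP p (j + 1) - gleP p j) (31 * p.lam (j + 1)) ∧ Antisym (gleP p (j + 1) - gleP p j) := by
  refine ⟨(gleP_shI p _).sub (gleP_shI p _), fun i i' h => ?_, fun i i' => ?_⟩
  · have h1 := (D3.lam_eq hp j).2.2.2.2.1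
    simp only [Pi.sub_apply, gleP_rng hp (j + 1) i i' h, gleP_rng hp j i i' (by omega), sub_zero]
  · simp only [Pi.sub_apply, gleP_antisym hp (j + 1) i i', gleP_antisym hp j i i']
    ring

theorem perK_sub (ε : Sec) (k k' : HE → HE → ℝ) : perK N ε (k - k') = perK N ε k - perK N ε k' := by
  funext a b
  simp only [perK, Pi.sub_apply, mul_sub]

theorem perK_far [NeZero N] (ε : Sec) {k : HE → HE → ℝ} {r : ℕ} (hr : Rng k r) {a b : IT N} (h : r < dT a.1 b.1) :
    perK N ε k a b = 0 := by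
  rw [perK, hr, mul_zero]
  simpa only [liftH, nearH, supd_near, toTorus_lift] using h

/-- if `dT ≤ r` then `j.1 = near N i.1 (π j.1)` (`toTorus_eq_iff`, `supd_near`), shift by `i.1 - lift (π i.1) = pv N n`, `chi_add_pv`;
otherwise both sides vanish (`dT_le`) -/
theorem gL_perK [NeZero N] (ε : Sec) {k : HE → HE → ℝ} {r : ℕ} (hs : ShI k) (hr : Rng k r) (h2 : 2 * r < N) {i j : HE}
    (h : supd i.1 j.1 + r < N) : gL N ε (perK N ε k) i j = k i j := by
  obtain ⟨x, α⟩ := i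
  obtain ⟨y, β⟩ := j
  by_cases hxy : supd x y ≤ r
  · obtain ⟨n, hn⟩ := toTorus_eq_iff.1 (toTorus_lift (toTorus N x)).symm
    have h1 : chi N ε x * chi N ε (pv N n) = 1 := by rw [← chi_add_pv, ← hn, chi_of_mem ε (lift_mem _)]
    have h3 : near N (x + pv N n) (toTorus N y) = y + pv N n := by
      rw [toTorus_eq_iff.2 ⟨n, (rfl : y + pv N n = _)⟩]
      exact near_toTorus (by rw [supd_add]; omega)
    have h4 := hs (pv N n) (x, α) (y, β)
    simp only [gL, perK, piH, liftH, nearH, hn, h3, chi_add_pv] at h4 ⊢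
    rw [h4]
    linear_combination (k (x, α) (y, β) * chi N ε x * chi N ε (pv N n)) * chi_sq ε y + k (x, α) (y, β) * h1
  · rw [hr _ _ (not_le.1 hxy), gL, perK_far ε hr, mul_zero]
    by_contra hd
    have h1 : supd x (near N x (toTorus N y)) ≤ r := by rw [supd_near]; exact not_lt.1 hd
    have h3 := supd_triangle y x (near N x (toTorus N y))
    rw [supd_comm y x] at h3
    have h4 : near N x (toTorus N y) = y := by
      refine injOn_toTorus (N := N) (W := {near N x (toTorus N y), y}) ?_ (by simp) (by simp) (toTorus_near _ _)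
      rintro a (rfl | rfl) b (rfl | rfl)
      · rw [supd_self]; omega
      · rw [supd_comm]; simp only at h; omega
      · simp only at h; omega
      · rw [supd_self]; omega
    exact hxy (h4 ▸ h1)

theorem antisym_perK [NeZero N] (ε : Sec) {k : HE → HE → ℝ} {r : ℕ} (hs : ShI k) (hr : Rng k r) (h2 : 2 * r < N)
    (ha : Antisym k) : Antisym (perK N ε k) := by
  intro a b
  by_cases hd : dT a.1 b.1 ≤ r
  · have h1 : supd (liftH a).1 (nearH N (lift a.1) b).1 + r < N := by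
      simp only [liftH, nearH, supd_near, toTorus_lift]; omega
    have h3 := gL_perK ε hs hr h2 h1
    have h4 := gL_perK ε hs hr h2 (i := nearH N (lift a.1) b) (j := liftH a) (by rwa [supd_comm])
    have h5 : piH N (nearH N (lift a.1) b) = b := by simp only [piH, nearH, toTorus_near]
    rw [ha, ← h3, gL, gL, piH_liftH, h5, mul_comm (chi N ε _), ← mul_neg] at h4
    refine mul_left_cancel₀ (fun h0 => ?_) h4
    have h6 := congrArg abs h0
    rw [abs_mul, abs_chi, abs_chi] at h6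
    norm_num at h6
  · have h1 : dT a.1 b.1 = dT b.1 a.1 := (GT N).d_comm a.1 b.1
    rw [perK_far ε hr (not_le.1 hd), perK_far ε hr (h1 ▸ not_le.1 hd), neg_zero]

theorem ca2_vs {I J : Type} (T : I → GV J) (i : I) : vmap T (Finsupp.single i 1) = T i := by
  simp [vmap]

theorem ca2_ext {I J : Type} {T T' : GV I →ₗ[ℝ] GV J} (h : ∀ i, T (Finsupp.single i 1) = T' (Finsupp.single i 1)) :
    T = T' :=
  Finsupp.lhom_ext' fun i => LinearMap.ext_ring (h i)

theorem ca2_agree {I : Type} {B B' : LinearMap.BilinForm ℝ (GV I)} {u v : GV I}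
    (h : ∀ i ∈ u.support, ∀ j ∈ v.support,
      B (Finsupp.single i 1) (Finsupp.single j 1) = B' (Finsupp.single i 1) (Finsupp.single j 1)) : B u v = B' u v := by
  have e : ∀ w : GV I, w = ∑ i ∈ w.support, w i • Finsupp.single i (1 : ℝ) := fun w => by
    simp only [Finsupp.smul_single_one]
    exact w.sum_single.symm
  rw [e u, e v]
  simp only [map_sum, map_smul, LinearMap.sum_apply, LinearMap.smul_apply]
  exact Finset.sum_congr rfl fun j hj => congrArg _ (Finset.sum_congr rfl fun i hi => by rw [h i hi j hj])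
theorem extG_add {H : Type} (g g' : H → H → ℝ) : extG (g + g') = extG g + extG g' := by
  funext i j
  cases i <;> cases j <;> simp [extG]

/-- `bil_ext`-type argument, `bil_single` -/
theorem bil_TI (ε : Sec) (G : IT N → IT N → ℝ) (u v : GV Ix) :
    bil (extG G) (TI N ε u) (TI N ε v) = bil (extG (gL N ε G)) u v := by
  refine ca2_agree (B := (bil (extG G)).compl₁₂ (TI N ε) (TI N ε)) fun i _ j _ => ?_
  rw [LinearMap.compl₁₂_apply, TI, ca2_vs, ca2_vs, bil_single]
  cases i <;> cases j <;>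
    simp only [Sum.elim_inl, Sum.elim_inr, map_smul, LinearMap.smul_apply, dl, dz, bil_single, extG, gL, smul_eq_mul]
  · ring
  · simp
  · simp

theorem bil_src {H : Type} (G : H → H → ℝ) (k : ℕ) (b : Bool) (t : ℝ) (v : GV (IxH H)) : bil (extG G) (t • dz k b) v = 0 := by
  refine (ca2_agree (B' := 0) fun i hi j _ => ?_).trans rfl
  obtain rfl : i = Sum.inr (k, b) :=
    Finset.mem_singleton.1 (Finsupp.support_single_subset (Finsupp.support_smul hi))
  rw [bil_single]
  cases j <;> simp [extG]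

/-- value of `bil` on vectors supported over `A` and `B` -/
theorem bil_congr {A B : Set Site} {g g' : HE → HE → ℝ} (h : ∀ i j : HE, i.1 ∈ A → j.1 ∈ B → g i j - g j i = g' i j - g' j i)
    {u v : GV Ix} (hu : ∀ i ∈ u.support, ∃ a : HE, i = Sum.inl a ∧ a.1 ∈ A)
    (hv : ∀ i ∈ v.support, ∃ a : HE, i = Sum.inl a ∧ a.1 ∈ B) : bil (extG g) u v = bil (extG g') u v := by
  refine ca2_agree fun i hi j hj => ?_
  obtain ⟨a, rfl, ha⟩ := hu i hi
  obtain ⟨b, rfl, hb⟩ := hv j hj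
  rw [bil_single, bil_single]
  exact congrArg (· / 2) (h a b ha hb)

/-- finite rank kernels -/
theorem bil_rank {κ : Type} (s : Finset κ) (f f' : κ → Fn) {A B : Set Site} {g : HE → HE → ℝ}
    (h : ∀ i j : HE, i.1 ∈ A → j.1 ∈ B → g j i = -g i j ∧ g i j = ∑ k ∈ s, f k i * f' k j)
    {u v : GV Ix} (hu : ∀ i ∈ u.support, ∃ a : HE, i = Sum.inl a ∧ a.1 ∈ A)
    (hv : ∀ i ∈ v.support, ∃ a : HE, i = Sum.inl a ∧ a.1 ∈ B) :
    bil (extG g) u v = ∑ k ∈ s, pr u (extF (f k)) * pr v (extF (f' k)) := by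
  refine (ca2_agree (B' := ∑ k ∈ s, (LinearMap.mul ℝ ℝ).compl₁₂ (Finsupp.linearCombination ℝ (extF (f k)))
    (Finsupp.linearCombination ℝ (extF (f' k)))) fun i hi j hj => ?_).trans (by simp [LinearMap.sum_apply, pr])
  obtain ⟨a, rfl, ha⟩ := hu i hi
  obtain ⟨b, rfl, hb⟩ := hv j hj
  rw [bil_single]
  simp only [extG, (h a b ha hb).1, LinearMap.sum_apply, LinearMap.compl₁₂_apply, Finsupp.linearCombination_single,
    extF, Sum.elim_inl, one_smul, LinearMap.mul_apply', ← (h a b ha hb).2]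
  ring

/-! ### task E/Chart-b (algebra maps; `gmap_comp`, `gmap_id`, `supA_induction`, `gmap_mu`) -/

section cb
variable {H H' : Type}

theorem cb_ext {M : Type} [AddCommGroup M] [Module ℝ M] {T T' : GV (IxH H) →ₗ[ℝ] M} (h1 : ∀ i, T (dl i) = T' (dl i))
    (h2 : ∀ k b, T (dz k b) = T' (dz k b)) : T = T' :=
  D1.gv_ext fun i => match i with
    | .inl a => h1 a
    | .inr q => h2 q.1 q.2

theorem cb_dl (f : H → GV (IxH H')) (g : ℕ × Bool → GV (IxH H')) (i : H) : vmap (Sum.elim f g) (dl i) = f i :=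
  D1.vmap_single _ (Sum.inl i)

theorem cb_dz (f : H → GV (IxH H')) (g : ℕ × Bool → GV (IxH H')) (k : ℕ) (b : Bool) :
    vmap (Sum.elim f g) (dz k b) = g (k, b) := D1.vmap_single _ (Sum.inr (k, b))

theorem cb_supp (c : H → ℝ) (φ : H → H') {P : H → Prop} {Q : H' → Prop} (h : ∀ a, P a → Q (φ a)) {x : Gr (IxH H)}
    (hx : x ∈ supA {i | ∀ a, i = Sum.inl a → P a}) :
    gmap (vmap (Sum.elim (fun i => c i • dl (φ i)) fun q => dz q.1 q.2)) x ∈ supA {i | ∀ a, i = Sum.inl a → Q a} := by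
  refine D1.gmap_mem_supA' _ (fun i hi j hj => ?_) hx
  rw [D1.vmap_single] at hj
  rintro b rfl
  rcases i with a | q
  · obtain rfl := Sum.inl_injective (Finset.mem_singleton.1 (Finsupp.support_single_subset (Finsupp.support_smul hj)))
    exact h a (hi a rfl)
  · exact absurd (Finset.mem_singleton.1 (Finsupp.support_single_subset hj)) Sum.inl_ne_inr

theorem cb_flip (c : H → ℝ) (φ : H → H') {F : Ev (IxH H)} (hF : flipS F = F) :
    flipS (gmapE (vmap (Sum.elim (fun i => c i • dl (φ i)) fun q => dz q.1 q.2)) F) =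
      gmapE (vmap (Sum.elim (fun i => c i • dl (φ i)) fun q => dz q.1 q.2)) F := by
  conv_rhs => rw [← hF]
  refine Subtype.ext ?_
  simp only [flipS, D1.coe_gmapE, gmap_comp]
  congr 2
  refine cb_ext (fun i => ?_) fun k b => ?_ <;> simp only [LinearMap.comp_apply, flipV, cb_dl, cb_dz, map_smul, map_neg]

end cb

theorem PhI_PsI [NeZero N] (ε : Sec) (x : Site) (F : AlT N) : PhI N ε (PsI N ε x F) = F := by
  refine Subtype.ext ?_
  simp only [PhI, PsI, D1.coe_gmapE, gmap_comp]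
  rw [show TI N ε ∘ₗ SI N ε x = LinearMap.id from cb_ext (fun i => ?_) fun k b => ?_, gmap_id]
  · simp only [LinearMap.comp_apply, TI, SI, cb_dl, map_smul, nearH, piH, toTorus_near, smul_smul, chi_sq, one_smul,
      LinearMap.id_apply]
  · simp only [LinearMap.comp_apply, TI, SI, cb_dz, LinearMap.id_apply]

theorem Over.mono {W W' : Set Site} {F : Al} (h : Over W F) (hW : W ⊆ W') : Over W' F := by
  refine supA_mono (fun i hi => ?_) h
  exact fun a e => hW (hi a e)

theorem over_of_lc {ρ r : ℕ} {Z : Finset Site} {x : Site} {F : Al} (hF : F ∈ LcS geoZ Prod.fst ρ Z)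
    (hZ : ∀ z ∈ Z, supd x z ≤ r) : Over (box x (r + ρ)) F := by
  refine supA_mono (fun i hi a e => ?_) (D1.mem_lcS.1 hF).1
  obtain ⟨z, hz, h⟩ := hi a e
  have h1 := supd_triangle x z a.1
  have h2 := hZ z hz
  rw [D2.geoZ_d] at h
  exact Finset.mem_coe.2 (mem_box.2 (by rw [supd_comm]; omega))

/-- `involute ∘ flip = gauge (-1)` -/
theorem gauge_const {s : ℝ} (hs : s = 1 ∨ s = -1) {F : Al} (hF : flipS F = F) : gmapE (gaugeV fun _ => s) F = F := by
  refine Subtype.ext ?_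
  rw [D1.coe_gmapE]
  rcases hs with rfl | rfl
  · rw [show (gaugeV fun _ => 1) = LinearMap.id from cb_ext (fun i => ?_) fun k b => ?_, gmap_id]
    · simp only [gaugeV, cb_dl, one_smul, LinearMap.id_apply]
    · simp only [gaugeV, cb_dz, LinearMap.id_apply]
  · rw [show (gaugeV fun _ => -1) = (-LinearMap.id) ∘ₗ flipV from cb_ext (fun i => ?_) fun k b => ?_, ← gmap_comp,
      ← D1.involute_eq, show gmap flipV (F : Gr Ix) = F from congrArg Subtype.val hF,
      CliffordAlgebra.involute_eq_of_mem_even F.2]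
    · simp only [gaugeV, flipV, cb_dl, neg_smul, one_smul, LinearMap.comp_apply, LinearMap.neg_apply, LinearMap.id_apply]
    · simp only [gaugeV, flipV, cb_dz, neg_neg, LinearMap.comp_apply, LinearMap.neg_apply, LinearMap.id_apply]

theorem PhI_shift [NeZero N] (ε : Sec) (n : Site) {F : Al} (hF : flipS F = F) :
    PhI N ε (gmapE (shiftV (pv N n)) F) = PhI N ε F := by
  conv_rhs => rw [← gauge_const (mul_self_eq_one_iff.1 (chi_sq (N := N) ε (pv N n))) hF]
  refine Subtype.ext ?_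
  simp only [PhI, D1.coe_gmapE, gmap_comp]
  congr 2
  refine cb_ext (fun i => ?_) fun k b => ?_
  · simp only [LinearMap.comp_apply, TI, shiftV, gaugeV, cb_dl, map_smul, chi_add_pv, piH, toTorus_add, toTorus_pv, add_zero,
      smul_smul, mul_comm]
  · simp only [LinearMap.comp_apply, TI, shiftV, gaugeV, cb_dz]

theorem PsI_PhI [NeZero N] (ε : Sec) {x : Site} {r : ℕ} (hr : 2 * r < N) {F : Al} (hF : Over (box x r) F) :
    PsI N ε x (PhI N ε F) = F := by
  refine Subtype.ext ?_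
  simp only [PhI, PsI, D1.coe_gmapE, gmap_comp]
  refine (D1.gmap_congr (fun i hi => ?_) hF).trans (gmap_id _)
  rcases i with a | q
  · have h1 := mem_box.1 (Finset.mem_coe.1 (hi a rfl))
    have h2 : near N x (toTorus N a.1) = a.1 := near_toTorus (by rw [supd_comm]; omega)
    change SI N ε x (TI N ε (dl a)) = dl a
    simp only [TI, SI, cb_dl, map_smul, nearH, piH, h2, smul_smul, chi_sq, one_smul]
  · change SI N ε x (TI N ε (dz q.1 q.2)) = dz q.1 q.2
    simp only [TI, SI, cb_dz]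

theorem PsI_PhI_pv [NeZero N] (ε : Sec) {x : Site} {r : ℕ} (hr : 2 * r < N) {F : Al} (hF : Over (box x r) F)
    (hf : flipS F = F) (n : Site) : PsI N ε (x + pv N n) (PhI N ε F) = gmapE (shiftV (pv N n)) F := by
  rw [← PhI_shift ε n hf]
  refine PsI_PhI ε hr ?_
  have := cb_supp (fun _ => 1) (fun i : HE => (i.1 + pv N n, i.2)) (Q := fun a => a.1 ∈ (↑(box (x + pv N n) r) : Set Site))
    (fun a ha => Finset.mem_coe.2 (add_mem_box.2 (Finset.mem_coe.1 ha))) hF
  simp only [one_smul] at this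
  exact this

theorem PhI_mem [NeZero N] (ε : Sec) {ρ : ℕ} {Z : Finset Site} {F : Al} (hF : F ∈ LcS geoZ Prod.fst ρ Z) :
    PhI N ε F ∈ LcS (GT N) Prod.fst ρ (Z.image (toTorus N)) := by
  obtain ⟨h1, h2⟩ := D1.mem_lcS.1 hF
  refine D1.mem_lcS.2 ⟨cb_supp _ _ (fun a ⟨z, hz, h⟩ => ?_) h1, cb_flip _ _ h2⟩
  exact ⟨_, Finset.mem_image_of_mem _ hz, (dT_le z a.1).trans (by rwa [D2.geoZ_d] at h)⟩

theorem PsI_mem [NeZero N] (ε : Sec) {ρ r : ℕ} (hr : 2 * (r + ρ) < N) {Z : Finset (XT N)} {x : Site}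
    (hZ : ∀ z ∈ Z, dT (toTorus N x) z ≤ r) {F : AlT N} (hF : F ∈ LcS (GT N) Prod.fst ρ Z) :
    PsI N ε x F ∈ LcS geoZ Prod.fst ρ (Z.image (near N x)) := by
  obtain ⟨h1, h2⟩ := D1.mem_lcS.1 hF
  refine D1.mem_lcS.2 ⟨cb_supp _ _ (fun a ⟨z, hz, h⟩ => ⟨_, Finset.mem_image_of_mem _ hz, ?_⟩) h1, cb_flip _ _ h2⟩
  have h3 : supd (near N x z) (near N (near N x z) a.1) ≤ ρ := by rwa [supd_near, toTorus_near]
  have h4 : supd x (near N x z) ≤ r := by rw [supd_near]; exact hZ z hz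
  have h5 := supd_triangle x (near N x z) (near N (near N x z) a.1)
  have h6 := near_toTorus (N := N) (x := x) (y := near N (near N x z) a.1) (by omega)
  rw [toTorus_near] at h6
  rw [D2.geoZ_d, nearH, h6]
  exact h3

theorem augE_PhI (ε : Sec) (F : Al) : augE (PhI N ε F) = augE F := by
  exact D1.aug_gmap _ _

theorem PhI_cstA (ε : Sec) (F : Al) : PhI N ε (cstA F) = cstA (PhI N ε F) := by
  refine Subtype.ext ?_
  simp only [PhI, cstA, D1.coe_gmapE, gmap_comp]
  congr 2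
  refine cb_ext (fun i => ?_) fun k b => ?_ <;>
    simp only [LinearMap.comp_apply, TI, cb_dl, cb_dz, map_smul, map_zero, smul_zero]

theorem PhI_tau (ε : Sec) (k : ℕ) : PhI N ε (tau k) = tau k := by
  refine Subtype.ext ?_
  simp only [PhI, TI, tau, D1.coe_gmapE, D1.coe_th2, map_mul, D1.gmap_vmap_th]
  rfl

/-- `gmap_ctr` twice, `aug_gmap` -/
theorem coefT_PhI (ε : Sec) (F : Al) : coefT [0] (PhI N ε F) = coefT [0] F := by
  have key : ∀ (b : Bool) (x : Gr Ix), ctr (Finsupp.lapply (Sum.inr (0, b))) (gmap (TI N ε) x) =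
      gmap (TI N ε) (ctr (Finsupp.lapply (Sum.inr (0, b))) x) := fun b x =>
    (gmap_ctr _ (fun j _ => by
      rcases j with a | q <;> simp [TI, D1.vmap_single, dl, dz, Finsupp.single_apply]) (mem_supA_univ x)).symm
  simp only [coefT, List.map_cons, List.map_nil, List.prod_cons, List.prod_nil, mul_one, PhI, D1.coe_gmapE, dTau,
    LinearMap.comp_apply]
  rw [key, key, D1.aug_gmap]

theorem mu_chart [NeZero N] (ε : Sec) {k : HE → HE → ℝ} {r ρ : ℕ} (hs : ShI k) (hr : Rng k r) (h2 : 2 * r < N)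
    (hρ : 2 * ρ + r < N) {x : Site} {F : Al} (hF : Over (box x ρ) F) :
    muE (extG (perK N ε k)) (PhI N ε F) = PhI N ε (muE (extG k) F) := by
  refine Subtype.ext (gmap_mu _ (fun i hi j hj => ?_) hF).symm
  rw [bil_TI, bil_single, bil_single]
  rcases i with a | q <;> rcases j with b | q' <;> try rfl
  have h1 := mem_box.1 (Finset.mem_coe.1 (hi a rfl))
  have h3 := mem_box.1 (Finset.mem_coe.1 (hj b rfl))
  have h4 := supd_triangle a.1 x b.1
  rw [supd_comm x] at h4
  simp only [extG]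
  rw [gL_perK ε hs hr h2 (by omega), gL_perK ε hs hr h2 (by rw [supd_comm]; omega)]

theorem cb2_mvG (p : Par) (o : Ob) (j : ℕ) (x : Site) : o.g.mvG p j x = 0 :=
  Finset.sum_eq_zero fun _ _ => if_neg fun h => absurd h.1 (not_lt.2 (zero_le (a := (j : ℕ∞))))

theorem cb2_loc2G (p : Par) (o : Ob) (j : ℕ) (x : Site) : o.g.loc2G p j x = loc2 x := by
  have h1 : o.g.Bulk p j x := ⟨fun b hb => by simp [Ob.g, gPlane] at hb, abs_of_pos tc_pos.1⟩
  have h2 : gaugeV (R165.sgn o.g.S x) = LinearMap.id := by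
    refine D1.gv_ext fun i => ?_
    rw [gaugeV, D1.vmap_single]
    rcases i with i | q
    · simp [Ob.g, gPlane, R165.sgn, dl]
    · rfl
  rw [Geom.loc2G, if_pos h1, h2]
  refine LinearMap.ext fun F => ?_
  simp only [LinearMap.comp_apply, AlgHom.toLinearMap_apply, gmap_id]

theorem cb2_shift_inl (a : Site) (i : HE) :
    shiftV a (Finsupp.single (Sum.inl i) 1) = Finsupp.single (Sum.inl (i.1 + a, i.2)) 1 := by
  rw [shiftV, D1.vmap_single]
  rfl

theorem cb2_shift_inr (a : Site) (q : ℕ × Bool) :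
    shiftV a (Finsupp.single (Sum.inr q) 1) = Finsupp.single (Sum.inr q) 1 := by
  rw [shiftV, D1.vmap_single]
  rfl

/-- `mvG = 0` (`jN = 0`), `Bulk` holds everywhere, `sgn ∅ = 1`, `loc2_shift`, `cov_ob`, `gmap_mu`; `evP` commutes with `gmap` -/
theorem loc_shift {p : Par} (hp : p.OK) (o : Ob) (j : ℕ) (x a : Site) (F : Al) :
    (o.g.sp p j).loc (x + a) (gmapE (shiftV a) F) = gmapE (shiftV a) ((o.g.sp p j).loc x F) := by
  have h1 : cstA (gmapE (shiftV a) F) = gmapE (shiftV a) (cstA F) := by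
    refine Subtype.ext ?_
    change gmap _ (gmap _ (F : Gr Ix)) = gmap _ (gmap _ (F : Gr Ix))
    rw [gmap_comp, gmap_comp]
    congr 2
    refine D1.gv_ext fun i => ?_
    rcases i with i | q
    · rw [LinearMap.comp_apply, LinearMap.comp_apply, cb2_shift_inl, D1.vmap_single, D1.vmap_single]
      exact (map_zero _).symm
    · rw [LinearMap.comp_apply, LinearMap.comp_apply, cb2_shift_inr, D1.vmap_single]
      exact (cb2_shift_inr a q).symm
  have h2 : mu (-o.g.Cov p j) (gmap (shiftV a) (F : Gr Ix)) = gmap (shiftV a) (mu (-o.g.Cov p j) (F : Gr Ix)) := by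
    refine (gmap_mu _ (S := Set.univ) (fun i _ i' _ => ?_) (mem_supA_univ _)).symm
    have hs := (cov_facts hp j).1
    rw [cov_ob hp]
    rcases i with i | q <;> rcases i' with i' | q' <;>
      simp only [cb2_shift_inl, cb2_shift_inr, bil_single, Pi.neg_apply, extG]
    rw [hs, hs]
  change cstA (gmapE (shiftV a) F) + evP (o.g.loc2G p j (x + a) (mu (-o.g.Cov p j) (gmap (shiftV a) (F : Gr Ix))) +
      o.g.mvG p j (x + a) (mu (-o.g.Cov p j) (gmap (shiftV a) (F : Gr Ix)))) =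
    gmapE (shiftV a) (cstA F + evP (o.g.loc2G p j x (mu (-o.g.Cov p j) (F : Gr Ix)) +
      o.g.mvG p j x (mu (-o.g.Cov p j) (F : Gr Ix))))
  rw [cb2_mvG, cb2_mvG, cb2_loc2G, cb2_loc2G, LinearMap.zero_apply, LinearMap.zero_apply, add_zero, add_zero, h1, h2,
    loc2_shift, map_add, D1.gmapE_evP]

theorem mv_ob (p : Par) (o : Ob) (j : ℕ) (x : Site) (F : Al) : (o.g.sp p j).mv x F = 0 := by
  change toEv (o.g.mvG p j x) F = 0
  rw [cb2_mvG, D1.toEv_apply, LinearMap.zero_apply, map_zero]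

/-- `lift (π x) = x + pv N n`; `PsI_PhI_pv`, `loc_shift`, `PhI_shift` (the output lies in `Lc {x}` by `sp_alg.loc_mem`) -/
theorem loc_chart [NeZero N] (ε : Sec) {p : Par} (hp : p.OK) (o : Ob) (j : ℕ) {x : Site} {r : ℕ} (hr : 2 * r < N) {F : Al}
    (hF : Over (box x r) F) (hf : flipS F = F) :
    (spT N ε p o j).loc (toTorus N x) (PhI N ε F) = PhI N ε ((o.g.sp p j).loc x F) := by
  obtain ⟨n, hn⟩ := toTorus_eq_iff.1 (toTorus_lift (toTorus N x)).symm
  change PhI N ε ((o.g.sp p j).loc (lift (toTorus N x)) (PsI N ε (lift (toTorus N x)) (PhI N ε F))) = _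
  rw [hn, PsI_PhI_pv ε hr hF hf, loc_shift hp, PhI_shift]
  exact (D1.mem_lcS.1 ((sp_alg p hp.1 hp.2.1 hp.2.2.1 o.g j).loc_mem x F)).2

/-- `lcS_mono`, `lcS_fac` with `perK_far`, `flipS_muE`, `mu_mem_supA`, `PhI_mem` -/
theorem spT_alg [NeZero N] (ε : Sec) {p : Par} (hp : p.OK) (o : Ob) (j : ℕ) :
    (spT N ε p o j).Alg (GT N) (LcT N p j) := by
  obtain ⟨h1, -, h3, h4, -⟩ := lam_facts hp j
  obtain ⟨h5, -⟩ := lam_facts hp (j + 1)
  have hc : ∀ (Z : Finset (XT N)) (F : AlT N), cstA F ∈ LcT N p j Z := fun Z F =>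
    D1.mem_lcS.2 ⟨supA_mono (by rintro _ ⟨b, rfl⟩ a ha; exact nomatch ha) (D1.cstA_mem F), D1.flipS_cstA F⟩
  refine ⟨?_, ?_, fun h => lcS_mono _ _ le_rfl h, fun {Z F} hF => ?_, fun x F => ?_, fun {Z F} _ => hc Z F,
    fun x F _ => zero_mem _, Subtype.ext (mu_one _), fun hs hF hF' => ?_⟩
  · change p.l j ≤ p.l (j + 1); omega
  · change 2 * p.l j ≤ p.l (j + 1); omega
  · obtain ⟨a1, a2⟩ := D1.mem_lcS.1 hF
    exact D1.mem_lcS.2 ⟨mu_mem_supA _ a1, (flipS_muE _ F).trans (congrArg _ a2)⟩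
  · have h := PhI_mem (N := N) ε ((sp_alg p hp.1 hp.2.1 hp.2.2.1 o.g j).loc_mem (lift x) (PsI N ε (lift x) F))
    rw [Finset.image_singleton, toTorus_lift] at h
    exact h
  · exact lcS_fac (GT N) Prod.fst (p.rho j) (31 * p.lam (j + 1)) (p.l (j + 1)) (by rw [Par.rho]; omega) _
      (fun a b hab => perK_far ε (cov_facts hp j).2.1 hab) hs hF hF'

end Crest.Agent.R165.E
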