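import Crest.Agent.R165.E.Defs

/-! # R165/E (torus, owner helper12): contours on the torus (pure combinatorics) -/

set_option autoImplicit false
noncomputable section
open Classical Crest.ProbabilityR.IsingModel

namespace Crest.Agent.R165.E
open BA

variable {N : ℕ}

/-- closedness at the white site `x` -/
def Closed (n : Cfg) : Prop := ∀ x : Site, xor (n (x, 0)) (n (x, 1)) = xor (n (x - (1, 0), 0)) (n (x - (0, 1), 1))

/-- discrete primitive: `F k = parity of the number of true values on [0,k)` (or `Int.rec` with `Nat.rec`) -/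
theorem exists_prim (f : ℤ → Bool) : ∃ F : ℤ → Bool, F 0 = false ∧ ∀ k, F (k + 1) = xor (F k) (f k) := by
  refine ⟨fun k => match k with
    | Int.ofNat n => Nat.rec false (fun m r => xor r (f m)) n
    | Int.negSucc n => Nat.rec (f (-1)) (fun m r => xor r (f (Int.negSucc (m + 1)))) n, rfl, fun k => ?_⟩
  rcases k with n | _ | m
  · rfl
  · change false = xor (f (-1)) (f (-1))
    simp
  · have e : Int.negSucc (m + 1) + 1 = Int.negSucc m := by omega
    rw [e]
    simp

/-- closed ⇒ exact in the plane. `s (a, b) = xor (H a) (W a b)`, `H` = primitive of `a ↦ n ((a, -1), 1)` (the edge crossing the bond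
`(a,0) → (a+1,0)`), `W a` = primitive of `b ↦ n ((a-1, b), 0)` (crossing `(a,b) → (a,b+1)`). The defect of the horizontal bonds
`D a b = s (a,b) xor s (a+1,b) xor n ((a, b-1), 1)` has `D a 0 = false`, `D a (b+1) = D a b` by `Closed` at `(a, b)`; `Int.induction_on`. -/
theorem exists_nOf {n : Cfg} (h : Closed n) : ∃ s : Site → Bool, nOf s = n := by
  obtain ⟨H, H0, hH⟩ := exists_prim fun a => n ((a, -1), 1)
  choose W W0 hW using fun a : ℤ => exists_prim fun b => n ((a - 1, b), 0)
  have step : ∀ a b : ℤ, xor (xor (xor (H a) (W a (b + 1))) (xor (H (a + 1)) (W (a + 1) (b + 1)))) (n ((a, b), 1)) =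
      xor (xor (xor (H a) (W a b)) (xor (H (a + 1)) (W (a + 1) b))) (n ((a, b - 1), 1)) := fun a b => by
    have hc := h (a, b)
    simp only [Prod.mk_sub_mk, sub_zero] at hc
    rw [hW, hW, add_sub_cancel_right]
    revert hc
    cases H a <;> cases H (a + 1) <;> cases W a b <;> cases W (a + 1) b <;> cases n ((a, b), 0) <;>
      cases n ((a, b), 1) <;> cases n ((a - 1, b), 0) <;> cases n ((a, b - 1), 1) <;> decide
  have key : ∀ a b : ℤ, xor (xor (xor (H a) (W a b)) (xor (H (a + 1)) (W (a + 1) b))) (n ((a, b - 1), 1)) = false :=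
    fun a b => by
      induction b using Int.induction_on with
      | zero =>
        rw [W0, W0, hH, zero_sub]
        cases H a <;> cases n ((a, -1), 1) <;> decide
      | succ b ih => rw [add_sub_cancel_right, step, ih]
      | pred b ih =>
        have := step a (-b - 1)
        rw [sub_add_cancel] at this
        rw [← this, ih]
  refine ⟨fun z => xor (H z.1) (W z.1 z.2), funext fun ⟨⟨a, b⟩, j⟩ => ?_⟩
  fin_cases j
  · change xor (xor (H (a + 1)) (W (a + 1) (b + 0))) (xor (H (a + 1)) (W (a + 1) (b + 1))) = n ((a, b), 0)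
    rw [hW, add_zero, add_sub_cancel_right]
    cases H (a + 1) <;> cases W (a + 1) b <;> cases n ((a, b), 0) <;> decide
  · change xor (xor (H (a + 0)) (W (a + 0) (b + 1))) (xor (H (a + 1)) (W (a + 1) (b + 1))) = n ((a, b), 1)
    have := key a (b + 1)
    rw [add_sub_cancel_right] at this
    rw [add_zero]
    revert this
    generalize xor (xor (H a) (W a (b + 1))) (xor (H (a + 1)) (W (a + 1) (b + 1))) = p
    cases p <;> cases n ((a, b), 1) <;> decide

/-- number of edges of `γ` on the two seams -/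
def seam (N : ℕ) (j : Fin 2) (γ : Finset Edge) : ℕ :=
  (γ.filter fun e => e.2 = j ∧ (if j = 0 then e.1.1 else e.1.2) = (N : ℤ) - 1).card

theorem cobb_sgn0 (b : Bool) {a : ℤ} (h0 : 0 ≤ a) (h1 : a < N) : sgn b (a / N) = 1 := by
  rw [Int.ediv_eq_zero_of_lt h0 h1]
  simp [sgn]

theorem cobb_sgn (b : Bool) {a : ℤ} (h0 : 0 ≤ a) (h1 : a < N) :
    sgn b ((a + 1) / N) = if b = true ∧ a = (N : ℤ) - 1 then -1 else 1 := by
  by_cases h : a = (N : ℤ) - 1
  · have : a + 1 = N := by omega
    rw [this, Int.ediv_self (by omega)]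
    simp [sgn, h]
  · rw [cobb_sgn0 b (by omega) (by omega), if_neg fun h' => h h'.2]

/-- `e ∈ EN N`: `chi e.1 = 1`, and `chi (e.1 + uv e.2) = -1` iff `e` is on the seam `e.2` and `ε` is antiperiodic there -/
theorem prod_chi [NeZero N] (ε : Sec) {γ : Finset Edge} (h : γ ⊆ EN N) :
    ∏ e ∈ γ, (chi N ε (e.1 + uv e.2) * chi N ε e.1) =
      (if ε.1 = true then (-1) ^ seam N 0 γ else 1) * if ε.2 = true then (-1) ^ seam N 1 γ else 1 := by
  have key : ∀ (b : Bool) (j : Fin 2), (if b = true then (-1 : ℝ) ^ seam N j γ else 1) =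
      ∏ e ∈ γ, if b = true ∧ e.2 = j ∧ (if j = 0 then e.1.1 else e.1.2) = (N : ℤ) - 1 then -1 else 1 := by
    intro b j
    cases b
    · simp
    · simp only [true_and, if_true]
      rw [Finset.prod_ite, Finset.prod_const, Finset.prod_const_one, mul_one, seam]
  rw [key, key, ← Finset.prod_mul_distrib]
  refine Finset.prod_congr rfl fun e he => ?_
  obtain ⟨⟨a, b⟩, j⟩ := e
  have hd : ((a, b) : Site) ∈ dom N := (Finset.mem_product.1 (h he)).1
  rw [chi_of_mem ε hd, mul_one]
  simp only [dom, Finset.mem_product, Finset.mem_Ico] at hd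
  obtain ⟨⟨a0, a1⟩, b0, b1⟩ := hd
  fin_cases j
  · simp [chi, uv, cobb_sgn _ a0 a1, cobb_sgn0 _ b0 b1]
  · simp [chi, uv, cobb_sgn _ b0 b1, cobb_sgn0 _ a0 a1]

theorem sum_prod_chi [NeZero N] {γ : Finset Edge} (h : γ ⊆ EN N) :
    ∑ ε : Sec, ∏ e ∈ γ, (chi N ε (e.1 + uv e.2) * chi N ε e.1) =
      if Even (seam N 0 γ) ∧ Even (seam N 1 γ) then 4 else 0 := by
  simp only [prod_chi _ h, Fintype.sum_prod_type, Fintype.sum_bool]
  rcases Nat.even_or_odd (seam N 0 γ) with h0 | h0 <;> rcases Nat.even_or_odd (seam N 1 γ) with h1 | h1 <;>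
    simp [h0.neg_one_pow, h1.neg_one_pow, h0, h1, Nat.not_even_iff_odd.2] <;> norm_num

theorem cobb_tel (f : ℕ → Bool) (n : ℕ) :
    Even ((Finset.range n).filter fun b => xor (f b) (f (b + 1)) = true).card ↔ f 0 = f n := by
  induction n with
  | zero => simp
  | succ n ih =>
    rw [Finset.range_add_one, Finset.filter_insert]
    split_ifs with h
    · rw [Finset.card_insert_of_notMem (by simp), Nat.even_add_one, ih]
      revert h
      cases f 0 <;> cases f n <;> cases f (n + 1) <;> simp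
    · rw [ih]
      revert h
      cases f 0 <;> cases f n <;> cases f (n + 1) <;> simp

theorem cobb_mem {γ : Finset Edge} (h : γ ⊆ EN N) {s : Site → Bool} (hs : nOf s = per N (ind γ)) (e : Edge) (he : e ∈ EN N) :
    nOf s e = true ↔ e ∈ γ := by
  rw [hs, per, red, redS_of_mem (Finset.mem_product.1 he).1]
  simp [ind]

/-- telescoping along the column `x.1 = N` (resp. the row `x.2 = N`) of black sites: `∏ (-1)^{n e} = spinSign (s (N, 0)) * spinSign (s (N, N))`.
Here `n = per N (ind γ)`; the seam `0` consists of the edges `((N-1, b), 0)`, `0 ≤ b < N`, crossing the bonds `(N, b) → (N, b+1)`. -/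
theorem seam_even_iff [NeZero N] {γ : Finset Edge} (h : γ ⊆ EN N) {s : Site → Bool} (hs : nOf s = per N (ind γ)) :
    (Even (seam N 0 γ) ↔ s (N, 0) = s (N, N)) ∧ (Even (seam N 1 γ) ↔ s (0, N) = s (N, N)) := by
  have hm := cobb_mem h hs
  have hN : (0 : ℤ) < N := by exact_mod_cast Nat.pos_of_ne_zero (NeZero.ne N)
  constructor
  · have h1 := cobb_tel (fun b => s (N, b)) N
    rw [Nat.cast_zero] at h1
    rw [← h1, seam]
    refine iff_of_eq (congrArg Even (Finset.card_bij (fun (b : ℕ) _ => ((((N : ℤ) - 1, (b : ℤ)), 0) : Edge)) ?_ ?_ ?_).symm)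
    · intro b hb
      rw [Finset.mem_filter, Finset.mem_range] at hb
      refine Finset.mem_filter.2 ⟨(hm _ ?_).1 ?_, by simp⟩
      · simp [EN, dom, hb.1]; omega
      · simpa [nOf, edgeB0, edgeB1] using hb.2
    · intro b _ b' _ hb
      simpa using hb
    · rintro ⟨⟨a, b⟩, j⟩ he
      rw [Finset.mem_filter] at he
      obtain ⟨he, rfl, ha⟩ : _ ∧ j = 0 ∧ a = (N : ℤ) - 1 := by simpa using he
      subst ha
      have h2 := h he
      have h3 := (hm _ h2).2 he
      simp only [EN, dom, Finset.mem_product, Finset.mem_Ico] at h2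
      obtain ⟨b, rfl⟩ := Int.eq_ofNat_of_zero_le h2.1.2.1
      refine ⟨b, Finset.mem_filter.2 ⟨Finset.mem_range.2 (by exact_mod_cast h2.1.2.2), ?_⟩, rfl⟩
      simpa [nOf, edgeB0, edgeB1] using h3
  · have h1 := cobb_tel (fun b => s (b, N)) N
    rw [Nat.cast_zero] at h1
    rw [← h1, seam]
    refine iff_of_eq (congrArg Even (Finset.card_bij (fun (b : ℕ) _ => ((((b : ℤ), (N : ℤ) - 1), 1) : Edge)) ?_ ?_ ?_).symm)
    · intro b hb
      rw [Finset.mem_filter, Finset.mem_range] at hb
      refine Finset.mem_filter.2 ⟨(hm _ ?_).1 ?_, by simp⟩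
      · simp [EN, dom, hb.1]; omega
      · simpa [nOf, edgeB0, edgeB1] using hb.2
    · intro b _ b' _ hb
      simpa using hb
    · rintro ⟨⟨b, a⟩, j⟩ he
      rw [Finset.mem_filter] at he
      obtain ⟨he, rfl, ha⟩ : _ ∧ j = 1 ∧ a = (N : ℤ) - 1 := by simpa using he
      subst ha
      have h2 := h he
      have h3 := (hm _ h2).2 he
      simp only [EN, dom, Finset.mem_product, Finset.mem_Ico] at h2
      obtain ⟨b, rfl⟩ := Int.eq_ofNat_of_zero_le h2.1.1.1
      refine ⟨b, Finset.mem_filter.2 ⟨Finset.mem_range.2 (by exact_mod_cast h2.1.1.2), ?_⟩, rfl⟩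
      simpa [nOf, edgeB0, edgeB1] using h3

theorem seam_cont [NeZero N] (σ : XT N → Bool) :
    Even (seam N 0 (cont (EN N) (lf N σ))) ∧ Even (seam N 1 (cont (EN N) (lf N σ))) := by
  have := seam_even_iff (Finset.filter_subset _ (EN N) : cont (EN N) (lf N σ) ⊆ EN N) (per_ind_cont σ).symm
  exact ⟨this.1.2 (by simp [lf, toTorus]), this.2.2 (by simp [lf, toTorus])⟩

/-- closed with even seams ⇒ contour of a torus configuration. `exists_nOf`; `z ↦ s (z + pv N n)` has the same `nOf` as `s`
(periodicity), so by `eq_of_nOf_eq` and `seam_even_iff` `s` is periodic; `σ = s ∘ lift`. -/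
theorem exists_cont [NeZero N] {γ : Finset Edge} (h : γ ⊆ EN N) (hc : Closed (per N (ind γ)))
    (h0 : Even (seam N 0 γ)) (h1 : Even (seam N 1 γ)) : ∃ σ : XT N → Bool, cont (EN N) (lf N σ) = γ := by
  obtain ⟨s, hs⟩ := exists_nOf hc
  obtain ⟨k0, k1⟩ := seam_even_iff h hs
  have hsh : ∀ n : Site, nOf (fun z => s (z + pv N n)) = nOf s := fun n => by
    funext e
    have e1 : nOf (fun z => s (z + pv N n)) e = nOf s (e.1 + pv N n, e.2) := by
      obtain ⟨x, j⟩ := e
      fin_cases j <;> simp [nOf, edgeB0, edgeB1, add_right_comm]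
    rw [e1, hs, per, per, red, red, redS_eq_iff.2 (toTorus_eq_iff.2 ⟨n, rfl⟩).symm]
  have p0 : Function.Periodic s (pv N (0, 1)) := fun z =>
    congrFun (eq_of_nOf_eq (hsh (0, 1)) (v := (N, 0)) (by simpa [pv] using (k0.1 h0).symm)) z
  have p1 : Function.Periodic s (pv N (1, 0)) := fun z =>
    congrFun (eq_of_nOf_eq (hsh (1, 0)) (v := (0, N)) (by simpa [pv] using (k1.1 h1).symm)) z
  have p : ∀ z n, s (z + pv N n) = s z := fun z n => by
    have := (p1.zsmul n.1).add_period (p0.zsmul n.2) z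
    rwa [show n.1 • pv N (1, 0) + n.2 • pv N (0, 1) = pv N n by simp [pv, mul_comm]] at this
  have hl : lf N (fun x => s (lift x)) = s := by
    funext z
    obtain ⟨n, hn⟩ := toTorus_eq_iff.1 (toTorus_redS (N := N) z)
    rw [lf, lift_toTorus, ← p _ n, ← hn]
  refine ⟨fun x => s (lift x), ?_⟩
  rw [hl]
  ext e
  rw [cont, Finset.mem_filter]
  exact ⟨fun he => (cobb_mem h hs e he.1).1 he.2, fun he => ⟨h he, (cobb_mem h hs e (h he)).2 he⟩⟩

theorem coba_inj [NeZero N] {σ σ' : XT N → Bool} (h : lf N σ = lf N σ') : σ = σ' :=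
  funext fun x => by simpa only [lf, toTorus_lift] using congrFun h (lift x)

theorem coba_not (σ : XT N → Bool) : nOf (lf N fun x => !σ x) = nOf (lf N σ) :=
  funext fun e => by simp [nOf, lf]

/-- the fibres of `σ ↦ cont` are `{σ, !σ}` (`per_ind_cont`, `eq_of_nOf_eq`); `Finset.sum_fiberwise_of_maps_to` / `card_eq_sum_card_fiberwise` -/
theorem sum_cont [NeZero N] (Ψ : Finset Edge → ℝ) :
    ∑ σ : XT N → Bool, Ψ (cont (EN N) (lf N σ)) =
      ∑ γ ∈ (EN N).powerset, (if ∃ σ : XT N → Bool, cont (EN N) (lf N σ) = γ then 2 else 0) * Ψ γ := by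
  rw [← Finset.sum_fiberwise_of_maps_to (s := Finset.univ) (t := (EN N).powerset)
    (g := fun σ : XT N → Bool => cont (EN N) (lf N σ)) fun σ _ => Finset.mem_powerset.2 (Finset.filter_subset _ _)]
  refine Finset.sum_congr rfl fun γ _ => ?_
  rw [Finset.sum_congr rfl (g := fun _ => Ψ γ) fun σ hσ => by rw [(Finset.mem_filter.1 hσ).2], Finset.sum_const,
    nsmul_eq_mul]
  congr 1
  split_ifs with hγ
  · obtain ⟨σ₀, rfl⟩ := hγ
    have hne : σ₀ ≠ fun x => !σ₀ x := fun h => by simpa using congrFun h 0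
    have : (Finset.univ.filter fun σ : XT N → Bool => cont (EN N) (lf N σ) = cont (EN N) (lf N σ₀)) =
        {σ₀, fun x => !σ₀ x} := by
      ext σ
      simp only [Finset.mem_filter, Finset.mem_univ, true_and, Finset.mem_insert, Finset.mem_singleton]
      constructor
      · intro h
        have h1 : nOf (lf N σ) = nOf (lf N σ₀) := by rw [← per_ind_cont, h, per_ind_cont]
        by_cases h2 : lf N σ 0 = lf N σ₀ 0
        · exact Or.inl (coba_inj (eq_of_nOf_eq h1 h2))
        · refine Or.inr (coba_inj (eq_of_nOf_eq (h1.trans (coba_not σ₀).symm) (v := 0) ?_))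
          change _ = !lf N σ₀ 0
          revert h2
          cases lf N σ 0 <;> cases lf N σ₀ 0 <;> decide
      · rintro (rfl | rfl)
        · rfl
        · simp only [cont, coba_not]
    rw [this, Finset.card_pair hne]
    norm_num
  · rw [Finset.filter_false_of_mem fun σ _ h => hγ ⟨σ, h⟩]
    simp

end Crest.Agent.R165.E
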