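import Crest.Agent.R165.G.Main
import Crest.Agent.R165.P.Main

/-! # R165/E (torus, owner helper12): cross Gram representations, nets, gluing (abstract) -/

set_option autoImplicit false
noncomputable section
open Classical

namespace Crest.Agent.R165.E

variable {I : Type}

/-- `bil g u v = ⟪X u, Y v⟫` for `u ∈ U`, `v ∈ V`, with `‖X u‖, ‖Y v‖ ≤ δ` -/
def Cross (U V : Set (GV I)) (g : I → I → ℝ) (δ : ℝ) : Prop :=
  ∀ s t : Finset (GV I), ↑s ⊆ U → ↑t ⊆ V → ∃ (κ : Type) (_ : Fintype κ) (X Y : GV I → κ → ℝ),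
    (∀ u ∈ s, ∀ v ∈ t, bil g u v = ∑ k, X u k * Y v k) ∧ (∀ u ∈ s, ∑ k, X u k ^ 2 ≤ δ ^ 2) ∧ ∀ v ∈ t, ∑ k, Y v k ^ 2 ≤ δ ^ 2

/-- apply `Gram` to `s ∪ t`; index `κ ⊕ κ`, `X' u = (X u, -Y u) / √2`, `Y' v = (Y v, X v) / √2` -/
theorem Cross.of_gram {W U V : Set (GV I)} {g : I → I → ℝ} {δ : ℝ} (h : Gram W g δ) (hU : U ⊆ W) (hV : V ⊆ W) :
    Cross U V g δ := by
  intro s t hs ht
  obtain ⟨κ, _, X, Y, h1, h2⟩ := h (s ∪ t) (by
    rw [Finset.coe_union]; exact Set.union_subset (hs.trans hU) (ht.trans hV))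
  have r2 : (√2 : ℝ) ^ 2 = 2 := Real.sq_sqrt (by norm_num)
  have r0 : (√2 : ℝ) ≠ 0 := by positivity
  refine ⟨κ ⊕ κ, inferInstance, fun u => Sum.elim (fun k => X u k / √2) (fun k => -Y u k / √2),
    fun v => Sum.elim (fun k => Y v k / √2) (fun k => X v k / √2), ?_, ?_, ?_⟩
  · intro u hu v hv
    have := h1 u (Finset.mem_union_left _ hu) v (Finset.mem_union_right _ hv)
    simp only [Fintype.sum_sum_type, Sum.elim_inl, Sum.elim_inr, ← Finset.sum_add_distrib]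
    have e : ∀ k, X u k / √2 * (Y v k / √2) + -Y u k / √2 * (X v k / √2)
        = (X u k * Y v k - X v k * Y u k) / 2 := fun k => by
      rw [div_mul_div_comm, div_mul_div_comm, ← sq, r2]; ring
    simp only [e, ← Finset.sum_div]
    linarith
  · intro u hu
    obtain ⟨a, b⟩ := h2 u (Finset.mem_union_left _ hu)
    simp only [Fintype.sum_sum_type, Sum.elim_inl, Sum.elim_inr, div_pow, r2, neg_sq, ← Finset.sum_div]
    linarith
  · intro u hu
    obtain ⟨a, b⟩ := h2 u (Finset.mem_union_right _ hu)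
    simp only [Fintype.sum_sum_type, Sum.elim_inl, Sum.elim_inr, div_pow, r2, ← Finset.sum_div]
    linarith

theorem Cross.mono {U V U' V' : Set (GV I)} {g : I → I → ℝ} {δ δ' : ℝ} (h : Cross U V g δ) (hU : U' ⊆ U) (hV : V' ⊆ V)
    (hδ : δ ^ 2 ≤ δ' ^ 2) : Cross U' V' g δ' := by
  intro s t hs ht
  obtain ⟨κ, _, X, Y, h1, h2, h3⟩ := h s t (hs.trans hU) (ht.trans hV)
  exact ⟨κ, inferInstance, X, Y, h1, fun u hu => (h2 u hu).trans hδ, fun u hu => (h3 u hu).trans hδ⟩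

/-- index `κ ⊕ κ'` -/
theorem Cross.add {U V : Set (GV I)} {g g' : I → I → ℝ} {δ δ' : ℝ} (h : Cross U V g δ) (h' : Cross U V g' δ')
    (hδ : 0 ≤ δ) (hδ' : 0 ≤ δ') : Cross U V (g + g') (δ + δ') := by
  intro s t hs ht
  obtain ⟨κ, _, X, Y, h1, h2, h3⟩ := h s t hs ht
  obtain ⟨κ', _, X', Y', h1', h2', h3'⟩ := h' s t hs ht
  have e : δ ^ 2 + δ' ^ 2 ≤ (δ + δ') ^ 2 := by nlinarith [mul_nonneg hδ hδ']
  refine ⟨κ ⊕ κ', inferInstance, fun u => Sum.elim (X u) (X' u), fun v => Sum.elim (Y v) (Y' v), ?_, ?_, ?_⟩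
  · intro u hu v hv
    simp only [Fintype.sum_sum_type, Sum.elim_inl, Sum.elim_inr, bil_add, LinearMap.add_apply]
    rw [h1 u hu v hv, h1' u hu v hv]
  · intro u hu
    simp only [Fintype.sum_sum_type, Sum.elim_inl, Sum.elim_inr]
    linarith [h2 u hu, h2' u hu]
  · intro u hu
    simp only [Fintype.sum_sum_type, Sum.elim_inl, Sum.elim_inr]
    linarith [h3 u hu, h3' u hu]

/-- push forward: choose preimages (`choose`), apply `h` to the images of `s`, `t` under the choice functions -/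
theorem Cross.push {J : Type} {U V : Set (GV I)} {U' V' : Set (GV J)} {g : I → I → ℝ} {g' : J → J → ℝ} {δ : ℝ}
    (h : Cross U V g δ) (T : GV I →ₗ[ℝ] GV J) (hU : ∀ u' ∈ U', ∃ u ∈ U, T u = u') (hV : ∀ v' ∈ V', ∃ v ∈ V, T v = v')
    (hg : ∀ u ∈ U, ∀ v ∈ V, bil g' (T u) (T v) = bil g u v) : Cross U' V' g' δ := by
  intro s t hs ht
  choose! a ha ha' using hU
  choose! b hb hb' using hV
  obtain ⟨κ, _, X, Y, h1, h2, h3⟩ := h (s.image a) (t.image b)
    (by intro x hx; obtain ⟨u, hu, rfl⟩ := Finset.mem_image.1 (Finset.mem_coe.1 hx); exact ha u (hs hu))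
    (by intro x hx; obtain ⟨u, hu, rfl⟩ := Finset.mem_image.1 (Finset.mem_coe.1 hx); exact hb u (ht hu))
  refine ⟨κ, inferInstance, fun u => X (a u), fun v => Y (b v), ?_,
    fun u hu => h2 _ (Finset.mem_image_of_mem a hu), fun v hv => h3 _ (Finset.mem_image_of_mem b hv)⟩
  intro u hu v hv
  rw [← h1 _ (Finset.mem_image_of_mem a hu) _ (Finset.mem_image_of_mem b hv),
    ← hg _ (ha u (hs hu)) _ (hb v (ht hv)), ha' u (hs hu), hb' v (ht hv)]

theorem Cross.smul {U V U' V' : Set (GV I)} {g : I → I → ℝ} {δ t : ℝ} (h : Cross U V g δ)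
    (hU : ∀ u' ∈ U', ∃ u ∈ U, u' = t • u) (hV : ∀ v' ∈ V', ∃ v ∈ V, v' = t • v) : Cross U' V' g (t * δ) := by
  intro s s' hs ht
  choose! a ha ha' using hU
  choose! b hb hb' using hV
  obtain ⟨κ, _, X, Y, h1, h2, h3⟩ := h (s.image a) (s'.image b)
    (by intro x hx; obtain ⟨u, hu, rfl⟩ := Finset.mem_image.1 (Finset.mem_coe.1 hx); exact ha u (hs hu))
    (by intro x hx; obtain ⟨u, hu, rfl⟩ := Finset.mem_image.1 (Finset.mem_coe.1 hx); exact hb u (ht hu))
  refine ⟨κ, inferInstance, fun u k => t * X (a u) k, fun v k => t * Y (b v) k, ?_, ?_, ?_⟩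
  · intro u hu v hv
    have e := h1 _ (Finset.mem_image_of_mem a hu) _ (Finset.mem_image_of_mem b hv)
    have e2 : bil g u v = bil g (t • a u) (t • b v) := by rw [← ha' u (hs hu), ← hb' v (ht hv)]
    rw [e2]
    simp only [map_smul, LinearMap.smul_apply, smul_eq_mul, e, Finset.mul_sum]
    exact Finset.sum_congr rfl fun k _ => by ring
  · intro u hu
    simp only [mul_pow, ← Finset.mul_sum]
    exact mul_le_mul_of_nonneg_left (h2 _ (Finset.mem_image_of_mem a hu)) (sq_nonneg t)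
  · intro u hu
    simp only [mul_pow, ← Finset.mul_sum]
    exact mul_le_mul_of_nonneg_left (h3 _ (Finset.mem_image_of_mem b hu)) (sq_nonneg t)

/-- null vectors can be added (`X u = 0`) -/
theorem Cross.null {U V U' V' : Set (GV I)} {g : I → I → ℝ} {δ : ℝ} (h : Cross U V g δ)
    (hU : ∀ u ∈ U', u ∈ U ∨ ∀ v, bil g u v = 0) (hV : ∀ u ∈ V', u ∈ V ∨ ∀ v, bil g u v = 0) : Cross U' V' g δ := by
  intro s t hs ht
  obtain ⟨κ, _, X, Y, h1, h2, h3⟩ := h (s.filter (· ∈ U)) (t.filter (· ∈ V))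
    (fun x hx => (Finset.mem_filter.1 (Finset.mem_coe.1 hx)).2)
    (fun x hx => (Finset.mem_filter.1 (Finset.mem_coe.1 hx)).2)
  refine ⟨κ, inferInstance, fun u k => if u ∈ U then X u k else 0, fun v k => if v ∈ V then Y v k else 0,
    ?_, ?_, ?_⟩
  · intro u hu v hv
    by_cases h1u : u ∈ U
    · by_cases h1v : v ∈ V
      · simp only [h1u, h1v, if_true]
        exact h1 u (Finset.mem_filter.2 ⟨hu, h1u⟩) v (Finset.mem_filter.2 ⟨hv, h1v⟩)
      · have := ((hV v (ht hv)).resolve_left h1v) u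
        rw [bil_swap, this]
        simp [h1v]
    · rw [((hU u (hs hu)).resolve_left h1u) v]
      simp [h1u]
  · intro u hu
    by_cases h1u : u ∈ U
    · simpa [h1u] using h2 u (Finset.mem_filter.2 ⟨hu, h1u⟩)
    · simp [h1u, sq_nonneg]
  · intro u hu
    by_cases h1u : u ∈ V
    · simpa [h1u] using h3 u (Finset.mem_filter.2 ⟨hu, h1u⟩)
    · simp [h1u, sq_nonneg]

/-- explicit finite rank -/
theorem Cross.of_fin {U V : Set (GV I)} {g : I → I → ℝ} {δ : ℝ} {κ : Type} (s : Finset κ) (X Y : GV I → κ → ℝ)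
    (h : ∀ u ∈ U, ∀ v ∈ V, bil g u v = ∑ k ∈ s, X u k * Y v k) (hX : ∀ u ∈ U, ∑ k ∈ s, X u k ^ 2 ≤ δ ^ 2)
    (hY : ∀ v ∈ V, ∑ k ∈ s, Y v k ^ 2 ≤ δ ^ 2) : Cross U V g δ := by
  intro a b ha hb
  refine ⟨s, inferInstance, fun u k => X u k, fun v k => Y v k, ?_, ?_, ?_⟩
  · intro u hu v hv
    rw [h u (ha hu) v (hb hv), ← Finset.sum_coe_sort s]
  · intro u hu
    have := hX u (ha hu)
    rwa [← Finset.sum_coe_sort s] at this
  · intro u hu
    have := hY u (hb hu)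
    rwa [← Finset.sum_coe_sort s] at this

theorem crossb_count {P C : Type} [Fintype P] {f : P → ℝ} (Q : P → Prop) (π : P → C) {t : Finset C} {D : ℕ} {e : ℝ}
    (he : 0 ≤ e) (hf : ∀ p, f p ≤ if Q p then e else 0) (hi : ∀ p q, Q p → Q q → π p = π q → p = q)
    (hm : ∀ p, Q p → π p ∈ t) (ht : t.card ≤ D) : ∑ p, f p ≤ D * e := by
  refine (Finset.sum_le_sum fun p _ => hf p).trans ?_
  rw [← Finset.sum_filter, Finset.sum_const, nsmul_eq_mul]
  refine mul_le_mul_of_nonneg_right ?_ he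
  exact_mod_cast (Finset.card_le_card_of_injOn π (fun p hp => hm p (by simpa using hp))
    fun p hp q hq => hi p q (by simpa using hp) (by simpa using hq)).trans ht

/-- **gluing.** Choose a cell `c u` for `u ∈ s`; `P` = adjacent pairs of cells in `s.image c`; index `Σ P, κ P`;
`X u ⟨(a, b), k⟩ = if c u = a then X^{ab} u k else 0`, `Y v ⟨(a, b), k⟩ = if c v = b then Y^{ab} v k else 0`
(apply `h a b` to the filters of `s`); `∑ X u Y v = bil g u v`, `2 bil u v = bil u v - bil v u` (`bil_swap`). -/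
theorem gram_glue {C : Type} (U : C → Set (GV I)) (adj : C → C → Prop) (hs : ∀ a b, adj a b → adj b a) (D : ℕ)
    (hD : ∀ a, ∃ s : Finset C, s.card ≤ D ∧ ∀ b, adj a b → b ∈ s) {g : I → I → ℝ} {δ δ' : ℝ}
    (h0 : ∀ a b, ¬ adj a b → ∀ u ∈ U a, ∀ v ∈ U b, bil g u v = 0) (h : ∀ a b, adj a b → Cross (U a) (U b) g δ)
    (hδ : D * δ ^ 2 ≤ δ' ^ 2) : Gram (⋃ a, U a) g δ' := by
  intro s hsU
  rcases isEmpty_or_nonempty C with hC | hC
  · have : s = ∅ := Finset.eq_empty_of_forall_notMem fun u hu => by simpa using hsU hu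
    subst this
    exact ⟨Unit, inferInstance, 0, 0, by simp, by simp⟩
  have h1 : ∀ u ∈ s, ∃ a, u ∈ U a := fun u hu => Set.mem_iUnion.1 (hsU hu)
  choose! c hc using h1
  have h2 : ∀ a b : C, ∃ (κ : Type) (_ : Fintype κ) (X Y : GV I → κ → ℝ),
      (∀ u ∈ s, ∀ v ∈ s, c u = a → c v = b → bil g u v = ∑ k, X u k * Y v k) ∧
      (∀ u ∈ s, c u = a → ∑ k, X u k ^ 2 ≤ if adj a b then δ ^ 2 else 0) ∧
      ∀ v ∈ s, c v = b → ∑ k, Y v k ^ 2 ≤ if adj a b then δ ^ 2 else 0 := fun a b => by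
    by_cases hab : adj a b
    · have hsub : ∀ a, (↑(s.filter fun u => c u = a) : Set (GV I)) ⊆ U a := fun a u hu => by
        obtain ⟨hu, e⟩ := Finset.mem_filter.1 (Finset.mem_coe.1 hu)
        exact e ▸ hc u hu
      obtain ⟨κ, hκ, X, Y, a1, a2, a3⟩ := h a b hab _ _ (hsub a) (hsub b)
      refine ⟨κ, hκ, X, Y, fun u hu v hv e e' => a1 u (Finset.mem_filter.2 ⟨hu, e⟩) v (Finset.mem_filter.2 ⟨hv, e'⟩),
        fun u hu e => ?_, fun u hu e => ?_⟩ <;> rw [if_pos hab]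
      · exact a2 u (Finset.mem_filter.2 ⟨hu, e⟩)
      · exact a3 u (Finset.mem_filter.2 ⟨hu, e⟩)
    · refine ⟨Unit, inferInstance, 0, 0, fun u hu v hv e e' => ?_, fun u hu e => by simp [hab], fun u hu e => by simp [hab]⟩
      rw [h0 a b hab u (e ▸ hc u hu) v (e' ▸ hc v hv)]
      simp
  choose κ hκ X Y a1 a2 a3 using h2
  let T := s.image c
  have hT : ∀ u ∈ s, c u ∈ T := fun u hu => Finset.mem_image_of_mem c hu
  let X' : GV I → (Σ p : T × T, κ p.1 p.2) → ℝ := fun u q => if c u = q.1.1 then X q.1.1 q.1.2 u q.2 else 0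
  let Y' : GV I → (Σ p : T × T, κ p.1 p.2) → ℝ := fun u q => if c u = q.1.2 then Y q.1.1 q.1.2 u q.2 else 0
  have key : ∀ u ∈ s, ∀ v ∈ s, ∑ q, X' u q * Y' v q = bil g u v := fun u hu v hv => by
    rw [Fintype.sum_sigma, Finset.sum_eq_single (⟨c u, hT u hu⟩, ⟨c v, hT v hv⟩)]
    · simp only [X', Y', if_true]
      exact (a1 _ _ u hu v hv rfl rfl).symm
    · intro p _ hp
      refine Finset.sum_eq_zero fun k _ => ?_
      simp only [X', Y']
      by_cases e : c u = p.1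
      · by_cases e' : c v = p.2
        · exact absurd (Prod.ext (Subtype.ext e.symm) (Subtype.ext e'.symm)) hp
        · rw [if_neg e', mul_zero]
      · rw [if_neg e, zero_mul]
    · simp
  refine ⟨_, inferInstance, X', Y', fun u hu v hv => ?_, fun u hu => ?_⟩
  · rw [Finset.sum_sub_distrib, key u hu v hv, key v hv u hu, bil_swap g u v]
    ring
  obtain ⟨t, ht, ht'⟩ := hD (c u)
  constructor <;> rw [Fintype.sum_sigma] <;> refine le_trans ?_ hδ
  · refine crossb_count (fun p : T × T => c u = p.1 ∧ adj p.1 p.2) (fun p => p.2.1) (sq_nonneg δ) (fun p => ?_)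
      (fun p q hp hq e => Prod.ext (Subtype.ext (hp.1.symm.trans hq.1)) (Subtype.ext e))
      (fun p hp => ht' _ (hp.1 ▸ hp.2)) ht
    by_cases e : c u = p.1
    · simpa only [X', e, if_true, true_and] using a2 p.1 p.2 u hu e
    · simp [X', e]
  · refine crossb_count (fun p : T × T => c u = p.2 ∧ adj p.1 p.2) (fun p => p.1.1) (sq_nonneg δ) (fun p => ?_)
      (fun p q hp hq e => Prod.ext (Subtype.ext e) (Subtype.ext (hp.1.symm.trans hq.1)))
      (fun p hp => ht' _ (hp.1 ▸ hs _ _ hp.2)) ht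
    by_cases e : c u = p.2
    · simpa only [Y', e, if_true, true_and] using a3 p.1 p.2 u hu e
    · simp [Y', e]

/-- a `2l`-separated finset of maximal cardinality (`Finset.exists_max_image`); a ball of radius `l` contains at most one of its points (`G.cover`) -/
theorem exists_net {X : Type} [Fintype X] (G : Geo X) {l : ℕ} (hl : 1 ≤ l) :
    ∃ c : X → X, (∀ x, G.d (c x) x ≤ 2 * l) ∧
      ∀ (y : X) (r : ℕ), ∃ s : Finset X, s.card ≤ (2 * (r / l) + 3) ^ 2 ∧ ∀ x, G.d y (c x) ≤ r → c x ∈ s := by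
  obtain ⟨S, hS, hmax⟩ := Finset.exists_max_image
    ((Finset.univ : Finset (Finset X)).filter fun S => ∀ a ∈ S, ∀ b ∈ S, G.d a b ≤ 2 * l → a = b) Finset.card
    ⟨∅, by simp⟩
  have hS' : ∀ a ∈ S, ∀ b ∈ S, G.d a b ≤ 2 * l → a = b := (Finset.mem_filter.1 hS).2
  have h1 : ∀ x, ∃ a ∈ S, G.d a x ≤ 2 * l := fun x => by
    by_contra hx
    push Not at hx
    have hxS : x ∉ S := fun h => by simpa [G.d_self] using hx x h
    have := hmax (insert x S) (Finset.mem_filter.2 ⟨Finset.mem_univ _, fun a ha b hb hab => ?_⟩)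
    · rw [Finset.card_insert_of_notMem hxS] at this
      omega
    rcases Finset.mem_insert.1 ha with rfl | ha' <;> rcases Finset.mem_insert.1 hb with rfl | hb'
    · rfl
    · exact absurd (G.d_comm _ _ ▸ hab) (hx b hb').not_ge
    · exact absurd hab (hx a ha').not_ge
    · exact hS' a ha' b hb' hab
  choose c hcS hc using h1
  refine ⟨c, hc, fun y r => ⟨S.filter fun a => G.d y a ≤ r, ?_, fun x hx => Finset.mem_filter.2 ⟨hcS x, hx⟩⟩⟩
  obtain ⟨C, hC, hcov⟩ := G.cover y r l hl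
  have : Nonempty X := ⟨y⟩
  choose! e he he' using hcov
  have hb : ∀ a ∈ S.filter fun a => G.d y a ≤ r, a ∈ G.ball y r := fun a ha => (G.mem_ball _ _ _).2 (Finset.mem_filter.1 ha).2
  refine (Finset.card_le_card_of_injOn e (fun a ha => he a (hb a ha)) fun a ha b hb' hab => ?_).trans hC
  refine hS' a (Finset.mem_filter.1 ha).1 b (Finset.mem_filter.1 hb').1 ?_
  have e1 := he' a (hb a ha)
  have e2 := he' b (hb b hb')
  have e3 := G.d_tri a (e a) b
  rw [G.d_comm a (e a), hab] at e3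
  rw [hab] at e1
  omega

/-- Gram on a finite geometry from charts: cells `U' a = ⋃ {U x | c x = a}`, `adj a b := a, b ∈ range c ∧ d a b ≤ r` -/
theorem gram_net {X : Type} [Fintype X] (G : Geo X) {l : ℕ} (hl : 1 ≤ l) (r : ℕ) (U : X → Set (GV I)) {g : I → I → ℝ}
    {δ δ' : ℝ} (h0 : ∀ x y, r < G.d x y + 4 * l → ∀ u ∈ U x, ∀ v ∈ U y, bil g u v = 0)
    (h : ∀ a b, G.d a b ≤ r → Cross (⋃ x ∈ G.ball a (2 * l), U x) (⋃ x ∈ G.ball b (2 * l), U x) g δ)
    (hδ : ((2 * (r / l) + 3) ^ 2 : ℕ) * δ ^ 2 ≤ δ' ^ 2) : Gram (⋃ x, U x) g δ' := by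
  obtain ⟨c, hc, hn⟩ := exists_net G hl
  have e : (⋃ x, U x) = ⋃ a, ⋃ x ∈ {x | c x = a}, U x := by
    ext u
    simp only [Set.mem_iUnion, Set.mem_ofPred_eq]
    exact ⟨fun ⟨x, hx⟩ => ⟨_, x, rfl, hx⟩, fun ⟨_, x, _, hx⟩ => ⟨x, hx⟩⟩
  rw [e]
  refine gram_glue _ (fun a b => a ∈ Set.range c ∧ b ∈ Set.range c ∧ G.d a b ≤ r)
    (fun a b hab => ⟨hab.2.1, hab.1, G.d_comm a b ▸ hab.2.2⟩) _ (fun a => ?_) (fun a b hab u hu v hv => ?_)
    (fun a b hab => ?_) hδ
  · obtain ⟨s, hs, hs'⟩ := hn a r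
    exact ⟨s, hs, fun b ⟨_, ⟨x, hx⟩, hb⟩ => hx ▸ hs' x (hx ▸ hb)⟩
  · simp only [Set.mem_iUnion, Set.mem_ofPred_eq] at hu hv
    obtain ⟨x, rfl, hu⟩ := hu
    obtain ⟨y, rfl, hv⟩ := hv
    refine h0 x y ?_ u hu v hv
    have h1 : r < G.d (c x) (c y) := not_le.1 fun h => hab ⟨⟨x, rfl⟩, ⟨y, rfl⟩, h⟩
    have h2 := G.d_tri (c x) x (c y)
    have h3 := G.d_tri x y (c y)
    have h4 := hc x
    have h5 := hc y
    rw [G.d_comm] at h5
    omega
  · have hsub : ∀ a, (⋃ x ∈ {x | c x = a}, U x) ⊆ ⋃ x ∈ G.ball a (2 * l), U x := fun a u hu => by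
      simp only [Set.mem_iUnion, Set.mem_ofPred_eq] at hu ⊢
      obtain ⟨x, rfl, hu⟩ := hu
      exact ⟨x, (G.mem_ball _ _ _).2 (hc x), hu⟩
    exact (h a b hab.2.2).mono (hsub a) (hsub b) le_rfl

end Crest.Agent.R165.E
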