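import Crest.Agent.R165.E.Defs

/-! # R165/E (torus, owner helper12): the Boltzmann weight on the torus -/

set_option autoImplicit false
noncomputable section
open Classical Crest.ProbabilityR.IsingModel

namespace Crest.Agent.R165.E
open BA

variable {N : ℕ}

/-- `sum_dom`; the bond `(u, j)` is crossed by `bondEdge u j`; directly: for `e = (x, 0)` the two black sites are `x + (1,0)`, `x + (1,1)`,
for `e = (x, 1)` they are `x + (0,1)`, `x + (1,1)`; `Finset.sum_product`, `Fin.sum_univ_two`, `sum_dom_shift` -/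
theorem pairs_T [NeZero N] (σ : XT N → Bool) :
    ∑ u : XT N, (spinSign (σ u) * spinSign (σ (u.1 + 1, u.2)) + spinSign (σ u) * spinSign (σ (u.1, u.2 + 1))) =
      ∑ e ∈ EN N, spinSign (lf N σ (edgeB0 e)) * spinSign (lf N σ (edgeB1 e)) := by
  have hp : ∀ (a x n : Site), spinSign (lf N σ (x + pv N n)) * spinSign (lf N σ (x + pv N n + a)) =
      spinSign (lf N σ x) * spinSign (lf N σ (x + a)) := fun a x n => by
    simp only [lf, toTorus_add, toTorus_pv, add_zero]
  have h0 := sum_dom_shift (N := N) (fun x => spinSign (lf N σ x) * spinSign (lf N σ (x + (1, 0)))) (hp _) (0, 1)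
  have h1 := sum_dom_shift (N := N) (fun x => spinSign (lf N σ x) * spinSign (lf N σ (x + (0, 1)))) (hp _) (1, 0)
  rw [sum_dom (fun x => spinSign (lf N σ x) * spinSign (lf N σ (x + (1, 0))))] at h0
  rw [sum_dom (fun x => spinSign (lf N σ x) * spinSign (lf N σ (x + (0, 1))))] at h1
  have e0 : ∀ u : XT N, u + toTorus N (1, 0) = (u.1 + 1, u.2) := fun u => by ext <;> simp [toTorus]
  have e1 : ∀ u : XT N, u + toTorus N (0, 1) = (u.1, u.2 + 1) := fun u => by ext <;> simp [toTorus]
  simp only [lf, toTorus_add, toTorus_lift, e0, e1] at h0 h1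
  rw [Finset.sum_add_distrib, ← h0, ← h1, EN, Finset.sum_product, add_comm, ← Finset.sum_add_distrib]
  refine Finset.sum_congr rfl fun x _ => ?_
  simp [Fin.sum_univ_two, edgeB0, edgeB1, lf, toTorus]

theorem ena_le {B : Finset Site} {x : Site} (hx : x ∈ B) : (anc B).1 ≤ x.1 ∧ (anc B).2 ≤ x.2 := by
  rw [anc, dif_pos ⟨x, hx⟩]
  exact ⟨Finset.inf'_le _ hx, Finset.inf'_le _ hx⟩

theorem ena_ex {B : Finset Site} (hB : B.Nonempty) : (∃ x ∈ B, (anc B).1 = x.1) ∧ ∃ x ∈ B, (anc B).2 = x.2 := by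
  rw [anc, dif_pos hB]
  exact ⟨Finset.exists_mem_eq_inf' hB _, Finset.exists_mem_eq_inf' hB _⟩

theorem anc_image (B : Finset Site) (hB : B.Nonempty) (a : Site) : anc (B.image (· + a)) = anc B + a := by
  obtain ⟨⟨x, hx, e1⟩, ⟨y, hy, e2⟩⟩ := ena_ex hB
  obtain ⟨⟨x', hx', e1'⟩, ⟨y', hy', e2'⟩⟩ := ena_ex (hB.image (· + a))
  obtain ⟨p, hp, rfl⟩ := Finset.mem_image.1 hx'
  obtain ⟨q, hq, rfl⟩ := Finset.mem_image.1 hy'
  have h1 := (ena_le (Finset.mem_image_of_mem (· + a) hx)).1
  have h2 := (ena_le (Finset.mem_image_of_mem (· + a) hy)).2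
  have h3 := (ena_le hp).1
  have h4 := (ena_le hq).2
  simp only [Prod.fst_add, Prod.snd_add] at *
  ext
  · simp only [Prod.fst_add]; omega
  · simp only [Prod.snd_add]; omega

theorem ena_box {x y : Site} {R : ℕ} :
    y ∈ box x R ↔ (x.1 - R ≤ y.1 ∧ y.1 ≤ x.1 + R) ∧ x.2 - R ≤ y.2 ∧ y.2 ≤ x.2 + R := by
  simp only [box, Finset.mem_product, Finset.mem_Icc]

theorem ena_sub_box {R : ℕ} {B : Finset Site} (h : IsShape R B) : B ⊆ box (anc B) R := by
  intro z hz
  obtain ⟨⟨x, hx, e1⟩, ⟨y, hy, e2⟩⟩ := ena_ex h.1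
  have h1 := h.2 z hz x hx
  have h2 := h.2 z hz y hy
  simp only [supd] at h1 h2
  rw [ena_box]
  omega

theorem ena_image (B : Finset Site) (a b : Site) : (B.image (· + a)).image (· + b) = B.image (· + (a + b)) := by
  rw [Finset.image_image]
  exact Finset.image_congr fun x _ => add_assoc _ _ _

theorem ena_image0 (B : Finset Site) : B.image (· + (0 : Site)) = B := by simp

theorem ena_shape {R : ℕ} {B : Finset Site} (h : IsShape R B) (a : Site) : IsShape R (B.image (· + a)) := by
  refine ⟨h.1.image _, fun x hx y hy => ?_⟩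
  obtain ⟨p, hp, rfl⟩ := Finset.mem_image.1 hx
  obtain ⟨q, hq, rfl⟩ := Finset.mem_image.1 hy
  have := h.2 p hp q hq
  simp only [supd, Prod.fst_add, Prod.snd_add, add_sub_add_right_eq_sub] at this ⊢
  exact this

theorem mem_tShapes {R : ℕ} {B : Finset Site} : B ∈ tShapes N R ↔ IsShape R B ∧ anc B ∈ dom N := by
  rw [tShapes, Finset.mem_filter, Finset.mem_powerset]
  exact ⟨fun h => h.2, fun h => ⟨fun z hz => Finset.mem_biUnion.2 ⟨_, h.2, ena_sub_box h.1 hz⟩, h⟩⟩

/-- shapes anchored at the corner `0` -/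
def shapes0 (R : ℕ) : Finset (Finset Site) := (box 0 R).powerset.filter fun B => IsShape R B ∧ anc B = 0

theorem ena_mem0 {R : ℕ} {B : Finset Site} : B ∈ shapes0 R ↔ IsShape R B ∧ anc B = 0 := by
  rw [shapes0, Finset.mem_filter, Finset.mem_powerset]
  exact ⟨fun h => h.2, fun h => ⟨h.2 ▸ ena_sub_box h.1, h⟩⟩

theorem ena_norm {R : ℕ} {B : Finset Site} (h : IsShape R B) : B.image (· + -anc B) ∈ shapes0 R :=
  ena_mem0.2 ⟨ena_shape h _, by rw [anc_image B h.1, add_neg_cancel]⟩

/-- `(u, B₀) ↦ B₀ + u` is a bijection `dom N × shapes0 R → tShapes N R` (inverse `B ↦ (anc B, B - anc B)`) -/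
theorem sum_tShapes (R : ℕ) (f : Finset Site → ℝ) :
    ∑ B ∈ tShapes N R, f B = ∑ B ∈ shapes0 R, ∑ u ∈ dom N, f (B.image (· + u)) := by
  rw [← Finset.sum_product' (shapes0 R) (dom N) fun (B : Finset Site) (u : Site) => f (B.image (· + u))]
  refine Finset.sum_nbij' (fun B => (B.image (· + -anc B), anc B)) (fun p => p.1.image (· + p.2)) ?_ ?_ ?_ ?_ ?_
  · intro B hB
    rw [mem_tShapes] at hB
    exact Finset.mem_product.2 ⟨ena_norm hB.1, hB.2⟩
  · intro p hp
    obtain ⟨h1, h2⟩ := Finset.mem_product.1 hp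
    rw [ena_mem0] at h1
    exact mem_tShapes.2 ⟨ena_shape h1.1 _, by rw [anc_image _ h1.1.1, h1.2, zero_add]; exact h2⟩
  · intro B _
    simp only [ena_image, neg_add_cancel, ena_image0]
  · intro p hp
    obtain ⟨h1, h2⟩ := Finset.mem_product.1 hp
    rw [ena_mem0] at h1
    simp only [anc_image _ h1.1.1, h1.2, zero_add, ena_image, add_neg_cancel, ena_image0]
  · intro B _
    simp only [ena_image, neg_add_cancel, ena_image0]

/-- `(B₀, z ∈ B₀) ↦ B₀ - z` is a bijection onto the anchored shapes `A` with `IsShape R A` (inverse `A ↦ (A - anc A, - anc A)`) -/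
theorem sum_anchored (R : ℕ) (f : Finset Site → ℝ) (hf : ∀ A, ¬ IsShape R A → f A = 0) :
    ∑ A ∈ anchoredShapes R, f A = ∑ B ∈ shapes0 R, ∑ z ∈ B, f (B.image (· - z)) := by
  rw [← Finset.sum_filter_of_ne (p := IsShape R) fun A _ h => by_contra fun h' => h (hf A h'), Finset.sum_sigma']
  simp only [sub_eq_add_neg]
  refine Finset.sum_nbij' (fun A => ⟨A.image (· + -anc A), -anc A⟩) (fun p => p.1.image (· + -p.2)) ?_ ?_ ?_ ?_ ?_
  · intro A hA
    obtain ⟨h1, h2⟩ := Finset.mem_filter.1 hA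
    refine Finset.mem_sigma.2 ⟨ena_norm h2, Finset.mem_image.2 ⟨_, (Finset.mem_filter.1 h1).2, ?_⟩⟩
    exact zero_add _
  · intro p hp
    obtain ⟨h1, h2⟩ := Finset.mem_sigma.1 hp
    rw [ena_mem0] at h1
    refine Finset.mem_filter.2 ⟨Finset.mem_filter.2 ⟨Finset.mem_powerset.2 fun x hx => ?_,
      Finset.mem_image.2 ⟨_, h2, add_neg_cancel _⟩⟩, ena_shape h1.1 _⟩
    obtain ⟨q, hq, rfl⟩ := Finset.mem_image.1 hx
    have := h1.1.2 q hq _ h2
    simp only [supd] at this
    simp only [Finset.mem_product, Finset.mem_Icc, Prod.fst_add, Prod.snd_add, Prod.fst_neg, Prod.snd_neg]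
    omega
  · intro A _
    simp only [ena_image, neg_neg, neg_add_cancel, ena_image0]
  · rintro ⟨B, z⟩ hp
    obtain ⟨h1, h2⟩ := Finset.mem_sigma.1 hp
    rw [ena_mem0] at h1
    dsimp only at h1 ⊢
    simp only [anc_image _ h1.1.1, h1.2, zero_add, neg_neg, ena_image, neg_add_cancel, ena_image0]
  · intro A _
    simp only [ena_image, neg_neg, neg_add_cancel, ena_image0]

/-- swap the sums, `sum_anchored` with `f A = ∑ u, V A / |A| * ∏`, `hV.trans`, `sum_dom_shift`, `sum_tShapes` -/
theorem shapes_T [NeZero N] {R : ℕ} {V : Finset Site → ℝ} (hV : PotOK R V) (σ : XT N → Bool) :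
    ∑ u : XT N, ∑ A ∈ anchoredShapes R, V A / A.card * ∏ x ∈ A, spinSign (σ (u + toTorus N x)) =
      ∑ B ∈ tShapes N R, V B * ∏ z ∈ B, spinSign (lf N σ z) := by
  rw [Finset.sum_comm, sum_anchored R, sum_tShapes]
  · refine Finset.sum_congr rfl fun B hB => ?_
    have hne : (B.card : ℝ) ≠ 0 := Nat.cast_ne_zero.2 (Finset.mem_filter.1 hB).2.1.1.card_pos.ne'
    have h1 : ∀ z ∈ B, ∑ u : XT N, V (B.image (· - z)) / (B.image (· - z)).card *
        ∏ x ∈ B.image (· - z), spinSign (σ (u + toTorus N x)) =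
        ∑ u : XT N, V B / B.card * ∏ x ∈ B, spinSign (σ (u + toTorus N x)) := by
      intro z _
      have hi : Function.Injective (· - z) := sub_left_injective
      have hv : V (B.image (· - z)) = V B := by simpa only [sub_eq_add_neg] using hV.trans B (-z)
      rw [hv, Finset.card_image_of_injective _ hi, ← Equiv.sum_comp (Equiv.addRight (toTorus N z))]
      refine Finset.sum_congr rfl fun u _ => ?_
      rw [Finset.prod_image hi.injOn]
      simp only [Equiv.coe_addRight, toTorus_sub, add_add_sub_cancel]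
    rw [Finset.sum_congr rfl h1, Finset.sum_const, nsmul_eq_mul, Finset.mul_sum, sum_dom]
    refine Finset.sum_congr rfl fun u _ => ?_
    rw [hV.trans, Finset.prod_image (add_left_injective _).injOn, ← mul_assoc, mul_div_cancel₀ _ hne]
    simp only [lf, toTorus_add, toTorus_lift, add_comm]
  · intro A hA
    refine Finset.sum_eq_zero fun u _ => ?_
    rcases A.eq_empty_or_nonempty with rfl | hne
    · simp
    · have : V A = 0 := by
        by_contra h
        refine hA ⟨hne, fun x hx y hy => ?_⟩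
        obtain ⟨h1, h2⟩ := hV.range A h x hx y hy
        rw [abs_le] at h1 h2
        unfold supd
        omega
      simp [this]

/-- as `BA.boltz_eq`: `spinSign_mul`, `sB_nOf` (if `V B = 0` the factor is `1`), `Real.exp_sum`; the factor `exp (β J |EN N|)` cancels -/
theorem torus_eq [NeZero N] {R : ℕ} {V : Finset Site → ℝ} (hV : PotOK R V) (J lam β : ℝ) (O : Cfg → ℝ) :
    torusExpect N J lam R V β (fun σ => O (nOf (lf N σ))) =
      ZT N (Real.exp (-2 * β * J)) (fun n => pertF (tShapes N R) (β * lam) V n * O n) /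
        ZT N (Real.exp (-2 * β * J)) (pertF (tShapes N R) (β * lam) V) := by
  have key : ∀ σ : XT N → Bool, Real.exp (-β * energy N J lam R V σ) = Real.exp (β * J * (EN N).card) *
      ((∏ e ∈ EN N, if nOf (lf N σ) e = true then Real.exp (-2 * β * J) else 1) *
        pertF (tShapes N R) (β * lam) V (nOf (lf N σ))) := by
    intro σ
    rw [energy, pairs_T, shapes_T hV]
    generalize lf N σ = s
    have h2 : (∏ e ∈ EN N, if nOf s e = true then Real.exp (-2 * β * J) else 1) =
        Real.exp (∑ e ∈ EN N, β * J * (spinSign (s (edgeB0 e)) * spinSign (s (edgeB1 e)) - 1)) := by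
      rw [Real.exp_sum]
      refine Finset.prod_congr rfl fun e _ => ?_
      rw [spinSign_mul, nOf]
      split_ifs
      · congr 1
        ring
      · simp
    have h3 : pertF (tShapes N R) (β * lam) V (nOf s) =
        Real.exp (∑ B ∈ tShapes N R, β * lam * (V B * ∏ z ∈ B, spinSign (s z))) := by
      rw [Real.exp_sum]
      refine Finset.prod_congr rfl fun B _ => ?_
      by_cases h : V B = 0
      · simp [h]
      · rw [sB_nOf (hV.even B h), mul_assoc]
    rw [h2, h3, ← Real.exp_add, ← Real.exp_add, ← Finset.mul_sum, ← Finset.mul_sum, Finset.sum_sub_distrib]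
    congr 1
    simp only [Finset.sum_const, nsmul_eq_mul, mul_one]
    ring
  rw [torusExpect, ← mul_div_mul_left (ZT _ _ _) _ (Real.exp_pos (β * J * (EN N).card)).ne', ZT, ZT, Finset.mul_sum,
    Finset.mul_sum]
  congr 1
  · refine Finset.sum_congr rfl fun σ _ => ?_
    rw [key]
    ring
  · exact Finset.sum_congr rfl fun σ _ => key σ

end Crest.Agent.R165.E
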