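import Crest.Agent.R165.E.Cob

/-! # R165/E (torus, owner helper12): the sign lemma -/

set_option autoImplicit false
noncomputable section
open Classical Crest.ProbabilityR.IsingModel

namespace Crest.Agent.R165.E
open BA

variable {N : ℕ}

section ops
variable {I : Type}

/-- Majorana operators `θ_i ± ∂_i` -/
def op (s : ℝ) (i : I) (x : Gr I) : Gr I := th i * x + s • ctr (Finsupp.lapply i) x

theorem ctr_th [DecidableEq I] (i j : I) (x : Gr I) :
    ctr (Finsupp.lapply i) (th j * x) = (if j = i then x else 0) - th j * ctr (Finsupp.lapply i) x := by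
  rw [th, ctr_iota_mul]
  split_ifs with h <;> simp [h]

theorem op_neg (s : ℝ) (i : I) (x : Gr I) : op s i (-x) = -op s i x := by
  simp only [op, mul_neg, map_neg, smul_neg, neg_add]

theorem op_anti {i j : I} (h : i ≠ j) (s s' : ℝ) (x : Gr I) : op s i (op s' j x) = -op s' j (op s i x) := by
  have h1 : ctr (Finsupp.lapply i) (ctr (Finsupp.lapply j) x) = -ctr (Finsupp.lapply j) (ctr (Finsupp.lapply i) x) :=
    CliffordAlgebra.contractLeft_comm _ _ _
  have h2 : th i * (th j * x) = -(th j * (th i * x)) := by rw [← mul_assoc, th_swap, neg_mul, mul_assoc]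
  simp only [op, mul_add, map_add, map_smul, ctr_th, if_neg h, if_neg h.symm, mul_smul_comm, h1, h2]
  module

theorem op_sq (s : ℝ) (i : I) (x : Gr I) : op s i (op s i x) = s • x := by
  have h1 : ctr (Finsupp.lapply i) (ctr (Finsupp.lapply i) x) = 0 := CliffordAlgebra.contractLeft_contractLeft _ _
  simp only [op, mul_add, map_add, map_smul, ctr_th, if_true, mul_smul_comm, h1, ← mul_assoc, th_sq, zero_mul]
  module

theorem gauss_op [Fintype I] [DecidableEq I] {g : I → I → ℝ} (hg : Antisym g) {a b : I} {c : ℝ}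
    (h : ∀ k, g a k + c * g b k = (if k = b then c else 0) - if k = a then 1 else 0) (z : Gr I) :
    gauss g (op 1 a (op (-1) b z)) = c * gauss g z := by
  have key : ∀ y, gauss g (op 1 a y) = -c * gauss g (op (-1) b y) := fun y => by
    have hy : y ∈ supA ((Finset.univ : Finset I) : Set I) := by rw [Finset.coe_univ]; exact mem_supA_univ y
    have h1 : gauss g (th a * y) + c * gauss g (th b * y) =
        c * gauss g (ctr (Finsupp.lapply b) y) - gauss g (ctr (Finsupp.lapply a) y) := by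
      rw [gauss_th_mul hg _ a hy, gauss_th_mul hg _ b hy, Finset.mul_sum, ← Finset.sum_add_distrib]
      simp only [← mul_assoc, ← add_mul, h, sub_mul, Finset.sum_sub_distrib, ite_mul, zero_mul, one_mul,
        Finset.sum_ite_eq', Finset.mem_univ, if_true]
    simp only [op, map_add, map_smul, smul_eq_mul]
    linarith
  rw [key, op_sq, map_smul, smul_eq_mul]
  ring

theorem op_edge {i j : I} (h : i ≠ j) {s : ℝ} (hs : s * s = 1) {Y : Gr I} (hi : ctr (Finsupp.lapply i) Y = 0)
    (hj : ctr (Finsupp.lapply j) Y = 0) :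
    op s i (op (-s) j Y) = th i * th j * Y ∧ op s i (op (-s) j (th i * th j * Y)) = Y := by
  have h2 : th j * (th i * (th j * Y)) = 0 := by
    rw [← mul_assoc (th j), th_swap j i, neg_mul, mul_assoc, ← mul_assoc (th j), th_sq, zero_mul, mul_zero, neg_zero]
  constructor
  · simp only [op, hj, smul_zero, add_zero, ctr_th, if_neg h.symm, hi, mul_zero, sub_zero, mul_assoc]
  · simp only [op, mul_assoc, h2, ctr_th, if_neg h, if_true, hj, mul_zero, sub_zero, zero_sub, zero_add, smul_neg, neg_smul,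
      neg_neg, mul_smul_comm, map_smul, hi, smul_smul, hs, one_smul]
    rw [← mul_assoc, th_sq, zero_mul, smul_zero, zero_add]

end ops

theorem antisym_g0T : Antisym (g0T N) := by
  intro i j
  unfold g0T
  by_cases h : i.1 = j.1
  · rw [if_pos h, if_pos h.symm]
    generalize i.2 = a
    generalize j.2 = b
    fin_cases a <;> fin_cases b <;> simp [G0]
  · rw [if_neg h, if_neg (Ne.symm h), neg_zero]

abbrev ET (N : ℕ) : Type := XT N × Fin 2
def hT0 (e : ET N) : IT N := (e.1, ![0, 1] e.2)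
def hT1 (e : ET N) : IT N := (e.1 + toTorus N (uv e.2), ![2, 3] e.2)
def mon (γ : Finset (ET N)) : Ev (IT N) := ∏ e ∈ γ, th2 (hT0 e) (hT1 e)

theorem hT0_ne (e e' : ET N) : hT0 e ≠ hT1 e' := by
  obtain ⟨x, j⟩ := e
  obtain ⟨y, k⟩ := e'
  intro h
  have := congrArg Prod.snd h
  fin_cases j <;> fin_cases k <;> simp [hT0, hT1] at this

theorem hT0_inj {e e' : ET N} (h : hT0 e = hT0 e') : e = e' := by
  obtain ⟨x, j⟩ := e
  obtain ⟨y, k⟩ := e'
  have h1 : x = y := congrArg Prod.fst h
  have := congrArg Prod.snd h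
  fin_cases j <;> fin_cases k <;> simp_all [hT0]

theorem hT1_inj {e e' : ET N} (h : hT1 e = hT1 e') : e = e' := by
  obtain ⟨x, j⟩ := e
  obtain ⟨y, k⟩ := e'
  have h1 := congrArg Prod.fst h
  have := congrArg Prod.snd h
  fin_cases j <;> fin_cases k <;> simp_all [hT1]

theorem ctr_mon {γ : Finset (ET N)} {i : IT N} (h : ∀ e ∈ γ, hT0 e ≠ i ∧ hT1 e ≠ i) :
    ctr (Finsupp.lapply i) (mon γ : Gr (IT N)) = 0 := by
  have hm : (mon γ : Gr (IT N)) ∈ supA {k | k ≠ i} := by
    have : mon γ ∈ (supA {k | k ≠ i}).comap (Subalgebra.val _) :=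
      Subalgebra.prod_mem _ fun e he => Subalgebra.mul_mem (supA {k | k ≠ i}) (th_mem_supA (h e he).1) (th_mem_supA (h e he).2)
    exact this
  rw [ctr_congr (d' := 0) (fun k hk => by simp [Finsupp.single_eq_of_ne' (show k ≠ i from hk)]) hm, ctr_zero]

def flipE (e : ET N) (γ : Finset (ET N)) : Finset (ET N) := if e ∈ γ then γ.erase e else insert e γ

theorem mem_flipE {e e' : ET N} {γ : Finset (ET N)} : e' ∈ flipE e γ ↔ ¬ (e' ∈ γ ↔ e' = e) := by
  unfold flipE
  by_cases h : e' = e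
  · subst h
    split_ifs with h1 <;> simp [h1]
  · split_ifs <;> simp [h]

theorem op_mon {s : ℝ} (hs : s * s = 1) (e : ET N) (γ : Finset (ET N)) :
    op s (hT0 e) (op (-s) (hT1 e) (mon γ)) = mon (flipE e γ) := by
  have key : ∀ δ : Finset (ET N), e ∉ δ → op s (hT0 e) (op (-s) (hT1 e) (mon δ)) = mon (insert e δ) ∧
      op s (hT0 e) (op (-s) (hT1 e) (mon (insert e δ))) = mon δ := fun δ hδ => by
    have hm : (mon (insert e δ) : Gr (IT N)) = th (hT0 e) * th (hT1 e) * mon δ := by
      rw [mon, Finset.prod_insert hδ]; rfl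
    rw [hm]
    exact op_edge (hT0_ne e e) hs
      (ctr_mon fun e' he' => ⟨fun h => hδ (hT0_inj h ▸ he'), (hT0_ne e e').symm⟩)
      (ctr_mon fun e' he' => ⟨hT0_ne e' e, fun h => hδ (hT1_inj h ▸ he')⟩)
  unfold flipE
  split_ifs with h
  · have := (key (γ.erase e) (Finset.notMem_erase e γ)).2
    rwa [Finset.insert_erase h] at this
  · exact (key γ h).1

theorem g0T_corner (x : XT N) (α β : Fin 4) (c : ℝ)
    (h : ∀ δ, G0 α δ + c * G0 β δ = (if δ = β then c else 0) - if δ = α then 1 else 0) (k : IT N) :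
    g0T N (x, α) k + c * g0T N (x, β) k = (if k = (x, β) then c else 0) - if k = (x, α) then 1 else 0 := by
  obtain ⟨y, δ⟩ := k
  by_cases hx : x = y
  · subst hx
    simpa [g0T] using h δ
  · simp [g0T, hx, Ne.symm hx]

theorem gauss_plaq [NeZero N] (hN : 2 ≤ N) (a : XT N) (γ : Finset (ET N)) :
    gauss (g0T N) (mon (flipE (a, 0) (flipE (a + toTorus N (1, 0), 1) (flipE (a + toTorus N (0, 1), 0) (flipE (a, 1) γ)))) : Gr (IT N)) =
      gauss (g0T N) (mon γ : Gr (IT N)) := by
  have hu : a ≠ a + toTorus N (1, 0) := fun h => by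
    have : Fact (1 < N) := ⟨hN⟩
    have := congrArg Prod.fst h
    simp [toTorus] at this
  have n1 : (-1 : ℝ) * -1 = 1 := by norm_num
  rw [← op_mon (one_mul 1), ← op_mon (one_mul 1), ← op_mon n1, ← op_mon n1]
  generalize (mon γ : Gr (IT N)) = z
  simp only [hT0, hT1, uv, Matrix.cons_val_zero, Matrix.cons_val_one, neg_neg]
  rw [add_right_comm a (toTorus N (0, 1))]
  generalize a + toTorus N (1, 0) + toTorus N (0, 1) = x3
  generalize a + toTorus N (0, 1) = x4
  generalize a + toTorus N (1, 0) = x2 at hu ⊢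
  have c1 := gauss_op (antisym_g0T (N := N)) (g0T_corner a 0 1 1 fun δ => by fin_cases δ <;> simp [G0])
  have c2 := gauss_op (antisym_g0T (N := N)) (g0T_corner x2 1 2 1 fun δ => by fin_cases δ <;> simp [G0])
  have c3 := gauss_op (antisym_g0T (N := N)) (g0T_corner x3 2 3 1 fun δ => by fin_cases δ <;> simp [G0])
  have c4 := gauss_op (antisym_g0T (N := N)) (g0T_corner x4 3 0 (-1) fun δ => by fin_cases δ <;> simp [G0])
  have e := c1 (op 1 (x2, 1) (op (-1) (x2, 2) (op 1 (x3, 2) (op (-1) (x3, 3) (op 1 (x4, 3) (op (-1) (x4, 0) z))))))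
  rw [c2, c3, c4] at e
  rw [op_anti (i := (x4, 3)) (j := (x4, 0)) (by simp), op_neg, op_neg,
    op_anti (i := (x3, 2)) (j := (x3, 3)) (by simp), neg_neg,
    op_anti (i := (x3, 2)) (j := (x4, 0)) (by simp), op_neg, op_neg, op_neg,
    op_anti (i := (x2, 1)) (j := (x2, 2)) (by simp), neg_neg,
    op_anti (i := (a, 1)) (j := (x2, 2)) (by simp),
    op_anti (i := (a, 1)) (j := (x2, 1)) (by simpa using hu),
    op_anti (i := (a, 1)) (j := (x3, 3)) (by simp),
    op_anti (i := (a, 1)) (j := (x4, 0)) (by simp),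
    op_anti (i := (a, 1)) (j := (x3, 2)) (by simp)] at e
  simp only [op_neg, neg_neg, map_neg] at e
  linarith

def cT (N : ℕ) [NeZero N] (S : Finset (XT N)) : Finset (ET N) :=
  Finset.univ.filter fun e => ¬ (e.1 + toTorus N (uv e.2) ∈ S ↔ e.1 + toTorus N (1, 0) + toTorus N (0, 1) ∈ S)

theorem gauss_cT [NeZero N] (hN : 2 ≤ N) (S : Finset (XT N)) : gauss (g0T N) (mon (cT N S) : Gr (IT N)) = 1 := by
  induction S using Finset.induction_on with
  | empty =>
    have : cT N ∅ = ∅ := by simp [cT]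
    rw [this, mon, Finset.prod_empty]
    simp [gauss_apply, mu_one]
  | insert b S hb ih =>
    obtain ⟨a, rfl⟩ : ∃ a, b = a + toTorus N (1, 0) + toTorus N (0, 1) :=
      ⟨b - toTorus N (0, 1) - toTorus N (1, 0), by abel⟩
    rw [← ih, ← gauss_plaq hN a (cT N S)]
    refine congrArg (fun γ : Finset (ET N) => gauss (g0T N) (mon γ : Gr (IT N))) ?_
    ext ⟨x, j⟩
    have hS : ∀ y, y ∈ insert (a + toTorus N (1, 0) + toTorus N (0, 1)) S ↔
        ¬ (y ∈ S ↔ y = a + toTorus N (1, 0) + toTorus N (0, 1)) := fun y => by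
      by_cases h : y = a + toTorus N (1, 0) + toTorus N (0, 1)
      · simp [h, hb]
      · simp [h]
    have h3 : x + toTorus N (1, 0) = a + toTorus N (1, 0) + toTorus N (0, 1) ↔ x = a + toTorus N (0, 1) := by
      rw [add_right_comm, add_left_inj]
    have h4 : x + toTorus N (0, 1) = a + toTorus N (1, 0) + toTorus N (0, 1) ↔ x = a + toTorus N (1, 0) := add_left_inj _
    have h5 : x + toTorus N (1, 0) + toTorus N (0, 1) = a + toTorus N (1, 0) + toTorus N (0, 1) ↔ x = a := by
      rw [add_left_inj, add_left_inj]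
    have P : ∀ p q r t : Prop, (¬ (¬ (p ↔ r) ↔ ¬ (q ↔ t))) ↔ ¬ (¬ (¬ (¬ (¬ (p ↔ q) ↔ False) ↔ r) ↔ False) ↔ t) := by
      intro p q r t
      by_cases p <;> by_cases q <;> by_cases r <;> by_cases t <;> simp [*]
    have Q : ∀ p q r t : Prop, (¬ (¬ (p ↔ r) ↔ ¬ (q ↔ t))) ↔ ¬ (¬ (¬ (¬ (¬ (p ↔ q) ↔ t) ↔ False) ↔ r) ↔ False) := by
      intro p q r t
      by_cases p <;> by_cases q <;> by_cases r <;> by_cases t <;> simp [*]
    fin_cases j
    · simp only [cT, Finset.mem_filter, Finset.mem_univ, true_and, mem_flipE, hS, uv, Fin.zero_eta, Matrix.cons_val_zero,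
        h3, h5, Prod.mk.injEq, and_true, zero_ne_one, and_false]
      exact P _ _ _ _
    · simp only [cT, Finset.mem_filter, Finset.mem_univ, true_and, mem_flipE, hS, uv, Fin.mk_one, Matrix.cons_val_one,
        Matrix.cons_val_zero, h4, h5, Prod.mk.injEq, and_true, one_ne_zero, and_false]
      exact Q _ _ _ _

theorem mem_EN {e : Edge} : e ∈ EN N ↔ e.1 ∈ dom N := by simp [EN]

/-- plaquette flips -/
theorem gauss_cont [NeZero N] (hN : 2 ≤ N) (σ : XT N → Bool) :
    gauss (g0T N) ((∏ e ∈ cont (EN N) (lf N σ), eM (piH N) e : Ev (IT N)) : Gr (IT N)) = 1 := by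
  rw [← gauss_cT hN (Finset.univ.filter fun x => σ x = true)]
  congr 2
  have hb : ∀ e : Edge, nOf (lf N σ) e = true ↔ (toTorus N e.1, e.2) ∈ cT N (Finset.univ.filter fun x => σ x = true) := by
    rintro ⟨x, j⟩
    have h1 : toTorus N (edgeB1 (x, j)) = toTorus N x + toTorus N (1, 0) + toTorus N (0, 1) := by
      rw [← toTorus_add, ← toTorus_add, add_assoc]; rfl
    have h0 : toTorus N (edgeB0 (x, j)) = toTorus N x + toTorus N (uv j) := by
      rw [← toTorus_add]; fin_cases j <;> rfl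
    simp only [nOf, lf, h0, h1, cT, Finset.mem_filter, Finset.mem_univ, true_and]
    generalize σ (toTorus N x + toTorus N (uv j)) = p
    generalize σ (toTorus N x + toTorus N (1, 0) + toTorus N (0, 1)) = q
    cases p <;> cases q <;> simp
  refine Finset.prod_bij' (fun e _ => (toTorus N e.1, e.2)) (fun e _ => (lift e.1, e.2)) (fun e he => ?_) (fun e he => ?_)
    (fun e he => ?_) (fun e _ => ?_) fun e _ => ?_
  · exact (hb e).1 (Finset.mem_filter.1 he).2
  · exact Finset.mem_filter.2 ⟨mem_EN.2 (lift_mem _), (hb _).2 (by simpa only [toTorus_lift] using he)⟩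
  · simp only [lift_toTorus, redS_of_mem (mem_EN.1 (Finset.mem_filter.1 he).1)]
  · simp only [toTorus_lift]
  · simp only [eM, hT0, hT1, he0, he1, piH, toTorus_add]

theorem prod_site [NeZero N] {γ : Finset Edge} (h : γ ⊆ EN N) (x : Site) (a : Fin 2 → Site) :
    ∏ e ∈ γ, (if toTorus N (e.1 + a e.2) = toTorus N x then (-1 : ℝ) else 1) =
      ∏ j : Fin 2, if red N (x - a j, j) ∈ γ then (-1 : ℝ) else 1 := by
  have h1 : ∀ e ∈ γ, (if toTorus N (e.1 + a e.2) = toTorus N x then (-1 : ℝ) else 1) =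
      ∏ j : Fin 2, if e = red N (x - a j, j) then (-1 : ℝ) else 1 := by
    rintro ⟨y, k⟩ he
    have hy : redS N y = y := redS_of_mem (mem_EN.1 (h he))
    have h2 : toTorus N (y + a k) = toTorus N x ↔ y = redS N (x - a k) := by
      rw [toTorus_add, ← eq_sub_iff_add_eq, ← toTorus_sub, ← redS_eq_iff, hy]
    rw [Finset.prod_eq_single k (fun j _ hj => if_neg fun h3 => hj (congrArg Prod.snd h3).symm) (by simp)]
    simp only [h2, red, Prod.mk.injEq, and_true]
  rw [Finset.prod_congr rfl h1, Finset.prod_comm]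
  exact Finset.prod_congr rfl fun j _ => by rw [Finset.prod_ite_eq']

/-- parity at one site -/
theorem gauss_not_closed [NeZero N] {γ : Finset Edge} (h : γ ⊆ EN N) (hc : ¬ Closed (per N (ind γ))) :
    gauss (g0T N) ((∏ e ∈ γ, eM (piH N) e : Ev (IT N)) : Gr (IT N)) = 0 := by
  obtain ⟨x, hx⟩ := not_forall.1 hc
  let s : XT N → ℝ := fun y => if y = toTorus N x then -1 else 1
  let T : GV (IT N) →ₗ[ℝ] GV (IT N) := Finsupp.linearCombination ℝ fun i => s i.1 • Finsupp.single i 1
  have hT : ∀ i, T (Finsupp.single i 1) = s i.1 • Finsupp.single i 1 := fun i => by simp [T]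
  have hth : ∀ i, gmap T (th i) = s i.1 • th i := fun i => by rw [th, gmap_iota, hT, map_smul]
  have h1 : ∀ Y, gauss (g0T N) (gmap T Y) = gauss (g0T N) Y := fun Y => by
    rw [gauss_apply, gauss_apply, ← gmap_mu T (g := g0T N) (S := Set.univ) (fun i _ j _ => ?_) (mem_supA_univ Y), aug_gmap]
    simp only [hT, map_smul, LinearMap.smul_apply, smul_eq_mul, antisym_g0T.bil_single]
    by_cases hij : i.1 = j.1
    · rw [← hij, ← mul_assoc]
      simp only [s]
      split_ifs <;> simp
    · simp [g0T, hij]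
  have h2 : gE T (∏ e ∈ γ, eM (piH N) e) = (-1 : ℝ) • ∏ e ∈ γ, eM (piH N) e := by
    have h3 : ∀ e, gE T (eM (piH N) e) = (s (toTorus N (e.1 + 0)) * s (toTorus N (e.1 + uv e.2))) • eM (piH N) e := fun e =>
      Subtype.ext (by
        rw [coe_gE]
        change gmap T (th _ * th _) = _ • (th _ * th _)
        rw [map_mul, hth, hth, smul_mul_smul_comm, add_zero]
        rfl)
    rw [map_prod, Finset.prod_congr rfl fun e _ => h3 e, Finset.prod_smul, Finset.prod_mul_distrib,
      prod_site h x (fun _ => 0), prod_site h x uv]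
    congr 1
    simp only [per, ind] at hx
    simp only [Fin.prod_univ_two, sub_zero, uv, Matrix.cons_val_zero, Matrix.cons_val_one]
    by_cases a : red N (x, 0) ∈ γ <;> by_cases b : red N (x, 1) ∈ γ <;> by_cases c : red N (x - (1, 0), 0) ∈ γ <;>
      by_cases d : red N (x - (0, 1), 1) ∈ γ <;> simp [a, b, c, d] at hx ⊢
  have h4 := h1 ((∏ e ∈ γ, eM (piH N) e : Ev (IT N)) : Gr (IT N))
  rw [← coe_gE, h2] at h4
  simp only [neg_smul, one_smul, NegMemClass.coe_neg, map_neg] at h4
  linarith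

theorem sum_sec [NeZero N] (hN : 2 ≤ N) {γ : Finset Edge} (h : γ ⊆ EN N) :
    ∑ ε : Sec, gauss (g0T N) ((∏ e ∈ γ, Phi N ε (eM id e) : Ev (IT N)) : Gr (IT N)) =
      if ∃ σ : XT N → Bool, cont (EN N) (lf N σ) = γ then 4 else 0 := by
  simp only [Phi_eM, Finset.prod_smul, SetLike.val_smul, map_smul, smul_eq_mul]
  rw [← Finset.sum_mul, sum_prod_chi h]
  by_cases hc : ∃ σ : XT N → Bool, cont (EN N) (lf N σ) = γ
  · rw [if_pos hc]
    obtain ⟨σ, rfl⟩ := hc
    rw [if_pos (seam_cont σ), gauss_cont hN, mul_one]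
  · rw [if_neg hc]
    split_ifs with h1
    · rw [gauss_not_closed h fun h2 => hc (exists_cont h h2 h1.1 h1.2), mul_zero]
    · rw [zero_mul]

/-- **four Pfaffians** -/
theorem ZT_eq [NeZero N] (hN : 2 ≤ N) (t : ℝ) (F : Cfg → ℝ) :
    ZT N t F = (1 / 2) * ∑ ε : Sec, gauss (g0T N) (((∏ e ∈ EN N, (1 + t • Phi N ε (eM id e))) *
      hat (fun e => t • Phi N ε (eM id e)) (EN N) (fun n => algebraMap ℝ _ (F (per N n))) : Ev (IT N)) : Gr (IT N)) := by
  have h1 : ∀ ε : Sec, gauss (g0T N) (((∏ e ∈ EN N, (1 + t • Phi N ε (eM id e))) *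
      hat (fun e => t • Phi N ε (eM id e)) (EN N) (fun n => algebraMap ℝ _ (F (per N n))) : Ev (IT N)) : Gr (IT N)) =
      ∑ γ ∈ (EN N).powerset, t ^ γ.card * F (per N (ind γ)) *
        gauss (g0T N) ((∏ e ∈ γ, Phi N ε (eM id e) : Ev (IT N)) : Gr (IT N)) := fun ε => by
    rw [prod_mul_hat (fun e => t • Phi N ε (eM id e)) (fun e => by rw [smul_mul_smul_comm, ← map_mul, eM_sq, map_zero, smul_zero]),
      AddSubmonoidClass.coe_finsetSum, map_sum]
    refine Finset.sum_congr rfl fun γ _ => ?_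
    rw [Finset.prod_smul, Finset.prod_const, ← Algebra.smul_def, smul_smul, SetLike.val_smul, map_smul, smul_eq_mul, mul_comm (F _)]
  simp only [h1]
  rw [Finset.sum_comm, Finset.mul_sum]
  have h2 := sum_cont (N := N) fun γ => t ^ γ.card * F (per N (ind γ))
  simp only [per_ind_cont] at h2
  rw [ZT, Finset.sum_congr rfl fun σ _ => by rw [← Finset.prod_filter, Finset.prod_const]]
  refine h2.trans (Finset.sum_congr rfl fun γ hγ => ?_)
  rw [← Finset.mul_sum, sum_sec hN (Finset.mem_powerset.1 hγ)]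
  split_ifs <;> ring

end Crest.Agent.R165.E
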