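import Crest.Agent.R165.E.Wt
import Crest.Agent.R165.E.Flip

/-! # R165/E (torus, owner helper12): representation by five Gaussian integrals -/

set_option autoImplicit false
noncomputable section
open Classical Crest.ProbabilityR.IsingModel

namespace Crest.Agent.R165.E
open BA

variable {N : ℕ}

/-- rescaling constant -/
def rhoT (N : ℕ) [NeZero N] (r : ℝ) : ℝ := gauss (g0T N) (IsNilpotent.exp (quad Finset.univ ((r ^ 2 - 1) • a0T N)))

private theorem repa_anti {I : Type} {a : I → I → ℝ} (h : Antisym a) (c : ℝ) : Antisym (c • a) := fun i j => by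
  simp only [Pi.smul_apply, smul_eq_mul, h i j, mul_neg]

private theorem repa_univ {I : Type} [Fintype I] (X : Gr I) : X ∈ supA ((Finset.univ : Finset I) : Set I) := by
  rw [Finset.coe_univ]
  exact mem_supA_univ X

/-- `gauss_exp_sq`: the square is `det (r² • a0T) = r ^ (2 * card)` -/
theorem rhoT_ne [NeZero N] {r : ℝ} (hr : r ≠ 0) : rhoT N r ≠ 0 := by
  intro h0
  have h := gauss_exp_sq Finset.univ (antisym_a0T (N := N)) (repa_anti antisym_a0T (r ^ 2 - 1)) antisym_g0T'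
    fun i _ k _ => by convert sum_a0T_g0T i k
  have h1 := det_univ fun i j => a0T N i j + ((r ^ 2 - 1) • a0T N) i j
  have h2 : (Matrix.of fun i j => a0T N i j + ((r ^ 2 - 1) • a0T N) i j) = r ^ 2 • Matrix.of (a0T N) := by
    ext i j
    simp only [Matrix.of_apply, Pi.smul_apply, Matrix.smul_apply, smul_eq_mul]
    ring
  have h3 : (Matrix.of fun i j => a0T N i j + ((r ^ 2 - 1) • a0T N) i j).det ≠ 0 := by
    rw [h2, Matrix.det_smul, det_a0T, mul_one]
    exact pow_ne_zero _ (pow_ne_zero 2 hr)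
  rw [← rhoT, h0, zero_pow two_ne_zero, zero_mul] at h
  refine h3 ?_
  convert h1.symm.trans (by convert h.symm)

/-- `gauss_change univ univ` with `a₀ = a0T`, `q = (r² - 1) • a0T`, `g = (r²)⁻¹ • g0T`; then `gmap_mu` for `r • id` and `aug_gmap` -/
theorem rescale [NeZero N] {r : ℝ} (hr : r ≠ 0) (Y : Gr (IT N)) :
    gauss (g0T N) (IsNilpotent.exp (quad Finset.univ ((r ^ 2 - 1) • a0T N)) * gmap (r • LinearMap.id) Y) =
      rhoT N r * gauss (g0T N) Y := by
  have hg := repa_anti (antisym_g0T' (N := N)) (r ^ 2)⁻¹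
  rw [gauss_change Finset.univ Finset.univ subset_rfl antisym_a0T (repa_anti antisym_a0T (r ^ 2 - 1)) antisym_g0T' hg
    (fun i _ k _ => by convert sum_a0T_g0T i k) (fun i _ k _ => by
      convert sum_a0T_g0T i k using 2
      simp only [Pi.smul_apply, smul_eq_mul]
      field_simp
      ring) (repa_univ _), rhoT, gauss_apply _ (gmap _ Y), gauss_apply _ Y,
    ← gmap_mu (r • LinearMap.id) (g := g0T N) (S := Set.univ) _ (mem_supA_univ Y), aug_gmap]
  intro i _ j _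
  simp only [LinearMap.smul_apply, LinearMap.id_apply, map_smul, hg.bil_single, antisym_g0T'.bil_single, Pi.smul_apply,
    smul_eq_mul]
  field_simp

theorem gE_smul_th2 {I : Type} (r : ℝ) (i j : I) : gE (r • LinearMap.id) (th2 i j) = r ^ 2 • th2 i j := by
  refine Subtype.ext ?_
  change gmap (r • LinearMap.id) (th i * th j) = r ^ 2 • (th i * th j)
  rw [map_mul, th, th, gmap_iota, gmap_iota, LinearMap.smul_apply, LinearMap.smul_apply, map_smul, map_smul,
    smul_mul_smul_comm, sq]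
  rfl

/-- `rescale`; `gE (r • id)` multiplies `Phi (eM id e)` by `r²` (`Phi_eM`, `map_hat`); both exponentials are `exA` of sums
(`quad_a0T`, `quad_qT`, `coe_exA`, `exA_edges`-type product formula, `sum_pLoc`, `exA_add`) -/
theorem sec_eq [NeZero N] (ε : Sec) {r : ℝ} (hr : r ≠ 0) (t : ℝ) (F : Cfg → ℝ) :
    rhoT N r * gauss (g0T N) (((∏ e ∈ EN N, (1 + t • Phi N ε (eM id e))) *
      hat (fun e => t • Phi N ε (eM id e)) (EN N) (fun n => algebraMap ℝ _ (F (per N n))) : Ev (IT N)) : Gr (IT N)) =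
      gauss (g0T N) (IsNilpotent.exp (quad Finset.univ (qT N ε tc + jT N 0)) * (XB N ε r t F : Gr (IT N))) := by
  have hs : ∀ (s : ℝ) e, gE (r • LinearMap.id) (s • Phi N ε (eM id e)) = (r ^ 2 * s) • Phi N ε (eM id e) := fun s e => by
    rw [Phi_eM, map_smul, map_smul, eM, gE_smul_th2, smul_comm _ (r ^ 2), smul_comm s, mul_smul (r ^ 2)]
  have hQ0 : ∀ s : ℝ, augE (∑ e ∈ EN N, s • Phi N ε (eM id e)) = 0 := fun s => by simp [Phi_eM, augE_eM]
  have hA0 : augE ((r ^ 2 - 1) • ∑ x ∈ dom N, a0M (piH N) x) = 0 := by simp [augE_a0M]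
  have hQ : ∀ s : ℝ, exA augE (∑ e ∈ EN N, s • Phi N ε (eM id e)) = ∏ e ∈ EN N, (1 + s • Phi N ε (eM id e)) := fun s => by
    simp only [Phi_eM, smul_smul, exA_edges]
  have hj : jT N 0 = 0 := by
    funext i j
    simp [jT]
  rw [← rescale hr, ← coe_gE, quad_smul, quad_a0T, hj, add_zero, quad_qT, ← Subalgebra.coe_smul, ← coe_exA _ hA0,
    ← coe_exA _ (hQ0 _), ← MulMemClass.coe_mul, ← MulMemClass.coe_mul, XB, sum_pLoc, map_mul, map_prod, map_hat]
  simp only [map_add, map_one, hs, AlgHom.commutes]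
  rw [← hQ, ← mul_assoc, ← mul_assoc, ← exA_add _ _ hA0 (hQ0 _), ← exA_add _ _ (hQ0 _) (by rw [map_add, hA0, hQ0, add_zero]),
    add_left_comm, ← Finset.sum_add_distrib]
  simp only [← add_smul, add_sub_cancel]

/-- `gauss_change univ univ` -/
theorem change [NeZero N] {ε : Sec} {κ : ℝ} {g : IT N → IT N → ℝ} (hg : IsKerT N ε κ g) (X : Gr (IT N)) :
    gauss (g0T N) (IsNilpotent.exp (quad Finset.univ (qT N ε tc + jT N κ)) * X) = PT N ε tc κ * gauss g X := by
  exact gauss_change Finset.univ Finset.univ subset_rfl antisym_a0T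
    (fun i j => by simp only [Pi.add_apply, antisym_qT ε tc i j, antisym_jT κ i j, neg_add]) antisym_g0T' hg.1
    (fun i _ k _ => by convert sum_a0T_g0T i k) (fun i _ k _ => (hg.2 i k).trans (by congr)) (repa_univ X)

private theorem five_le {a b c d e z0 z1 z2 z3 z4 : ℝ} (ha : 0 < a) (hb : 0 < b) (hc : 0 < c) (hd : |d| ≤ a / 2)
    (he : |e| ≤ a / 2) (h0 : |z0 - 1| ≤ 1 / 4) (h1 : |z1 - 1| ≤ 1 / 4) (h2 : |z2 - 1| ≤ 1 / 4) (h3 : |z3 - 1| ≤ 1 / 4)
    (h4 : |z4 - 1| ≤ 1 / 4) :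
    |a / 2| + |b / 2| + |c / 2| + |d / 4| + |e / 4| ≤
      12 * (a / 2 * z0 + b / 2 * z1 + c / 2 * z2 + d / 4 * z3 + e / 4 * z4) := by
  have key : ∀ x z : ℝ, |z - 1| ≤ 1 / 4 → -(5 / 4 * |x|) ≤ x * z := by
    intro x z hz
    have h5 : |z| ≤ 5 / 4 := by
      rw [abs_le] at hz ⊢
      constructor <;> linarith [hz.1, hz.2]
    have : |x * z| ≤ 5 / 4 * |x| := by
      rw [abs_mul, mul_comm]
      exact mul_le_mul_of_nonneg_right h5 (abs_nonneg _)
    linarith [neg_abs_le (x * z)]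
  have k3 := key d z3 h3
  have k4 := key e z4 h4
  have k0 : a * (3 / 4) ≤ a * z0 := mul_le_mul_of_nonneg_left (by linarith [(abs_le.1 h0).1]) ha.le
  have k1 : b * (3 / 4) ≤ b * z1 := mul_le_mul_of_nonneg_left (by linarith [(abs_le.1 h1).1]) hb.le
  have k2 : c * (3 / 4) ≤ c * z2 := mul_le_mul_of_nonneg_left (by linarith [(abs_le.1 h2).1]) hc.le
  rw [abs_div, abs_div, abs_div, abs_div, abs_div, abs_of_pos ha, abs_of_pos hb, abs_of_pos hc,
    abs_of_pos (by norm_num : (0 : ℝ) < 2), abs_of_pos (by norm_num : (0 : ℝ) < 4)]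
  linarith

/-- **five kernels.** `ε = ![(t,f), (f,t), (t,t), (f,f), (f,f)]`, `κ = ![0, 0, 0, k, -k]`, `k = 1/(2N)`,
`c = ![P/2, P/2, P/2, P/4, P/4]`; `ZT_eq`, `sec_eq`, `exp_avg`, `change`, `PT_pos`, `PT_deg_le`. -/
theorem tor_rep (N : ℕ) [NeZero N] (hN : 2 ≤ N) :
    ∃ (ε : Fin 5 → Sec) (κ c : Fin 5 → ℝ) (g : Fin 5 → IT N → IT N → ℝ),
      (∀ s, Adm N (ε s) (κ s) ∧ IsKerT N (ε s) (κ s) (g s)) ∧ 0 < ∑ s, |c s| ∧
      (∀ z : Fin 5 → ℝ, (∀ s, |z s - 1| ≤ 1 / 4) → ∑ s, |c s| ≤ 12 * ∑ s, c s * z s) ∧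
      ∀ r : ℝ, r ≠ 0 → ∃ ρ : ℝ, ρ ≠ 0 ∧ ∀ (t : ℝ) (F : Cfg → ℝ),
        ZT N t F = ρ * ∑ s, c s * gauss (g s) (XB N (ε s) r t F : Gr (IT N)) := by
  have hN0 : (0 : ℝ) < N := by exact_mod_cast (by omega : 0 < N)
  set k : ℝ := 1 / (2 * N) with hk
  have hk0 : 0 < k := by positivity
  have hk1 : |k| = 1 / (2 * N) := abs_of_pos hk0
  have hk2 : |-k| = 1 / (2 * N) := by rw [abs_neg]; exact hk1
  have p0 : 0 < PT N (true, false) tc 0 := PT_pos (by decide)
  have p1 : 0 < PT N (false, true) tc 0 := PT_pos (by decide)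
  have p2 : 0 < PT N (true, true) tc 0 := PT_pos (by decide)
  have p3 := PT_deg_le (N := N) hk1
  have p4 := PT_deg_le (N := N) hk2
  obtain ⟨g0, hg0⟩ := exists_kerT_of (N := N) (true, false) 0 p0.ne'
  obtain ⟨g1, hg1⟩ := exists_kerT_of (N := N) (false, true) 0 p1.ne'
  obtain ⟨g2, hg2⟩ := exists_kerT_of (N := N) (true, true) 0 p2.ne'
  obtain ⟨g3, hg3⟩ := exists_kerT_of (N := N) (false, false) k (PT_deg_ne hk0.ne')
  obtain ⟨g4, hg4⟩ := exists_kerT_of (N := N) (false, false) (-k) (PT_deg_ne (neg_ne_zero.2 hk0.ne'))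
  refine ⟨![(true, false), (false, true), (true, true), (false, false), (false, false)], ![0, 0, 0, k, -k],
    ![PT N (true, false) tc 0 / 2, PT N (false, true) tc 0 / 2, PT N (true, true) tc 0 / 2,
      PT N (false, false) tc k / 4, PT N (false, false) tc (-k) / 4], ![g0, g1, g2, g3, g4], ?_, ?_, ?_, ?_⟩
  · intro s
    fin_cases s
    · exact ⟨Or.inl ⟨by decide, rfl⟩, hg0⟩
    · exact ⟨Or.inl ⟨by decide, rfl⟩, hg1⟩
    · exact ⟨Or.inl ⟨by decide, rfl⟩, hg2⟩
    · exact ⟨Or.inr ⟨rfl, hk1⟩, hg3⟩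
    · exact ⟨Or.inr ⟨rfl, hk2⟩, hg4⟩
  · refine Finset.sum_pos' (fun s _ => abs_nonneg _) ⟨0, Finset.mem_univ _, ?_⟩
    exact abs_pos.2 (show PT N (true, false) tc 0 / 2 ≠ 0 by positivity)
  · intro z hz
    rw [Fin.sum_univ_five, Fin.sum_univ_five]
    exact five_le p0 p1 p2 p3 p4 (hz 0) (hz 1) (hz 2) (hz 3) (hz 4)
  · intro r hr
    have hρ := rhoT_ne (N := N) hr
    refine ⟨(rhoT N r)⁻¹, inv_ne_zero hρ, fun t F => ?_⟩
    rw [eq_inv_mul_iff_mul_eq₀ hρ, ZT_eq hN, Fintype.sum_prod_type, Fintype.sum_bool, Fintype.sum_bool,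
      Fintype.sum_bool, Fin.sum_univ_five]
    have e0 := sec_eq (N := N) (true, false) hr t F
    have e1 := sec_eq (N := N) (false, true) hr t F
    have e2 := sec_eq (N := N) (true, true) hr t F
    have e3 := sec_eq (N := N) (false, false) hr t F
    rw [change hg0] at e0
    rw [change hg1] at e1
    rw [change hg2] at e2
    rw [exp_avg _ k, smul_mul_assoc, add_mul, map_smul, map_add, change hg3, change hg4, smul_eq_mul] at e3
    show _ = PT N (true, false) tc 0 / 2 * gauss g0 (XB N (true, false) r t F : Gr (IT N)) +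
      PT N (false, true) tc 0 / 2 * gauss g1 (XB N (false, true) r t F : Gr (IT N)) +
      PT N (true, true) tc 0 / 2 * gauss g2 (XB N (true, true) r t F : Gr (IT N)) +
      PT N (false, false) tc k / 4 * gauss g3 (XB N (false, false) r t F : Gr (IT N)) +
      PT N (false, false) tc (-k) / 4 * gauss g4 (XB N (false, false) r t F : Gr (IT N))
    linear_combination (1 / 2 : ℝ) * (e0 + e1 + e2 + e3)

/-- the ratio of the two weighted sums -/
theorem ratio_le {c z y : Fin 5 → ℝ} {ρ En ω δ : ℝ} (hρ : ρ ≠ 0) (hE : En ≠ 0) (hc : 0 < ∑ s, |c s|)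
    (hz : ∑ s, |c s| ≤ 12 * ∑ s, c s * z s) (hy : ∀ s, |y s - ω * z s| ≤ δ) :
    |(ρ * ∑ s, c s * (En * y s)) / (ρ * ∑ s, c s * (En * z s)) - ω| ≤ 12 * δ := by
  have hS : 0 < ∑ s, c s * z s := by linarith
  have e1 : ∑ s, c s * (En * y s) = En * ∑ s, c s * y s := by
    rw [Finset.mul_sum]; exact Finset.sum_congr rfl fun s _ => by ring
  have e2 : ∑ s, c s * (En * z s) = En * ∑ s, c s * z s := by
    rw [Finset.mul_sum]; exact Finset.sum_congr rfl fun s _ => by ring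
  have hδ : 0 ≤ δ := (abs_nonneg _).trans (hy 0)
  have e3 : (ρ * ∑ s, c s * (En * y s)) / (ρ * ∑ s, c s * (En * z s)) - ω =
      (∑ s, c s * (y s - ω * z s)) / ∑ s, c s * z s := by
    have : ∑ s, c s * (y s - ω * z s) = ∑ s, c s * y s - ω * ∑ s, c s * z s := by
      rw [Finset.mul_sum, ← Finset.sum_sub_distrib]; exact Finset.sum_congr rfl fun s _ => by ring
    rw [e1, e2, this]
    field_simp
  rw [e3, abs_div, abs_of_pos hS, div_le_iff₀ hS]
  calc |∑ s, c s * (y s - ω * z s)| ≤ ∑ s, |c s * (y s - ω * z s)| := Finset.abs_sum_le_sum_abs _ _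
    _ ≤ ∑ s, δ * |c s| := Finset.sum_le_sum fun s _ => by
        rw [abs_mul, mul_comm]; exact mul_le_mul_of_nonneg_right (hy s) (abs_nonneg _)
    _ = δ * ∑ s, |c s| := (Finset.mul_sum _ _ _).symm
    _ ≤ δ * (12 * ∑ s, c s * z s) := mul_le_mul_of_nonneg_left hz hδ
    _ = 12 * δ * ∑ s, c s * z s := by ring

end Crest.Agent.R165.E
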