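import Crest.Agent.R165.E.Flow
import Crest.Agent.R165.E.Rep

/-! # R165/E (torus, owner helper12): the last integration and the limit -/

set_option autoImplicit false
noncomputable section
open Classical Filter Topology Crest.ProbabilityR.IsingModel

namespace Crest.Agent.R165.E

/-- `Nat.find`/`Nat.findGreatest`; `ℓ_j → ∞` (`lam_facts`) -/
theorem exists_scale {p : Par} (hp : p.OK) (J₀ : ℕ) :
    ∀ N : ℕ, 100 * p.l J₀ ≤ N → ∃ J, J₀ ≤ J ∧ 100 * p.l J ≤ N ∧ N ≤ 100 * p.l (J + 1) := by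
  intro N hN
  have h1 : ∀ j, j ≤ p.l j := fun j => by
    induction j with
    | zero => exact Nat.zero_le _
    | succ j ih =>
      obtain ⟨-, -, a, b, -⟩ := lam_facts hp j
      omega
  have h2 : ∃ J, N ≤ 100 * p.l (J₀ + J + 1) := ⟨N, by have := h1 (J₀ + N + 1); omega⟩
  refine ⟨J₀ + Nat.find h2, Nat.le_add_right _ _, ?_, Nat.find_spec h2⟩
  rcases h : Nat.find h2 with _ | J
  · exact hN
  · exact (not_le.1 (Nat.find_min h2 (show J < Nat.find h2 by omega))).le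

/-- by contradiction: a bad sequence `N_n ≥ n`; `gL_bd` gives pointwise convergence of the kernels, `gauss_tendsto` -/
theorem gauss_gL (H : Gr Ix) {δ : ℝ} (hδ : 0 < δ) : ∃ N₀ : ℕ, ∀ (N : ℕ) [NeZero N] (ε : Sec) (κ : ℝ) (g : IT N → IT N → ℝ),
    N₀ ≤ N → Adm N ε κ → IsKerT N ε κ g → |gauss (extG (gL N ε g)) H - gauss (extG gPl) H| ≤ δ := by
  obtain ⟨C, hC⟩ := gL_bd
  let T : Type := {t : ℕ × (HE → HE → ℝ) // ∀ i j : HE, 4 * supd i.1 j.1 ≤ 3 * t.1 → |t.2 i j - gPl i j| ≤ C / t.1}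
  have h1 : Tendsto (fun t : T => t.1.1) (comap (fun t : T => t.1.1) atTop) atTop := tendsto_comap
  have h2 : ∀ i j : Ix, Tendsto (fun t : T => extG t.1.2 i j) (comap (fun t : T => t.1.1) atTop) (𝓝 (extG gPl i j)) := by
    rintro (i | i) (j | j)
    · refine tendsto_iff_dist_tendsto_zero.2 (squeeze_zero' (.of_forall fun _ => dist_nonneg) ?_
        ((tendsto_const_div_atTop_nhds_zero_nat C).comp h1))
      filter_upwards [h1.eventually_ge_atTop (4 * supd i.1 j.1)] with t ht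
      exact t.2 i j (by omega)
    all_goals exact tendsto_const_nhds
  have h3 := (Metric.tendsto_nhds.1 (gauss_tendsto h2 H)) δ hδ
  obtain ⟨N₀, hN₀⟩ := eventually_atTop.1 (eventually_comap.1 h3)
  exact ⟨N₀, fun N _ ε κ g hN ha hk => (hN₀ N hN ⟨(N, gL N ε g), hC N ε κ g ha hk⟩ rfl).le⟩

/-- the whole torus is one ball of radius `N` (`two_dT_le`, `Geo.cover`, `cov_le`) -/
theorem cov_univ {N : ℕ} [NeZero N] {l L : ℕ} (hl : 1 ≤ l) (hN : N ≤ 100 * (L * l)) :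
    (GT N).cov l Finset.univ ≤ (200 * L + 3) ^ 2 := by
  obtain ⟨C, h1, h2⟩ := (GT N).cover 0 N l hl
  refine ((GT N).cov_le fun z _ => h2 z (((GT N).mem_ball _ _ _).2 ?_)).trans (h1.trans (Nat.pow_le_pow_left ?_ 2))
  · have := two_dT_le (0 : XT N) z
    change dT 0 z ≤ N
    omega
  · have : N / l ≤ 100 * L := Nat.div_le_of_le_mul (by rw [mul_comm l, mul_assoc]; exact hN)
    omega

private theorem fa_coef {H : Type} (l : List ℕ) : ∃ φ : Ev (IxH H) →ₗ[ℝ] ℝ, ∀ F, coefT l F = φ F :=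
  ⟨aug.toLinearMap ∘ₗ (l.map dTau).prod ∘ₗ (Subalgebra.val _).toLinearMap, fun _ => rfl⟩

private theorem fa_tau {H : Type} (k : ℕ) : cstA (tau k : Ev (IxH H)) = tau k := by
  refine Subtype.ext ?_
  simp only [cstA, tau, D1.coe_gmapE, D1.coe_th2, map_mul, D1.gmap_vmap_th]
  rfl

/-- **one sector.** Apply `cstA` to `total`; left side: `s0T_Z`, `muE_cst_mul`, `cst_iT`, `coefT_lin`; right side: `enT = cstA _`, `exA_cst`,
`final_bound` (`bdAx_BdU`), `final_cst` (`UT_split`, the union over `univ`), `BdT.coef` with `[]` and `[0]`, `bg_T`, `coefT_mul`, `coefT_exA`;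
`stT_rel` at `near N y x` with `augE_PhI`, `coefT_PhI`. -/
theorem sector_est {N : ℕ} [NeZero N] (ε : Sec) {p : Par} (hp : p.OK) {o : Ob} (hR : 10 * o.R + 20 ≤ p.l0) {c : ℝ × ℝ}
    (hc : -1 < c.2) (hI : InitOK p o.R c o.g) (hF : Fit N o) (hh : 0 < o.h) (μ : ℝ) {V : Finset Site → ℝ} (hV : PotOK o.R V)
    {J : ℕ} (hN : 100 * p.l J ≤ N) {a α εM : ℝ} (ha : 1 ≤ a) {N₁ : ℕ} (hcov : (GT N).cov (p.l J) Finset.univ ≤ N₁)
    (hK : (GT N).PN (BT N ε p o J) (p.l J) a (stT N ε p o c μ V J).K α)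
    (hM : (GT N).PN (BT N ε p o J) (p.l J) a (stT N ε p o c μ V J).M εM)
    (hq : (GT N).SN (BT N ε p o J) (p.l J) (stT N ε p o c μ V J).q α) {g : IT N → IT N → ℝ}
    (hG : Gram (⋃ x, UT N ε p o J x) (extG (g - perK N ε (gleP p J))) 1) :
    ∃ z y : ℝ,
      gauss g (XB N ε (Real.sqrt (1 + c.2)) (tOf c) (pertF (tShapes N o.R) μ V) : Gr (IT N)) =
        Real.exp (∑ j ∈ Finset.range J, ∑ x : XT N, augE (o.g.en p c μ V j (near N o.y.1 x))) * z ∧
      gauss g (XB N ε (Real.sqrt (1 + c.2)) (tOf c) (fun n => pertF (tShapes N o.R) μ V n * o.O n) : Gr (IT N)) =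
        Real.exp (∑ j ∈ Finset.range J, ∑ x : XT N, augE (o.g.en p c μ V j (near N o.y.1 x))) * y ∧
      |z - 1| ≤ Real.exp (N₁ * εM) * (Real.exp (7 * N₁ * α) - 1) ∧
      |y - ((∑ j ∈ Finset.range J, ∑ x : XT N, coefT [0] (o.g.en p c μ V j (near N o.y.1 x))) * z +
          gauss (extG (gL N ε g)) ((hat (o.g.xE c) (edgesIn o.oS) (fun n => algebraMap ℝ Al (o.O n)) : Al) : Gr Ix))| ≤
        Real.exp (N₁ * εM) * (Real.exp (7 * N₁ * α) - 1) / o.h := by
  have h16 : 16 ≤ N := by have := (lam_facts hp J).2.2.1; omega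
  obtain ⟨φ, hφ⟩ := fa_coef (H := IT N) [0]
  have hqm : (GT N).SN (BT N ε p o J) (p.l J) (stT N ε p o c μ V J).qm α := by
    obtain ⟨b, h1, h2⟩ := hq
    refine ⟨0, fun x => ⟨le_rfl, ?_⟩, fun y => ?_⟩
    · rw [stT_qm]
      exact (bdAx_BdU _).zero _
    · exact (Finset.sum_le_sum fun x _ => (h1 x).1).trans (h2 y)
  have hb := final_bound (GT N) (bdAx_BdU (UT N ε p o J)) ha hcov hK hM hq hqm
  have hD := final_cst hh hG (fun u hu => by obtain ⟨x, hx⟩ := Set.mem_iUnion.1 hu; exact UT_split hx)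
    (hb.mono (by simp) le_rfl)
  have hen : ∀ j ∈ Finset.range J, ∀ x, enT N ε p o c μ V j x = PhI N ε (o.g.en p c μ V j (near N o.y.1 x)) := fun j hj x => by
    have := (stT_rel ε hp hR hc hI hF μ hV (z := near N o.y.1 x) (by rw [supd_near]; exact two_dT_le _ _) J hN).2 j
      (Finset.mem_range.1 hj)
    rwa [toTorus_near] at this
  have ht := congrArg cstA (total ε hp hR hI μ (V := V) g J)
  have hB := bg_T ε hp hI hF μ (V := V) h16 g J
  set E := ∑ j ∈ Finset.range J, ∑ x, enT N ε p o c μ V j x with hE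
  have e1 : augE E = ∑ j ∈ Finset.range J, ∑ x : XT N, augE (o.g.en p c μ V j (near N o.y.1 x)) := by
    rw [hE, map_sum]
    refine Finset.sum_congr rfl fun j hj => ?_
    rw [map_sum]
    exact Finset.sum_congr rfl fun x _ => by rw [hen j hj, augE_PhI]
  have e2 : coefT [0] E = ∑ j ∈ Finset.range J, ∑ x : XT N, coefT [0] (o.g.en p c μ V j (near N o.y.1 x)) := by
    rw [hφ, hE, map_sum]
    refine Finset.sum_congr rfl fun j hj => ?_
    rw [map_sum]
    exact Finset.sum_congr rfl fun x _ => by rw [← hφ, hen j hj, coefT_PhI]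
  have e3 : cstA E = E := by
    simp only [hE, map_sum]
    exact Finset.sum_congr rfl fun j _ => Finset.sum_congr rfl fun x _ => cstA_idem _
  rw [s0T_Z ε hR hc hI, map_add, map_add, cst_iT, ← fa_tau, muE_cst_mul, map_mul, cstA_idem, fa_tau, cst_iT, map_mul,
    ← exA_cst, e3] at ht
  rw [map_sub, map_sub, hB] at hD
  set W := cstA (muE (extG (g - perK N ε (gleP p J))) ((stT N ε p o c μ V J).Z (GT N) augE (p.l J) Finset.univ)) with hW
  have a1 := congrArg augE ht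
  have a2 := congrArg (coefT [0]) ht
  rw [(coefT_lin _ _).1, map_mul, (coefT_exA E).1, e1] at a1
  rw [(coefT_lin _ _).2, coefT_mul, (coefT_exA E).1, (coefT_exA E).2, e1, e2, mul_assoc, ← mul_add] at a2
  refine ⟨_, _, a1, a2, ?_, ?_⟩
  · have := (bdAx_BdT o.h).aug (Z := ∅) hD
    rwa [map_sub, (coefT_lin _ _).1] at this
  · have := hD.coef hh [0]
    rw [hφ, map_sub, ← hφ, ← hφ, (coefT_lin _ _).2, List.length_singleton, pow_one] at this
    rw [add_sub_add_left_eq_sub, div_eq_mul_inv]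
    exact this

/-- the flow does not depend on the weight `h` -/
theorem en_h (k : Cons) (R : ℕ) (h : ℝ) (O : Cfg → ℝ) (r : ℕ) (c : ℝ × ℝ) (μ : ℝ) (V : Finset Site → ℝ) :
    (gObs k R h O r).en k.p c μ V = (gObs k R 1 O r).en k.p c μ V ∧ (gObs k R h O r).xE c = (gObs k R 1 O r).xE c :=
  ⟨rfl, rfl⟩

theorem ob_gObs (k : Cons) (R : ℕ) (h : ℝ) (O : Cfg → ℝ) (r : ℕ) :
    Ob.g ⟨R, k.Gam, h, ((0, 0), 0), O, box 0 r⟩ = gObs k R h O r := rfl

theorem tm_err {γ γ' S S' z y η h δ : ℝ} (hz : |z - 1| ≤ η) (hη : η ≤ 1 / 4) (hy : |y - (S' * z + γ')| ≤ η / h) (hγ : |γ' - γ| ≤ δ) :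
    |y - (γ + S) * z| ≤ 5 / 4 * |S' - S| + |γ| * η + η / h + δ := by
  have h1 : |z| ≤ 5 / 4 := by
    rw [abs_le] at hz ⊢
    constructor <;> linarith [hz.1, hz.2]
  have e : y - (γ + S) * z = (S' - S) * z + -(γ * (z - 1)) + (y - (S' * z + γ')) + (γ' - γ) := by ring
  have h2 : |(S' - S) * z| ≤ 5 / 4 * |S' - S| := by
    rw [abs_mul, mul_comm]
    exact mul_le_mul_of_nonneg_right h1 (abs_nonneg _)
  have h3 : |-(γ * (z - 1))| ≤ |γ| * η := by
    rw [abs_neg, abs_mul]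
    exact mul_le_mul_of_nonneg_left hz (abs_nonneg _)
  rw [e]
  linarith [abs_add_le ((S' - S) * z + -(γ * (z - 1)) + (y - (S' * z + γ'))) (γ' - γ),
    abs_add_le ((S' - S) * z + -(γ * (z - 1))) (y - (S' * z + γ')), abs_add_le ((S' - S) * z) (-(γ * (z - 1)))]

theorem tm_eta (A b α : ℝ) : Tendsto (fun J : ℕ => A * (Real.exp (b * (α * vth ^ J)) - 1)) atTop (𝓝 0) := by
  have h1 : Tendsto (fun J : ℕ => vth ^ J) atTop (𝓝 0) :=
    tendsto_pow_atTop_nhds_zero_of_lt_one (by norm_num [vth]) (by norm_num [vth])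
  have h2 := ((Real.continuous_exp.tendsto _).comp ((h1.const_mul α).const_mul b)).sub_const 1 |>.const_mul A
  simpa using h2

/-- assembly -/
theorem torus_main {k : Cons} {R : ℕ} {V : Finset Site → ℝ} (hk : ConsOK R k) (hV : PotOK R V)
    (hG : ∀ 𝔤 j, GeoOK k.p k.K k.Γs 𝔤 j → Gram (⋃ x, 𝔤.U k.p j x) (𝔤.Cov k.p j) (1 / 60)) :
    ∃ B₂ : ℝ, 0 < B₂ ∧ ∀ {c : ℝ × ℝ} {J lam C₁ B₁ ε₂ CM B : ℝ}, Ctx k R V c J lam C₁ B₁ ε₂ CM B → B ≤ B₂ →
      ∀ (O : Cfg → ℝ) (r : ℕ), DependsOn O ↑(edgesIn (box 0 r)) →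
        Tendsto (fun L : ℕ => torusExpect (L + 1) J lam R V (betaOf J c) fun σ => O (nOf (liftT (L + 1) σ))) atTop
          (𝓝 (omegaO k R V c (betaOf J c * lam) O r)) := by
  obtain ⟨C₀, ε₀, hC₀, hε₀, hs0⟩ := s0T_bound hk hV
  obtain ⟨Γf, hΓf⟩ := gram_finT hk
  obtain ⟨-, hΛ, ha, -, hε, -⟩ := hk.one
  set D := max C₀ (100 * k.Λ) with hD
  have hD0 : 0 < D := lt_of_lt_of_le (by linarith) (le_max_left _ _)
  refine ⟨min ε₀ (k.ε / D), lt_min hε₀ (by positivity), fun {c J lam C₁ B₁ ε₂ CM B} hx hB O r hO => ?_⟩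
  obtain ⟨hμ, -, hc1, hc2, -, -⟩ := hx.sm
  have hB0 : 0 ≤ B := (abs_nonneg _).trans hμ
  have hc : -1 < c.2 := by linarith [(abs_le.1 hc2).1]
  have hα : D * B ≤ k.ε := by
    have := hB.trans (min_le_right _ _)
    rwa [le_div_iff₀ hD0, mul_comm] at this
  obtain ⟨h, hh, hS⟩ := exists_src k R k.Gam ((0, 0), 0) hO (lt_min hε₀ (lt_min hε hx.cst.2.1))
  set o : Ob := ⟨R, k.Gam, h, ((0, 0), 0), O, box 0 r⟩ with ho
  have hI : InitOK k.p R c o.g := initOK_ob k.p hk.pok R k.Gam h hO c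
  have hS2 : Src0 k o.g ε₂ := hS.imp fun b hb => ⟨hb.1, hb.2.trans ((min_le_right _ _).trans (min_le_right _ _))⟩
  have hsum := (summable_en hx (o := o) rfl rfl hh hI hS2).tendsto_sum_tsum_nat
  set μ := betaOf J c * lam with hμd
  set W : ℕ → ℝ := fun j => ∑ x ∈ box o.y.1 (k.p.rho j), coefT [0] (o.g.en k.p c μ V j x) with hW
  set H : Gr Ix := ((hat (o.g.xE c) (edgesIn o.oS) (fun n => algebraMap ℝ Al (o.O n)) : Al) : Gr Ix) with hH
  have hω : omegaO k R V c μ O r = gauss (extG gPl) H + ∑' j, W j := rfl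
  set N₁ := (200 * k.p.L + 3) ^ 2 with hN₁
  set η : ℕ → ℝ := fun J => Real.exp (N₁ * k.ε) * (Real.exp (7 * N₁ * (D * B * vth ^ J)) - 1) with hη
  have hη0 : Tendsto η atTop (𝓝 0) := tm_eta _ _ _
  have hlim : Tendsto (fun J => 5 / 4 * |∑ j ∈ Finset.range J, W j - ∑' j, W j| + |gauss (extG gPl) H| * η J + η J / h) atTop
      (𝓝 0) := by
    have := (((hsum.sub_const (∑' j, W j)).abs.const_mul (5 / 4)).add (hη0.const_mul |gauss (extG gPl) H|)).add (hη0.div_const h)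
    simpa using this
  rw [hω, Metric.tendsto_atTop]
  intro δ hδ
  obtain ⟨J₀, hJ₀⟩ := eventually_atTop.1 ((hlim.eventually (gt_mem_nhds (show (0 : ℝ) < δ / 30 by positivity))).and
    ((hη0.eventually (gt_mem_nhds (show (0 : ℝ) < 1 / 4 by norm_num))).and
      (((tendsto_pow_atTop_atTop_of_one_lt (show (1 : ℝ) < 2 by norm_num)).eventually_ge_atTop Γf).and (eventually_ge_atTop 2))))
  obtain ⟨N₀, hN₀⟩ := gauss_gL H (show 0 < δ / 30 by positivity)
  refine ⟨100 * k.p.l J₀ + N₀ + 16 * r + 16, fun L hL => ?_⟩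
  obtain ⟨j, hj0, hj1, hj2⟩ := exists_scale hk.pok J₀ (L + 1) (by omega)
  obtain ⟨e1, e2, e3, e4⟩ := hJ₀ j hj0
  have hF : Fit (L + 1) o := fun z hz => by
    have : supd (0 : Site) z ≤ r := by rw [supd_comm]; exact mem_box.1 hz
    have e : supd o.y.1 z = supd (0 : Site) z := rfl
    omega
  have hmono : Monotone k.p.l := monotone_nat_of_le_succ fun i => by have := (lam_facts hk.pok i).2.2.2.1; omega
  obtain ⟨ε, κ, cf, g, hg, hc0, hcz, hr⟩ := tor_rep (L + 1) (by omega)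
  obtain ⟨ρ, hρ, hZ⟩ := hr (Real.sqrt (1 + c.2)) (Real.sqrt_ne_zero'.2 (by linarith))
  have h1 := fun s : Fin 5 => hs0 (L + 1) (ε s) o c μ _ rfl hI (gam_facts hk 0).2.2.2 hc1 hc2 (hμ.trans (hB.trans (min_le_left _ _)))
    (min_le_left _ _) hh hS hF (by omega)
  have h2 := fun s : Fin 5 => stT_bound (ε s) hk hV (α := D * B) hx.tu hc1 hc2 (o := o) rfl rfl hh hI hF
    (mul_le_mul_of_nonneg_right (le_max_right _ _) hB0) hα (fun i => hG _ _ (geoOK_ob hk rfl hh i))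
    ((h1 s).1.mono (mul_le_mul (le_max_left _ _) hμ (abs_nonneg _) hD0.le))
    ((h1 s).2.imp fun b hb => ⟨hb.1, hb.2.trans ((min_le_right _ _).trans (min_le_left _ _))⟩) j hj1
  have key := fun s : Fin 5 => sector_est (ε s) hk.pok (o := o) hk.l0.2 hc hI hF hh μ hV hj1 (show 1 ≤ k.a by linarith)
    (cov_univ (by have := (lam_facts hk.pok j).2.2.1; omega) (by rw [← (lam_facts hk.pok j).2.1]; exact hj2))
    (h2 s).1 (h2 s).2.1 (h2 s).2.2
    (hΓf o j (L + 1) (ε s) (κ s) (g s) e4 hj1 hj2 (hg s).1 (hg s).2 (gam_facts hk j).1 (e3.trans (gam_facts hk j).2.2.1))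
  choose z y k1 k2 k3 k4 using key
  have hWs : ∑ i ∈ Finset.range j, ∑ x : XT (L + 1), coefT [0] (o.g.en k.p c μ V i (near (L + 1) o.y.1 x)) =
      ∑ i ∈ Finset.range j, W i := Finset.sum_congr rfl fun i hi =>
    sum_coef_near hk μ rfl hh hI (le_trans (Nat.mul_le_mul_left _ (hmono (Finset.mem_range.1 hi))) hj1)
  have e := torus_eq (N := L + 1) hV J lam (betaOf J c) O
  rw [hx.t, hZ, hZ] at e
  simp only [hWs] at k4
  have k5 := ratio_le hρ (Real.exp_ne_zero (∑ i ∈ Finset.range j, ∑ x : XT (L + 1), augE (o.g.en k.p c μ V i (near (L + 1) o.y.1 x))))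
    hc0 (hcz z fun s => (k3 s).trans e2.le) fun s =>
      tm_err (S := ∑' j, W j) (k3 s) e2.le (k4 s) (hN₀ (L + 1) (ε s) (κ s) (g s) (by omega) (hg s).1 (hg s).2)
  simp only [← k1, ← k2] at k5
  rw [Real.dist_eq]
  change |torusExpect (L + 1) J lam R V (betaOf J c) (fun σ => O (nOf (lf (L + 1) σ))) - _| < δ
  rw [e]
  refine k5.trans_lt ?_
  linarith

end Crest.Agent.R165.E
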