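import Crest.Agent.R165.E.Ker

/-! # R165/E (torus, owner helper12): the regular part of the torus kernels is a solution in both variables -/

set_option autoImplicit false
noncomputable section
open Classical Crest.ProbabilityR.IsingModel

namespace Crest.Agent.R165.E

variable {N : ℕ}

/-- the two constant solutions and a massive constant -/
def ps1 : Fin 4 → ℝ := ![1, 0, -1, 1 + tc]
def ps2 : Fin 4 → ℝ := ![0, 1, -(1 + tc), 1]
def mu4 : Fin 4 → ℝ := ![0, 0, 0, -(1 + tc) / 2]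
def c4 (α β : Fin 4) : ℝ := -(if β = 0 then ps1 α else if β = 1 then ps2 α else 0)
/-- explicit antisymmetric solution of `opA wPl (rK i) j = c4 i.2 j.2` -/
def rK (i j : HE) : ℝ :=
  ((j.1.1 : ℝ) - i.1.1) * ((3 + tc) / 2 * (ps1 i.2 * ps2 j.2 + ps2 i.2 * ps1 j.2) - (2 + tc) * (ps2 i.2 * ps2 j.2)) +
    (ps2 i.2 * mu4 j.2 - mu4 i.2 * ps2 j.2)
def dg (ε : Sec) : ℝ := if ε = (false, false) then 1 else 0
def kD (N : ℕ) (ε : Sec) (g : IT N → IT N → ℝ) (i j : HE) : ℝ := gL N ε g i j - gPl i j - dg ε / (N : ℝ) ^ 2 * rK i j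

theorem kerd_v :
    (ps1 0 = 1 ∧ ps1 1 = 0 ∧ ps1 2 = -1 ∧ ps1 3 = 1 + tc) ∧ (ps2 0 = 0 ∧ ps2 1 = 1 ∧ ps2 2 = -(1 + tc) ∧ ps2 3 = 1) ∧
      (mu4 0 = 0 ∧ mu4 1 = 0 ∧ mu4 2 = 0 ∧ mu4 3 = -(1 + tc) / 2) :=
  ⟨⟨rfl, rfl, rfl, rfl⟩, ⟨rfl, rfl, rfl, rfl⟩, rfl, rfl, rfl, rfl⟩

theorem kerd_c (α : Fin 4) : c4 α 0 = -ps1 α ∧ c4 α 1 = -ps2 α ∧ c4 α 2 = 0 ∧ c4 α 3 = 0 := by
  simp [c4]

/-- `opA_wPl`, `tc_sq` -/
theorem opA_ps : (∀ i, opA wPl (fun j => ps1 j.2) i = 0) ∧ ∀ i, opA wPl (fun j => ps2 j.2) i = 0 := by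
  obtain ⟨⟨a0, a1, a2, a3⟩, ⟨b0, b1, b2, b3⟩, -⟩ := kerd_v
  have ht := tc_sq
  refine ⟨fun ⟨x, β⟩ => ?_, fun ⟨x, β⟩ => ?_⟩
  · obtain ⟨h0, h1, h2, h3⟩ := opA_wPl (fun j => ps1 j.2) x
    induction β using b1_fin4 <;> simp only [h0, h1, h2, h3, a0, a1, a2, a3] <;> grind
  · obtain ⟨h0, h1, h2, h3⟩ := opA_wPl (fun j => ps2 j.2) x
    induction β using b1_fin4 <;> simp only [h0, h1, h2, h3, b0, b1, b2, b3] <;> grind

theorem antisym_rK : Antisym rK := by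
  intro i j
  simp only [rK]
  ring

/-- `opA_wPl`; 16 cases, `linear_combination (..) * tc_sq` (checked with exact arithmetic) -/
theorem opA_rK (i j : HE) : opA wPl (rK i) j = c4 i.2 j.2 := by
  obtain ⟨⟨a0, a1, a2, a3⟩, ⟨b0, b1, b2, b3⟩, m0, m1, m2, m3⟩ := kerd_v
  have ht := tc_sq
  obtain ⟨x, β⟩ := j
  obtain ⟨y, α⟩ := i
  obtain ⟨h0, h1, h2, h3⟩ := opA_wPl (rK (y, α)) x
  obtain ⟨c0, c1, c2, c3⟩ := kerd_c α
  induction β using b1_fin4 <;> simp only [h0, h1, h2, h3, c0, c1, c2, c3] <;>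
    simp only [rK, a0, a1, a2, a3, b0, b1, b2, b3, m0, m1, m2, m3, Int.cast_add, Int.cast_sub, Int.cast_one] <;>
    induction α using b1_fin4 <;> simp only [a0, a1, a2, a3, b0, b1, b2, b3, m0, m1, m2, m3] <;> grind

theorem abs_rK_le (i j : HE) : |rK i j| ≤ 40 * (supd i.1 j.1 + 1) := by
  obtain ⟨⟨a0, a1, a2, a3⟩, ⟨b0, b1, b2, b3⟩, m0, m1, m2, m3⟩ := kerd_v
  obtain ⟨t0, t1⟩ := tc_pos
  have p1 : ∀ α, |ps1 α| ≤ 2 := fun α => by
    induction α using b1_fin4 <;> simp only [a0, a1, a2, a3, abs_le] <;> constructor <;> linarith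
  have p2 : ∀ α, |ps2 α| ≤ 2 := fun α => by
    induction α using b1_fin4 <;> simp only [b0, b1, b2, b3, abs_le] <;> constructor <;> linarith
  have p3 : ∀ α, |mu4 α| ≤ 2 := fun α => by
    induction α using b1_fin4 <;> simp only [m0, m1, m2, m3, abs_le] <;> constructor <;> linarith
  have q : ∀ {u v : ℝ}, |u| ≤ 2 → |v| ≤ 2 → |u * v| ≤ 4 := fun hu hv => by
    rw [abs_mul]; exact (mul_le_mul hu hv (abs_nonneg _) zero_le_two).trans (by norm_num)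
  have hd : |(j.1.1 : ℝ) - i.1.1| ≤ supd i.1 j.1 := by
    have : |j.1.1 - i.1.1| ≤ (supd i.1 j.1 : ℤ) := by
      simp only [supd]; rw [abs_le]; omega
    exact_mod_cast this
  obtain ⟨u1, u2⟩ := abs_le.1 (q (p1 i.2) (p2 j.2))
  obtain ⟨u3, u4⟩ := abs_le.1 (q (p2 i.2) (p1 j.2))
  obtain ⟨u5, u6⟩ := abs_le.1 (q (p2 i.2) (p2 j.2))
  obtain ⟨u7, u8⟩ := abs_le.1 (q (p2 i.2) (p3 j.2))
  obtain ⟨u9, u10⟩ := abs_le.1 (q (p3 i.2) (p2 j.2))
  have h1 : |(3 + tc) / 2 * (ps1 i.2 * ps2 j.2 + ps2 i.2 * ps1 j.2) - (2 + tc) * (ps2 i.2 * ps2 j.2)| ≤ 40 := by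
    rw [abs_le]; constructor <;> nlinarith
  have h2 : |ps2 i.2 * mu4 j.2 - mu4 i.2 * ps2 j.2| ≤ 40 := by
    rw [abs_le]; constructor <;> linarith
  refine (abs_add_le _ _).trans ?_
  rw [abs_mul]
  have := mul_le_mul hd h1 (abs_nonneg _) (Nat.cast_nonneg _)
  linarith

/-- as `sum_ker_le`: `κ * S 1 = ps1 k.2`, `κ * S 0 = - ps2 k.2` for `S β = ∑ y, g k (y, β)` -/
theorem sum_ker_eq [NeZero N] {κ : ℝ} {g : IT N → IT N → ℝ} (hg : IsKerT N (false, false) κ g) (k : IT N) :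
    κ * ∑ y : XT N, g k (y, 1) = ps1 k.2 ∧ κ * ∑ y : XT N, g k (y, 0) = -ps2 k.2 := by
  set S : Fin 4 → ℝ := fun β => ∑ y : XT N, g k (y, β) with hS
  have hN : (N : ℝ) ≠ 0 := Nat.cast_ne_zero.2 (NeZero.ne N)
  have h : ∀ α, (if α = k.2 then 1 else 0 : ℝ) =
      ∑ β, BA.A0 α β * S β + BA.sgA α * tc * S (α + 2) + κ * ∑ β, j4 α β * S β := by
    intro α
    have h1 : ∀ y : XT N, (if (y, α) = k then 1 else 0 : ℝ) = ∑ β, BA.A0 α β * g k (y, β) +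
        BA.sgA α * tc * g k (y + toTorus N (dv α), α + 2) + κ / (N : ℝ) ^ 2 * ∑ β, j4 α β * S β := by
      intro y
      have h2 := sum_aT (false, false) tc κ (g k) (liftH (y, α))
      rw [piH_liftH, hg.2, BA.opA_eq] at h2
      simpa only [chi_ff, one_mul, up, piH, liftH, BA.oppHE, toTorus_lift, kera_tor] using h2
    have h3 := Finset.sum_congr rfl fun y (_ : y ∈ Finset.univ) => h1 y
    have h5 : ∑ y, g k (y + toTorus N (dv α), α + 2) = S (α + 2) :=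
      Equiv.sum_comp (Equiv.addRight (toTorus N (dv α))) fun y => g k (y, α + 2)
    rw [Finset.sum_add_distrib, Finset.sum_add_distrib, Finset.sum_comm, ← Finset.mul_sum, h5, Finset.sum_const, Finset.card_univ,
      Fintype.card_prod, ZMod.card, nsmul_eq_mul] at h3
    simp only [← Finset.mul_sum] at h3
    have h4 : ∑ y : XT N, (if (y, α) = k then 1 else 0 : ℝ) = if α = k.2 then 1 else 0 := by
      obtain ⟨k1, k2⟩ := k
      by_cases hk : α = k2 <;> simp [hk]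
    rw [← h4, h3]
    push_cast
    field_simp
    rfl
  obtain ⟨e, he⟩ : ∃ e : Fin 4 → ℝ, ∀ α, e α = if α = k.2 then 1 else 0 := ⟨_, fun _ => rfl⟩
  simp only [← he] at h
  have h0 := h 0
  have h1 := h 1
  have h2 := h 2
  have h3 := h 3
  simp [Fin.sum_univ_four, BA.A0, BA.sgA, j4] at h0 h1 h2 h3
  have f0 : κ * S 0 = -e 1 + (1 + tc) * e 2 - e 3 := by
    linear_combination h1 - (1 + tc) * h2 + h3 + S 0 * tc_sq
  have f1 : κ * S 1 = e 0 - e 2 + (1 + tc) * e 3 := by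
    linear_combination -h0 + h2 - (1 + tc) * h3 + S 1 * tc_sq
  show κ * S 1 = ps1 k.2 ∧ κ * S 0 = -ps2 k.2
  rw [f0, f1]
  generalize k.2 = γ at he
  induction γ using b1_fin4 <;> simp [he, ps1, ps2]

theorem gL_eq' [NeZero N] {ε : Sec} {κ : ℝ} (hA : Adm N ε κ) {g : IT N → IT N → ℝ} (hg : IsKerT N ε κ g) (k i : HE) :
    opA wPl (gL N ε g k) i =
      (if piH N i = piH N k then chi N ε k.1 * chi N ε i.1 else 0) + dg ε / (N : ℝ) ^ 2 * c4 k.2 i.2 := by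
  rcases hA with ⟨h, rfl⟩ | ⟨rfl, -⟩
  · simp [kera_op hg, dg, h]
  obtain ⟨h1, h0⟩ := sum_ker_eq hg (piH N k)
  obtain ⟨c0, c1, c2, c3⟩ := kerd_c k.2
  have e : κ * ∑ β, j4 i.2 β * ∑ y : XT N, g (piH N k) (y, β) = -c4 k.2 i.2 := by
    generalize i.2 = β
    induction β using b1_fin4
    · simpa [Fin.sum_univ_four, j4, c0, piH] using h1
    · have : κ * ∑ y : XT N, g (piH N k) (y, 0) = -ps2 k.2 := h0
      simp only [Fin.sum_univ_four, j4, c1]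
      simp
      linarith
    · simp [j4, c2]
    · simp [j4, c3]
  rw [kera_op hg]
  simp only [chi_ff, dg, if_true]
  linear_combination (-1 / (N : ℝ) ^ 2) * e

theorem antisym_kD {ε : Sec} {g : IT N → IT N → ℝ} (hg : Antisym g) : Antisym (kD N ε g) := by
  intro i j
  simp only [kD, antisym_gL ε hg i j, gPl_ker.1 i j, antisym_rK i j]
  ring

/-- `gL_eq'`, `gPl_ker`, `opA_rK`, `toTorus_eq_iff` -/
theorem opA_kD [NeZero N] {ε : Sec} {κ : ℝ} (hA : Adm N ε κ) {g : IT N → IT N → ℝ} (hg : IsKerT N ε κ g) {i j : HE}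
    (h : supd i.1 j.1 < N) : opA wPl (kD N ε g i) j = 0 := by
  have e : kD N ε g i = gL N ε g i - gPl i - (dg ε / (N : ℝ) ^ 2) • rK i := rfl
  have h1 : piH N j = piH N i ↔ j = i := by
    refine ⟨fun hh => ?_, fun hh => by rw [hh]⟩
    obtain ⟨n, hn⟩ := toTorus_eq_iff.1 (congrArg Prod.fst hh)
    have h2 : j.2 = i.2 := congrArg (fun z : IT N => z.2) hh
    have e1 : i.1.1 = j.1.1 + N * n.1 := congrArg Prod.fst hn
    have e2 : i.1.2 = j.1.2 + N * n.2 := congrArg Prod.snd hn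
    have hz : ∀ m : ℤ, (N * m).natAbs < N → m = 0 := fun m hm => by
      rw [Int.natAbs_mul, Int.natAbs_natCast] at hm
      by_contra h0
      have : 1 ≤ m.natAbs := Int.natAbs_pos.2 h0
      nlinarith
    simp only [supd, max_lt_iff, e1, e2, add_sub_cancel_left] at h
    rw [hz _ h.1] at e1
    rw [hz _ h.2] at e2
    exact Prod.ext (Prod.ext (by simpa using e1.symm) (by simpa using e2.symm)) h2
  rw [e, opA_sub, opA_sub, opA_smul]
  simp only [Pi.sub_apply, Pi.smul_apply, smul_eq_mul]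
  rw [gL_eq' hA hg, gPl_ker.2, opA_rK]
  simp only [h1]
  split_ifs with hh
  · rw [hh, chi_sq]; ring
  · ring

theorem kD_bd : ∃ C : ℝ, ∀ (N : ℕ) [NeZero N] (ε : Sec) (κ : ℝ) (g : IT N → IT N → ℝ), Adm N ε κ → IsKerT N ε κ g →
    ∀ i j : HE, 4 * supd i.1 j.1 ≤ 3 * N → |kD N ε g i j| ≤ C / N := by
  obtain ⟨C, hC⟩ := gL_bd
  refine ⟨C + 80, fun N _ ε κ g hA hg i j h => ?_⟩
  have hN : (1 : ℝ) ≤ N := by exact_mod_cast Nat.pos_of_ne_zero (NeZero.ne N)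
  have h1 := hC N ε κ g hA hg i j h
  have h2 := abs_rK_le i j
  have h3 : 4 * (supd i.1 j.1 : ℝ) ≤ 3 * N := by exact_mod_cast h
  have h4 : |dg ε| ≤ 1 := by unfold dg; split_ifs <;> simp
  have h5 : |dg ε / (N : ℝ) ^ 2 * rK i j| ≤ 80 / N := by
    rw [abs_mul, abs_div, abs_of_pos (by positivity : (0 : ℝ) < (N : ℝ) ^ 2)]
    calc _ ≤ 1 / (N : ℝ) ^ 2 * (80 * N) := by
          gcongr
          linarith
      _ = 80 / N := by field_simp
  rw [add_div]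
  exact (abs_sub _ _).trans (add_le_add h1 h5)

end Crest.Agent.R165.E
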