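import Crest.Agent.R165.E.StepT
import Crest.Agent.R165.E.KerD

/-! # R165/E (torus, owner helper12): Gram bound for the last integration on the torus -/

set_option autoImplicit false
noncomputable section
open Classical Crest.ProbabilityR.IsingModel

namespace Crest.Agent.R165.E

variable {N : ℕ}

/-- all one-particle vectors based in `box x r` -/
def upB (p : Par) (Γ : ℕ → ℝ) (j : ℕ) (x : Site) (r : ℕ) : Set (GV Ix) := ⋃ z ∈ box x r, ups p Γ j z

theorem gfa_pr_smul (u : GV Ix) (t : ℝ) (f : Fn) : pr u (extF (t • f)) = t * pr u (extF f) := by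
  simp only [pr, Finsupp.linearCombination_apply, Finsupp.sum, Finset.mul_sum]
  refine Finset.sum_congr rfl fun i _ => ?_
  rcases i with a | q <;> simp [extF, mul_left_comm]

/-- multiplier × bounded solution (rescale `s` by `Γ / (M √λ)`; `M = 0`: `f` vanishes on the support) -/
theorem pr_le {p : Par} (hp : p.OK) {Γ : ℕ → ℝ} {j : ℕ} (hj : 1 ≤ j) (hΓ : 0 < Γ j) {z : Site} {u : GV Ix} (hu : u ∈ ups p Γ j z)
    {m s f : Fn} {M : ℝ} (hm : Mult (box z (2 * p.lam j)) (p.lam j) m) (hs : SolOn wPl (box z (2 * p.lam j)) s)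
    (hM : ∀ i : HE, i.1 ∈ box z (2 * p.lam j + 1) → |s i| ≤ M) (hf : ∀ i : HE, i.1 ∈ box z (p.lam j) → f i = m i * s i) :
    |pr u (extF f)| ≤ M * Real.sqrt (p.lam j) / Γ j := by
  have hl : (0 : ℝ) < p.lam j := by
    have := (D3.lam_eq hp j).2.2.1
    exact_mod_cast (show 0 < p.lam j by omega)
  have hs0 := Real.sqrt_pos.2 hl
  have hM0 : 0 ≤ M := (abs_nonneg _).trans (hM (z, 0) (self_mem_box z _))
  refine le_of_forall_pos_le_add fun ε hε => ?_
  set κ := M * Real.sqrt (p.lam j) / Γ j + ε with hκ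
  have hk : 0 < κ := by positivity
  have h2 := hu.2
  rw [if_neg (by omega)] at h2
  have h3 := h2 (κ⁻¹ • f) ⟨m, κ⁻¹ • s, hm, fun y hy α => by
    rw [B3.opA_smul]
    exact mul_eq_zero_of_right _ (hs y hy α), fun y hy α => ?_, fun i hi => by simp [hf i hi, mul_left_comm]⟩
  · rwa [gfa_pr_smul, abs_mul, abs_of_pos (inv_pos.2 hk), inv_mul_le_iff₀ hk, mul_one] at h3
  · change _ * dB ∅ _ _ ≤ (Γ j / _) ^ 2 * _
    rw [B3.dB_empty]
    refine mul_le_mul_of_nonneg_right (sq_le_sq' (abs_le.1 ?_).1 (abs_le.1 ?_).2) hl.le <;>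
    · rw [Pi.smul_apply, smul_eq_mul, abs_mul, abs_of_pos (inv_pos.2 hk), inv_mul_le_iff₀ hk]
      refine (hM (y, α) hy).trans ?_
      have e : M = M * Real.sqrt (p.lam j) / Γ j * (Γ j / Real.sqrt (p.lam j)) := by field_simp
      refine e.trans_le ?_
      gcongr
      linarith

theorem pr_le_sol {p : Par} (hp : p.OK) {Γ : ℕ → ℝ} {j : ℕ} (hj : 1 ≤ j) (hΓ : 0 < Γ j) {z : Site} {u : GV Ix} (hu : u ∈ ups p Γ j z)
    {s : Fn} {M : ℝ} (hs : SolOn wPl (box z (2 * p.lam j)) s) (hM : ∀ i : HE, i.1 ∈ box z (2 * p.lam j + 1) → |s i| ≤ M) :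
    |pr u (extF s)| ≤ M * Real.sqrt (p.lam j) / Γ j := by
  exact pr_le hp hj hΓ hu (m := fun _ => 1) (fun x _ α β γ δ => by simp [dif]) hs hM fun i _ => (one_mul _).symm

/-- half-edges `b` whose edge crosses the boundary of the box (on either side) -/
def bdH (x : Site) (R : ℕ) : Finset HE :=
  ((box x (R + 1)) ×ˢ (Finset.univ : Finset (Fin 4))).filter fun b => ¬ (b.1 ∈ box x R ↔ b.1 + dv b.2 ∈ box x R)

theorem card_bdH (x : Site) (R : ℕ) : (bdH x R).card ≤ 32 * (R + 1) := by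
  have h : bdH x R ⊆ ((Finset.univ : Finset (Fin 4)) ×ˢ ({(R : ℤ), -(R : ℤ) - 1} : Finset ℤ) ×ˢ
      Finset.Icc (-(R : ℤ)) R).image fun q => (x + q.2.1 • dv q.1 + q.2.2 • dv (q.1 + 1), q.1) := by
    rintro ⟨⟨a, c⟩, α⟩ hb
    obtain ⟨-, hb⟩ := Finset.mem_filter.1 hb
    simp only [mem_box'] at hb
    simp only [Finset.mem_image, Finset.mem_product, Finset.mem_univ, true_and, Finset.mem_insert, Finset.mem_singleton,
      Finset.mem_Icc]
    fin_cases α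
    · refine ⟨(0, a - x.1, c - x.2), ?_, by simp [dv, Prod.ext_iff]⟩
      simp [dv] at hb ⊢
      omega
    · refine ⟨(1, c - x.2, x.1 - a), ?_, by simp [dv, Prod.ext_iff]⟩
      simp [dv] at hb ⊢
      omega
    · refine ⟨(2, x.1 - a, x.2 - c), ?_, by simp [dv, Prod.ext_iff]⟩
      simp [dv] at hb ⊢
      omega
    · refine ⟨(3, x.2 - c, a - x.1), ?_, by simp [dv, Prod.ext_iff]⟩
      simp [dv] at hb ⊢
      omega
  refine (Finset.card_le_card h).trans (Finset.card_image_le.trans ?_)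
  rw [Finset.card_product, Finset.card_product, Int.card_Icc, Finset.card_univ, Fintype.card_fin]
  have h2 : ({(R : ℤ), -(R : ℤ) - 1} : Finset ℤ).card ≤ 2 := Finset.card_le_two
  have h3 : ((R : ℤ) + 1 - -(R : ℤ)).toNat = 2 * R + 1 := by omega
  rw [h3]
  nlinarith

theorem gfa_opp (s : Fn) (b : HE) : opp s b.1 b.2 = BA.sgA b.2 * s (BA.oppHE b) := by
  obtain ⟨x, α⟩ := b
  fin_cases α <;> simp [opp, sv, BA.sgA, BA.oppHE]

theorem gfa_bdH {x : Site} {R : ℕ} {b : HE} (hb : b ∈ bdH x R) :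
    R ≤ supd b.1 x ∧ supd (BA.oppHE b).1 x ≤ R + 2 := by
  obtain ⟨h1, h2⟩ := Finset.mem_filter.1 hb
  have h3 := mem_box.1 (Finset.mem_product.1 h1).1
  rw [mem_box, mem_box] at h2
  have h4 := supd_triangle (b.1 + dv b.2) b.1 x
  rw [supd_dv] at h4
  simp only [BA.oppHE]
  omega

/-- discrete Cauchy formula: `green` with `η` = indicator of `box x R`, `s = gPl i`, `s' = f`; `opp f b.1 b.2 = sgA b.2 * f (oppHE b)` -/
theorem cauchy_box (x : Site) (R : ℕ) : ∃ c : HE → ℝ, (∀ b, |c b| ≤ 1) ∧ ∀ f : Fn, SolOn wPl (box x R) f →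
    ∀ i : HE, i.1 ∈ box x R → f i = ∑ b ∈ bdH x R, c b * gPl i b * f (BA.oppHE b) := by
  let η : Site → ℝ := fun y => if y ∈ box x R then 1 else 0
  have ht := tc_pos
  refine ⟨fun b => -(tc * (η (b.1 + dv b.2) - η b.1) * BA.sgA b.2), fun b => ?_, fun f hf i hi => ?_⟩
  · simp only [η, BA.sgA]
    split_ifs <;> rw [abs_le] <;> constructor <;> linarith [ht.1, ht.2]
  have h := green wPl η ((box x R).finite_toSet.subset fun p hp => by_contra fun h => hp (if_neg h)) (gPl i) f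
  rw [finsum_eq_single _ i fun k hk => by
    rw [gPl_ker.2, if_neg hk, zero_mul, add_zero]
    simp only [η]
    split_ifs with h1
    · rw [hf k.1 h1 k.2, mul_zero, mul_zero]
    · rw [zero_mul], gPl_ker.2, if_pos rfl, hf i.1 hi i.2, bform,
    finsum_eq_sum_of_support_subset _ (s := bdH x R) fun b hb => ?_] at h
  · simp only [η, if_pos hi, mul_zero, zero_add, one_mul] at h
    rw [← neg_neg (f i), ← h, ← Finset.sum_neg_distrib]
    refine Finset.sum_congr rfl fun b _ => ?_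
    rw [gfa_opp]
    simp only [η, wPl]
    ring
  · have h1 : ¬ (b.1 ∈ box x R ↔ b.1 + dv b.2 ∈ box x R) := fun h1 => hb (by simp only [η, h1, sub_self, mul_zero, zero_mul])
    refine Finset.mem_coe.2 (Finset.mem_filter.2 ⟨Finset.mem_product.2 ⟨?_, Finset.mem_univ _⟩, h1⟩)
    rw [mem_box, mem_box] at h1
    rw [mem_box]
    have h4 := supd_triangle b.1 (b.1 + dv b.2) x
    rw [supd_comm b.1 (b.1 + dv b.2), supd_dv] at h4
    omega

/-- **kernels that solve the equation in both variables.** `cauchy_box` for `f = fun i => k i j = - k j i`, `bil_rank` with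
`f b i = c b * gPl i b = - c b * gPl b i`, `f' b = k (oppHE b)`; `Cross.of_fin`, `pr_le_sol`, `gPl_bound` (distance `≥ R/2`), `card_bdH`. -/
theorem cross_bisol : ∃ C : ℝ, ∀ (p : Par) (Γ : ℕ → ℝ) (j : ℕ) (x₀ x₁ : Site) (r R : ℕ) (k : HE → HE → ℝ) (M δ : ℝ), p.OK → 1 ≤ j →
    0 < Γ j → 2 * (r + 2 * p.lam j + 2) ≤ R → Antisym k →
    (∀ i i' : HE, i.1 ∈ box x₀ (R + 2) → i'.1 ∈ box x₁ (r + 2 * p.lam j + 1) →
      |k i i'| ≤ M ∧ opA wPl (k i) i' = 0 ∧ opA wPl (k i') i = 0) →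
    C * p.lam j * (1 / R + R * M ^ 2) ≤ δ ^ 2 * Γ j ^ 2 → Cross (upB p Γ j x₀ r) (upB p Γ j x₁ r) (extG k) δ := by
  obtain ⟨G, hG⟩ := gPl_bound
  have hG0 : 0 ≤ G := by
    have := (abs_nonneg _).trans (hG (0, 0) (0, 0))
    simpa [supd] using this
  refine ⟨256 * G ^ 2 + 64, fun p Γ j x₀ x₁ r R k M δ hp hj hΓ hR hk hb hδ => ?_⟩
  obtain ⟨c, hc, hC⟩ := cauchy_box x₀ R
  have hR0 : (1 : ℝ) ≤ R := by exact_mod_cast (show 1 ≤ R by omega)
  have hl : (0 : ℝ) ≤ p.lam j := Nat.cast_nonneg _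
  have hrad : rad p j = p.lam j := if_neg (by omega)
  have hsupp : ∀ (x : Site) (u : GV Ix), u ∈ upB p Γ j x r →
      ∀ i ∈ u.support, ∃ a : HE, i = Sum.inl a ∧ a.1 ∈ (box x (r + p.lam j) : Set Site) := fun x u hu i hi => by
    obtain ⟨z, hz, hu⟩ := Set.mem_iUnion₂.1 hu
    obtain ⟨a, e, ha⟩ := ups_supp hu i hi
    exact ⟨a, e, box_subset_box hz (by omega) ha⟩
  have hsum : ∀ (X : HE → ℝ) (A : ℝ), (∀ b ∈ bdH x₀ R, |X b| ≤ A * Real.sqrt (p.lam j) / Γ j) →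
      64 * R * A ^ 2 * p.lam j ≤ δ ^ 2 * Γ j ^ 2 → ∑ b ∈ bdH x₀ R, X b ^ 2 ≤ δ ^ 2 := fun X A h1 h2 => by
    refine (Finset.sum_le_card_nsmul _ _ ((A * Real.sqrt (p.lam j) / Γ j) ^ 2) fun b hb =>
      sq_le_sq' (abs_le.1 (h1 b hb)).1 (abs_le.1 (h1 b hb)).2).trans ?_
    have h3 : ((bdH x₀ R).card : ℝ) ≤ 32 * (R + 1) := by exact_mod_cast card_bdH x₀ R
    rw [nsmul_eq_mul, div_pow, mul_pow, Real.sq_sqrt hl, ← mul_div_assoc, div_le_iff₀ (by positivity)]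
    refine le_trans ?_ h2
    rw [mul_assoc (64 * (R : ℝ))]
    gcongr
    linarith
  have e1 : 0 ≤ p.lam j * (1 / (R : ℝ)) := by positivity
  have e2 : 0 ≤ p.lam j * (R * M ^ 2) := by positivity
  have e3 : 0 ≤ G ^ 2 * (p.lam j * (R * M ^ 2)) := by positivity
  have e4 : 0 ≤ G ^ 2 * (p.lam j * (1 / (R : ℝ))) := by positivity
  refine Cross.of_fin (bdH x₀ R) (fun u b => pr u (extF ((-c b) • gPl b))) (fun v b => pr v (extF (k (BA.oppHE b))))
    (fun u hu v hv => bil_rank _ _ _ (fun i i' hi hi' => ⟨hk i i', ?_⟩) (hsupp _ u hu) (hsupp _ v hv))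
    (fun u hu => hsum _ (2 * G / R) (fun b hb' => ?_) ?_) fun v hv => hsum _ M (fun b hb' => ?_) ?_
  · have h1 : i'.1 ∈ box x₁ (r + 2 * p.lam j + 1) := box_mono _ (by omega) hi'
    rw [hk i' i, hC (k i') (fun y hy α => (hb (y, α) i' (box_mono _ (by omega) hy) h1).2.2) i (box_mono _ (by omega) hi),
      ← Finset.sum_neg_distrib]
    refine Finset.sum_congr rfl fun b _ => ?_
    rw [hk (BA.oppHE b) i', gPl_ker.1 b i, Pi.smul_apply, smul_eq_mul]
    ring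
  · obtain ⟨z, hz, hu⟩ := Set.mem_iUnion₂.1 hu
    have h1 := (gfa_bdH hb').1
    have h2 := mem_box.1 hz
    have h3 : ∀ y ∈ box z (2 * p.lam j + 1), R ≤ 2 * supd b.1 y := fun y hy => by
      have := mem_box.1 hy
      have := supd_triangle b.1 y x₀
      have := supd_triangle y z x₀
      omega
    refine pr_le_sol hp hj hΓ hu (fun y hy α => ?_) fun i hi => ?_
    · rw [B3.opA_smul, gPl_ker.2, if_neg, mul_zero]
      rintro rfl
      have := h3 _ (box_mono _ (by omega) hy)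
      rw [supd_self] at this
      omega
    · rw [Pi.smul_apply, smul_eq_mul, abs_mul, abs_neg]
      refine (mul_le_of_le_one_left (abs_nonneg _) (hc b)).trans ((hG b i).trans ?_)
      have h4 : (R : ℝ) ≤ 2 * supd b.1 i.1 := by exact_mod_cast h3 _ hi
      rw [div_le_div_iff₀ (by positivity) (by positivity)]
      nlinarith
  · refine le_trans ?_ hδ
    have e : 64 * (R : ℝ) * (2 * G / R) ^ 2 * p.lam j = 256 * (G ^ 2 * (p.lam j * (1 / R))) := by
      field_simp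
      ring
    rw [e]
    nlinarith
  · obtain ⟨z, hz, hv⟩ := Set.mem_iUnion₂.1 hv
    have h1 := mem_box.2 (gfa_bdH hb').2
    exact pr_le_sol hp hj hΓ hv (fun y hy α => (hb _ (y, α) h1 (box_subset_box hz (by omega) hy)).2.1)
      fun i hi => (hb _ i h1 (box_subset_box hz (by omega) hi)).1
  · refine le_trans ?_ hδ
    nlinarith

theorem gfb_bd : (∀ α, |ps1 α| ≤ 2) ∧ (∀ α, |ps2 α| ≤ 2) ∧ (∀ α, |mu4 α| ≤ 1) ∧ (∀ α β, |mu4 α - mu4 β| ≤ 1) ∧
    ∀ α, mu4 α * ps2 α = mu4 α := by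
  obtain ⟨⟨a0, a1, a2, a3⟩, ⟨b0, b1, b2, b3⟩, m0, m1, m2, m3⟩ := kerd_v
  obtain ⟨t0, t1⟩ := tc_pos
  refine ⟨fun α => ?_, fun α => ?_, fun α => ?_, fun α β => ?_, fun α => ?_⟩
  · induction α using b1_fin4 <;> simp only [a0, a1, a2, a3, abs_le] <;> constructor <;> linarith
  · induction α using b1_fin4 <;> simp only [b0, b1, b2, b3, abs_le] <;> constructor <;> linarith
  · induction α using b1_fin4 <;> simp only [m0, m1, m2, m3, abs_le] <;> constructor <;> linarith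
  · induction α using b1_fin4 <;> induction β using b1_fin4 <;> simp only [m0, m1, m2, m3, abs_le] <;>
      constructor <;> linarith
  · induction α using b1_fin4 <;> simp only [m0, m1, m2, m3, b3, zero_mul, mul_one]

theorem gfb_pr (u : GV Ix) (a : ℝ) (f : Fn) : pr u (extF fun i => a * f i) = a * pr u (extF f) := by
  rw [← D1.pr_smul]
  congr 1
  funext i
  rcases i with i | i <;> simp [extF]

/-- `|pr u ψ| ≤ C √λ/Γ`; `(x.1 - c) ψ = (x.1 - z.1) ψ + (z.1 - c) ψ` with the multiplier `(x.1 - z.1)/(2λ)`; `mu4 = λ · m · ps2`-type with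
`m (x, α) = (if α = 3 then t/λ else 0)`, `s = ps2` (`ps2 3 = 1`) -/
theorem pr_le_poly {p : Par} (hp : p.OK) {Γ : ℕ → ℝ} {j : ℕ} (hj : 1 ≤ j) (hΓ : 0 < Γ j) {z : Site} {u : GV Ix}
    (hu : u ∈ ups p Γ j z) (c : ℤ) {D : ℝ} (hD : |(z.1 : ℝ) - c| ≤ D) (hl : (p.lam j : ℝ) ≤ D) {ψ : Fin 4 → ℝ} (hψ : ψ = ps1 ∨ ψ = ps2) :
    |pr u (extF fun i => ψ i.2)| ≤ 2 * Real.sqrt (p.lam j) / Γ j ∧
    |pr u (extF fun i => ((i.1.1 : ℝ) - c) * ψ i.2)| ≤ 6 * D * Real.sqrt (p.lam j) / Γ j ∧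
    |pr u (extF fun i => mu4 i.2)| ≤ 6 * D * Real.sqrt (p.lam j) / Γ j := by
  obtain ⟨b1, b2, b3, b4, b5⟩ := gfb_bd
  have l8 : (8 : ℝ) ≤ p.lam j := by exact_mod_cast (D3.lam_eq hp j).2.2.1
  have d0 : D ≠ 0 := ne_of_gt (by linarith)
  have hψ1 : ∀ α, |ψ α| ≤ 2 := by rcases hψ with rfl | rfl <;> assumption
  have hψ2 : ∀ i, opA wPl (fun i => ψ i.2) i = 0 := by rcases hψ with rfl | rfl; exacts [opA_ps.1, opA_ps.2]
  have sol : ∀ (a : ℝ) {φ : Fin 4 → ℝ}, (∀ i, opA wPl (fun i => φ i.2) i = 0) → ∀ W, SolOn wPl W fun i => a * φ i.2 :=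
    fun a φ h W x _ α => by
      have := congrFun (opA_smul wPl a fun i => φ i.2) (x, α)
      rw [Pi.smul_apply, h, smul_zero] at this
      exact this
  refine ⟨pr_le_sol hp hj hΓ hu (fun x _ α => hψ2 _) fun i _ => hψ1 _, ?_, ?_⟩
  · refine pr_le hp hj hΓ hu (m := fun i => ((i.1.1 : ℝ) - c) / (3 * D)) (s := fun i => 3 * D * ψ i.2) ?_ (sol _ hψ2 _)
      (fun i _ => ?_) fun i _ => by field_simp
    · intro x hx α β γ δ
      have h1 : |(x.1 : ℝ) - z.1| ≤ 2 * p.lam j := by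
        have := mem_box'.1 hx
        have : |x.1 - z.1| ≤ 2 * (p.lam j : ℤ) := by rw [abs_le]; omega
        exact_mod_cast this
      have h2 : ∀ (y : Site) (α : Fin 4), dif (dv γ) (fun i : HE => ((i.1.1 : ℝ) - c) / (3 * D)) (y, α) = (dv γ).1 / (3 * D) :=
        fun y α => by simp only [dif, Prod.fst_add, Int.cast_add]; ring
      have h3 : |((dv γ).1 : ℝ)| ≤ 1 := by fin_cases γ <;> simp [dv]
      refine ⟨?_, by simp, ?_, ?_, ?_⟩
      · rw [abs_div, abs_of_pos (show 0 < 3 * D by linarith), div_le_one (by linarith)]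
        linarith [abs_sub_le (x.1 : ℝ) z.1 c]
      · rw [h2, abs_div, abs_of_pos (show 0 < 3 * D by linarith)]
        exact div_le_div₀ zero_le_one h3 (by linarith) (by linarith)
      · rw [dif, h2, h2, sub_self, abs_zero]; positivity
      · rw [h2, h2, sub_self, abs_zero]; positivity
    · rw [abs_mul, abs_of_pos (show 0 < 3 * D by linarith)]
      nlinarith [hψ1 i.2]
  · refine pr_le hp hj hΓ hu (m := fun i => mu4 i.2 / p.lam j) (s := fun i => p.lam j * ps2 i.2) ?_ (sol _ opA_ps.2 _)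
      (fun i _ => ?_) fun i _ => by field_simp; rw [b5]
    · intro x _ α β γ δ
      refine ⟨?_, ?_, by simp [dif], by simp [dif], by simp [dif]⟩
      · rw [abs_div, Nat.abs_cast, div_le_one (by linarith)]
        linarith [b3 α]
      · rw [← sub_div, abs_div, Nat.abs_cast]
        gcongr
        exact b4 α β
    · rw [abs_mul, Nat.abs_cast]
      nlinarith [b2 i.2]

/-- `rK` is a sum of 8 products; put `D^{-1/2}` on the bounded factor and `D^{-3/2}` on the other one (`bil_rank`, `Cross.of_fin`, `pr_le_poly`) -/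
theorem cross_rK : ∃ C : ℝ, ∀ (p : Par) (Γ : ℕ → ℝ) (j : ℕ) (x₀ x₁ : Site) (r D : ℕ) (t δ : ℝ), p.OK → 1 ≤ j → 0 < Γ j →
    supd x₀ x₁ + r ≤ D → p.lam j ≤ D → |t| ≤ 1 / (D : ℝ) ^ 2 → C ≤ δ ^ 2 * Γ j ^ 2 →
    Cross (upB p Γ j x₀ r) (upB p Γ j x₁ r) (extG fun i i' => t * rK i i') δ := by
  refine ⟨8 * 18 ^ 2, fun p Γ j x₀ x₁ r D t δ hp hj hΓ hD hl ht hδ => ?_⟩
  obtain ⟨t0, t1⟩ := tc_pos
  have l8 := (D3.lam_eq hp j).2.2.1
  have hl' : (p.lam j : ℝ) ≤ D := by exact_mod_cast hl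
  have d0 : (0 : ℝ) < D := by exact_mod_cast (by omega : 0 < D)
  have s0 : 0 < Real.sqrt D := Real.sqrt_pos.2 d0
  have s1 : Real.sqrt (p.lam j) ≤ Real.sqrt D := Real.sqrt_le_sqrt hl'
  have s2 : Real.sqrt D * Real.sqrt D = D := Real.mul_self_sqrt d0.le
  let w : ℝ := 1 / Real.sqrt D
  let w' : ℝ := t * Real.sqrt D
  have hw : t = w * w' := by simp only [w, w']; field_simp
  let A : (Fin 4 → ℝ) → Fn := fun ψ i => w * ψ i.2
  let B : ℝ → (Fin 4 → ℝ) → Fn := fun e ψ i => w' * e * (((i.1.1 : ℝ) - x₀.1) * ψ i.2)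
  let M : ℝ → Fn := fun e i => w' * e * mu4 i.2
  have big : ∀ {e y : ℝ}, |e| ≤ 3 → |y| ≤ 6 * D * Real.sqrt (p.lam j) / Γ j → |w' * e * y| ≤ 18 / Γ j := fun he hy => by
    rw [abs_mul, abs_mul, abs_mul, abs_of_pos s0]
    calc _ ≤ 1 / (D : ℝ) ^ 2 * Real.sqrt D * 3 * (6 * D * Real.sqrt D / Γ j) := by gcongr; exact hy.trans (by gcongr)
      _ = 18 * (Real.sqrt D * Real.sqrt D) / D / Γ j := by field_simp; norm_num
      _ = _ := by rw [s2]; field_simp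
  have key : ∀ x, supd x₀ x + r ≤ D → ∀ u ∈ upB p Γ j x r, ∀ ψ, ψ = ps1 ∨ ψ = ps2 → |pr u (extF (A ψ))| ≤ 18 / Γ j ∧
      ∀ e, |e| ≤ 3 → |pr u (extF (B e ψ))| ≤ 18 / Γ j ∧ |pr u (extF (M e))| ≤ 18 / Γ j := fun x hx u hu ψ hψ => by
    obtain ⟨z, hz, hu⟩ := Set.mem_iUnion₂.1 hu
    have h1 : |(z.1 : ℝ) - x₀.1| ≤ D := by
      have := mem_box'.1 hz
      have : |z.1 - x₀.1| ≤ (D : ℤ) := by rw [abs_le]; unfold supd at hx; omega
      exact_mod_cast this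
    obtain ⟨q1, q2, q3⟩ := pr_le_poly hp hj hΓ hu x₀.1 h1 hl' hψ
    refine ⟨?_, fun e he => ⟨?_, ?_⟩⟩
    · rw [gfb_pr u w fun i => ψ i.2, abs_mul, abs_of_pos (show 0 < w by positivity)]
      calc _ ≤ 1 / Real.sqrt D * (2 * Real.sqrt D / Γ j) := by gcongr; exact q1.trans (by gcongr)
        _ = 2 / Γ j := by field_simp
        _ ≤ _ := by gcongr; norm_num
    · rw [gfb_pr u (w' * e)]; exact big he q2
    · rw [gfb_pr u (w' * e) fun i => mu4 i.2]; exact big he q3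
  have a1 : |(3 + tc) / 2| ≤ 3 := by rw [abs_le]; constructor <;> linarith
  have a2 : |2 + tc| ≤ 3 := by rw [abs_le]; constructor <;> linarith
  have a3 : |(1 : ℝ)| ≤ 3 := by norm_num
  have fin : ∀ y : Fin 8 → ℝ, (∀ k, |y k| ≤ 18 / Γ j) → ∑ k, y k ^ 2 ≤ δ ^ 2 := fun y hy => by
    refine (Finset.sum_le_sum fun k _ => sq_le_sq' (abs_le.1 (hy k)).1 (abs_le.1 (hy k)).2).trans ?_
    rw [Finset.sum_const, Finset.card_univ, Fintype.card_fin, nsmul_eq_mul, div_pow, ← mul_div_assoc,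
      div_le_iff₀ (by positivity)]
    exact_mod_cast hδ
  have sup : ∀ x, ∀ u ∈ upB p Γ j x r, ∀ i ∈ u.support, ∃ a : HE, i = Sum.inl a ∧ a.1 ∈ (Set.univ : Set Site) :=
    fun x u hu i hi => by
      obtain ⟨z, -, hu⟩ := Set.mem_iUnion₂.1 hu
      obtain ⟨a, ha, -⟩ := ups_supp hu i hi
      exact ⟨a, ha, trivial⟩
  let f : Fin 8 → Fn := ![A ps1, A ps2, A ps2, A ps2, B (-((3 + tc) / 2)) ps2, B (-((3 + tc) / 2)) ps1, B (2 + tc) ps2, M (-1)]
  let f' : Fin 8 → Fn := ![B ((3 + tc) / 2) ps2, B ((3 + tc) / 2) ps1, B (-(2 + tc)) ps2, M 1, A ps1, A ps2, A ps2, A ps2]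
  refine Cross.of_fin Finset.univ (fun u k => pr u (extF (f k))) (fun u k => pr u (extF (f' k)))
    (fun u hu v hv => bil_rank _ f f' (fun i i' _ _ => ⟨by rw [antisym_rK i i', mul_neg], ?_⟩) (sup _ u hu) (sup _ v hv))
    (fun u hu => fin _ fun k => ?_) fun u hu => fin _ fun k => ?_
  · rw [Fin.sum_univ_eight, hw]
    simp only [f, f', A, B, M, rK, Matrix.cons_val]
    ring
  · have h1 := key x₀ (by rw [supd_self]; omega) u hu ps1 (Or.inl rfl)
    have h2 := key x₀ (by rw [supd_self]; omega) u hu ps2 (Or.inr rfl)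
    fin_cases k
    exacts [h1.1, h2.1, h2.1, h2.1, (h2.2 _ (by rwa [abs_neg])).1, (h1.2 _ (by rwa [abs_neg])).1, (h2.2 _ a2).1,
      (h2.2 _ (by rwa [abs_neg])).2]
  · have h1 := key x₁ hD u hu ps1 (Or.inl rfl)
    have h2 := key x₁ hD u hu ps2 (Or.inr rfl)
    fin_cases k
    exacts [(h2.2 _ a1).1, (h1.2 _ a1).1, (h2.2 _ (by rwa [abs_neg])).1, (h2.2 _ a3).2, h1.1, h2.1, h2.1, h2.1]

theorem geoOK_const {p : Par} (hp : p.OK) (K R : ℕ) {Γs Γ : ℝ} (h0 : 0 ≤ Γ) (hΓ : Γs ≤ Γ) {j : ℕ} (hj : 1 ≤ j) :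
    GeoOK p K Γs (gPl0 R fun _ => Γ) j := by
  have hj' : ∀ i : ℕ, ¬ ((⊤ : ℕ∞) ≤ i) := fun i h => (ENat.natCast_lt_top i).not_ge h
  have nf : ∀ b, ¬ FrozenB Set.univ b := fun b ⟨_, h, _⟩ => h (Set.mem_univ _)
  refine ⟨⟨_, le_rfl, Or.inl ⟨Set.univ, ⟨fun b h => absurd h.1 (nf b), fun b h => absurd h.1 (nf b),
      fun b _ _ h => absurd h (nf b), fun b _ h => absurd h (nf b)⟩, by funext e; simp [gPl0, gPlane, wPl, wOf, eray],
      Set.ext fun b => ⟨fun h => h.elim, fun h => nf b h.1⟩, fun h => absurd rfl h⟩⟩,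
    fun v hv => absurd hv (Finset.notMem_empty v), fun i hi => absurd hi (Nat.not_lt_zero i),
    fun _ => ⟨fun v hv => absurd hv (Finset.notMem_empty v), fun i hi => absurd hi (Nat.not_lt_zero i),
      fun i hi => absurd hi (Nat.not_lt_zero i)⟩, fun h => absurd h (hj' _), fun h => absurd h (hj' _),
    ⟨hΓ, hΓ, by change Γ ≤ 2 * Γ; linarith, fun h => by omega⟩, ⟨one_pos, one_pos, ?_⟩, fun _ => rfl⟩
  change (1 : ℝ) ≤ (if (j : ℕ∞) < ⊤ then (if j = 0 then Γ ^ 2 * p.l 1 / Γ ^ 2 else (p.L : ℝ)) else 1) * 1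
  rw [if_pos (ENat.natCast_lt_top j), if_neg (by omega), mul_one]
  exact_mod_cast (by have := hp.1; omega : 1 ≤ p.L)

/-- `hk.fin N₀ 0 CS` for `gPl0 R (fun _ => Γ')`, `Γ' = max Γf (max Γs 1)`, `g = gPl` (`gPl_bound`, `dB ∅ l x = l`), `gle_plane`; `Cross.of_gram`,
`Cross.smul` with `ups_scale` -/
theorem cross_far {R : ℕ} {k : Cons} (hk : ConsOK R k) (N₀ : ℕ) : ∃ C : ℝ, ∀ (Γ : ℕ → ℝ) (J : ℕ) (x₀ x₁ : Site) (r : ℕ) (δ : ℝ),
    2 ≤ J → 0 < Γ J → supd x₀ x₁ + r ≤ N₀ * k.p.l J → 0 ≤ δ → C ≤ δ * Γ J →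
    Cross (upB k.p Γ J x₀ r) (upB k.p Γ J x₁ r) (extG (gPl - gleP k.p J)) δ := by
  obtain ⟨CS, hCS⟩ := gPl_bound
  obtain ⟨Γf, hf⟩ := hk.fin N₀ 0 CS
  have h1 := hk.one.1
  refine ⟨max Γf k.Γs, fun Γ J x₀ x₁ r δ hJ hΓ hx hδ hC => ?_⟩
  obtain ⟨j, rfl⟩ : ∃ j, J = j + 1 := ⟨J - 1, by omega⟩
  have h2 : 0 < max Γf k.Γs := lt_max_of_lt_right (by linarith)
  have hG := hf (gPl0 R fun _ => max Γf k.Γs) j gPl x₀ (geoOK_const hk.pok _ _ h2.le (le_max_right _ _) (by omega)) le_rfl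
    gPl_ker (fun _ h => absurd h Finset.not_nonempty_empty) (fun l i i' _ _ hl => ?_) (le_max_left _ _)
  · rw [gPl0, gle_plane hk.pok] at hG
    have sub : ∀ x, supd x₀ x + r ≤ N₀ * k.p.l (j + 1) → upB k.p (fun _ => max Γf k.Γs) (j + 1) x r ⊆
        ⋃ x ∈ box x₀ (N₀ * k.p.l (j + 1)), (gPl0 R fun _ => max Γf k.Γs).U k.p (j + 1) x := fun x hx u hu => by
      obtain ⟨z, hz, hu⟩ := Set.mem_iUnion₂.1 hu
      have h3 := mem_box_supd.1 hz
      have h4 := supd_triangle z x x₀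
      rw [supd_comm x x₀] at h4
      exact Set.mem_iUnion₂.2 ⟨z, mem_box_supd.2 (by omega), Or.inl hu⟩
    have sc : ∀ x, ∀ u ∈ upB k.p Γ (j + 1) x r, ∃ v ∈ upB k.p (fun _ => max Γf k.Γs) (j + 1) x r,
        u = (max Γf k.Γs / Γ (j + 1)) • v := fun x u hu => by
      obtain ⟨z, hz, hu⟩ := Set.mem_iUnion₂.1 hu
      refine ⟨_, Set.mem_iUnion₂.2 ⟨z, hz, ups_scale (Γ' := fun _ => max Γf k.Γs) (by omega) hΓ h2 hu⟩, ?_⟩
      rw [smul_smul, div_mul_div_cancel₀ hΓ.ne', div_self h2.ne', one_smul]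
    refine ((Cross.of_gram hG (sub x₀ (by rw [supd_self]; omega)) (sub x₁ hx)).smul (sc x₀) (sc x₁)).mono subset_rfl
      subset_rfl ?_
    rw [mul_one]
    gcongr
    rwa [div_le_iff₀ hΓ]
  · change gPl i i' ^ 2 * (dB ∅ l i.1 * dB ∅ l i'.1) ≤ _
    have h3 := hCS i i'
    have h4 : (l : ℝ) ≤ supd i.1 i'.1 + 1 := by exact_mod_cast hl
    rw [le_div_iff₀ (by positivity)] at h3
    rw [DU.dB_empty, DU.dB_empty, ← sq, ← sq_abs (gPl i i'), ← mul_pow]
    gcongr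
    exact le_trans (by gcongr) h3

/-- `gram_net` with `l = ℓ_J`, `r = N` (all cells adjacent, at most `(200 L + 3)²`); for cells `a, b`: `x₀ = lift a`, `x₁ = near N x₀ b`,
`gL (g - perK gleP) = kD + (dg/N²) rK + (gPl - gleP)` on the supports (`gL_perK`), contour `R = N / 10`, `kD_bd`, `opA_kD`. -/
theorem gram_finT {R : ℕ} {k : Cons} (hk : ConsOK R k) : ∃ Γf : ℝ, ∀ (o : Ob) (J N : ℕ) [NeZero N] (ε : Sec) (κ : ℝ)
    (g : IT N → IT N → ℝ), 2 ≤ J → 100 * k.p.l J ≤ N → N ≤ 100 * k.p.l (J + 1) → Adm N ε κ → IsKerT N ε κ g → 0 < o.Gam J →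
    Γf ≤ o.Gam J → Gram (⋃ x, UT N ε k.p o J x) (extG (g - perK N ε (gleP k.p J))) 1 := by
  obtain ⟨C₁, h₁⟩ := cross_bisol
  obtain ⟨C₂, h₂⟩ := cross_rK
  obtain ⟨C₃, h₃⟩ := cross_far hk (100 * k.p.L)
  obtain ⟨C₄, h₄⟩ := kD_bd
  have hp := hk.pok
  let d : ℝ := 1 / (3 * (200 * k.p.L + 3))
  have d0 : 0 < d := by positivity
  let S : ℝ := |C₁| * (1 + C₄ ^ 2) + |C₂| + |C₃| + 1
  refine ⟨S / d, fun o J N _ ε κ g hJ hN hN' hA hg hΓ hΓf => ?_⟩
  obtain ⟨f1, f2, f3, -, -, f6, -⟩ := lam_facts hp J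
  have n0 : (0 : ℝ) < N := by exact_mod_cast (by omega : 0 < N)
  have q0 : 0 ≤ |C₁| * (1 + C₄ ^ 2) := by positivity
  have q1 : S ≤ d * o.Gam J := by rwa [div_le_iff₀ d0, mul_comm] at hΓf
  have q2 : S ≤ d ^ 2 * o.Gam J ^ 2 := by
    have : 1 ≤ S := by simp only [S]; linarith [abs_nonneg C₂, abs_nonneg C₃]
    rw [← mul_pow]; nlinarith
  refine gram_net (GT N) (l := k.p.l J) (by omega) N _ (δ := d + d + d) (fun x y hxy => ?_) (fun a b _ => ?_) ?_
  · change N < dT x y + 4 * k.p.l J at hxy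
    have := two_dT_le x y
    omega
  · have e1 : supd (lift a) (near N (lift a) b) = dT a b := by rw [supd_near, toTorus_lift]
    have e2 := two_dT_le a b
    have e3 := toTorus_near (lift a) b
    have e4 := toTorus_lift a
    generalize near N (lift a) b = x₁ at e1 e3
    generalize lift a = x₀ at e1 e4
    have tri : ∀ {i i' : Site} {r r' : ℕ}, i ∈ box x₀ r → i' ∈ box x₁ r' → supd i i' ≤ r + dT a b + r' := fun {i i' r r'} hi hi' => by
      have a1 := mem_box_supd.1 hi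
      have a2 := mem_box_supd.1 hi'
      have a3 := supd_triangle i x₀ i'
      have a4 := supd_triangle x₀ x₁ i'
      rw [supd_comm x₁ i'] at a4
      omega
    have c1 := h₁ k.p o.Gam J x₀ x₁ (2 * k.p.l J) (N / 10) (kD N ε g) (C₄ / N) d hp (by omega) hΓ (by omega)
      (antisym_kD hg.1) (fun i i' hi hi' => by
        have a1 := tri hi hi'
        have a2 := supd_comm i'.1 i.1
        exact ⟨h₄ N ε κ g hA hg i i' (by omega), opA_kD hA hg (by omega), opA_kD hA hg (by omega)⟩) (by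
        have a1 : (k.p.lam J : ℝ) ≤ (N / 10 : ℕ) := by exact_mod_cast (by omega : k.p.lam J ≤ N / 10)
        have a2 : ((N / 10 : ℕ) : ℝ) ≤ N := by exact_mod_cast Nat.div_le_self _ _
        have a3 : (0 : ℝ) < (N / 10 : ℕ) := by exact_mod_cast (by omega : 0 < N / 10)
        calc _ ≤ |C₁| * k.p.lam J * (1 / (N / 10 : ℕ) + (N / 10 : ℕ) * (C₄ / N) ^ 2) := by gcongr; exact le_abs_self _
          _ = |C₁| * (k.p.lam J / (N / 10 : ℕ) + k.p.lam J * (N / 10 : ℕ) * (C₄ / N) ^ 2) := by ring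
          _ ≤ |C₁| * (1 + N * N * (C₄ / N) ^ 2) := by
            gcongr
            · rwa [div_le_one a3]
            · omega
          _ = |C₁| * (1 + C₄ ^ 2) := by field_simp
          _ ≤ _ := le_trans (by simp only [S]; linarith [abs_nonneg C₂, abs_nonneg C₃]) q2)
    have c2 := h₂ k.p o.Gam J x₀ x₁ (2 * k.p.l J) N (dg ε / (N : ℝ) ^ 2) d hp (by omega) hΓ (by omega) (by omega)
      (by rw [abs_div, abs_of_pos (pow_pos n0 2)]; gcongr; unfold dg; split_ifs <;> simp)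
      (le_trans (by simp only [S]; linarith [le_abs_self C₂, abs_nonneg C₃]) q2)
    have c3 := h₃ o.Gam J x₀ x₁ (2 * k.p.l J) d hJ hΓ (by rw [mul_assoc, ← f2]; omega) d0.le
      (le_trans (by simp only [S]; linarith [abs_nonneg C₂, le_abs_self C₃]) q1)
    have c4 := (c1.add c2 d0.le d0.le).add c3 (by positivity) d0.le
    rw [← extG_add, ← extG_add] at c4
    have sup : ∀ x, ∀ u ∈ upB k.p o.Gam J x (2 * k.p.l J), ∀ i ∈ u.support, ∃ e : HE, i = Sum.inl e ∧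
        e.1 ∈ (↑(box x (2 * k.p.l J + k.p.lam J)) : Set Site) := fun x u hu i hi => by
      obtain ⟨z, hz, hu⟩ := Set.mem_iUnion₂.1 hu
      obtain ⟨e, rfl, he⟩ := ups_supp hu i hi
      exact ⟨e, rfl, box_subset_box hz (by omega) he⟩
    have ker : ∀ i i' : HE, supd i.1 i'.1 + 31 * k.p.lam J < N → gL N ε (g - perK N ε (gleP k.p J)) i i' =
        (kD N ε g + (fun i i' => dg ε / (N : ℝ) ^ 2 * rK i i') + (gPl - gleP k.p J)) i i' := fun i i' h => by
      have := gL_perK ε (gleP_shI k.p J) (gleP_rng hp J) (by omega) h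
      simp only [gL, kD, Pi.add_apply, Pi.sub_apply] at this ⊢
      linear_combination -this
    have c5 := c4.push (g' := extG (g - perK N ε (gleP k.p J))) (TI N ε) (U' := TI N ε '' _) (V' := TI N ε '' _)
      (fun u hu => hu) (fun u hu => hu) fun u hu v hv => stb1_TI_supp ε (sup _ u hu) (sup _ v hv) fun e e' he he' => by
        have a1 := tri (Finset.mem_coe.1 he) (Finset.mem_coe.1 he')
        have a2 := supd_comm e'.1 e.1
        exact ⟨ker _ _ (by omega), ker _ _ (by omega)⟩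
    have hn : ∀ x, ∀ u ∈ ⋃ y ∈ (GT N).ball (toTorus N x) (2 * k.p.l J), UT N ε k.p o J y,
        u ∈ TI N ε '' upB k.p o.Gam J x (2 * k.p.l J) ∨ ∀ v, bil (extG (g - perK N ε (gleP k.p J))) u v = 0 := fun x u hu => by
      obtain ⟨y, hy, hu⟩ := Set.mem_iUnion₂.1 hu
      rcases UT_cases hΓ.le hu x with ⟨u, hu', rfl⟩ | ⟨b, t, -, rfl, -⟩
      · refine Or.inl ⟨u, Set.mem_iUnion₂.2 ⟨_, mem_box_supd.2 ?_, hu'⟩, rfl⟩
        rw [supd_comm, supd_near]
        exact ((GT N).mem_ball _ _ _).1 hy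
      · exact Or.inr fun v => bil_src _ _ _ _ v
    exact c5.null (e4 ▸ hn x₀) (e3 ▸ hn x₁)
  · have a1 : N / k.p.l J ≤ 100 * k.p.L := Nat.div_le_of_le_mul (by rw [mul_left_comm, mul_comm (k.p.l J), ← f2]; exact hN')
    have a2 : ((2 * (N / k.p.l J) + 3 : ℕ) : ℝ) ≤ 200 * k.p.L + 3 := by exact_mod_cast (by omega)
    rw [Nat.cast_pow, ← mul_pow]
    gcongr
    calc _ ≤ (200 * k.p.L + 3) * (d + d + d) := by gcongr
      _ = 1 := by simp only [d]; field_simp; norm_num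

end Crest.Agent.R165.E
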