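import Crest.Agent.R165.E.InitT
import Crest.Agent.R165.E.GramF
import Crest.Agent.R165.D.Defs3

/-! # R165/E (torus, owner helper12): the flow on the torus -/

set_option autoImplicit false
noncomputable section
open Classical Crest.ProbabilityR.IsingModel

namespace Crest.Agent.R165.E

variable {N : ℕ}

def stT (N : ℕ) [NeZero N] (ε : Sec) (p : Par) (o : Ob) (c : ℝ × ℝ) (μ : ℝ) (V : Finset Site → ℝ) (j : ℕ) : St (XT N) (AlT N) :=
  flow (GT N) augE (spT N ε p o) (s0T N ε p o c μ V) j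
def enT (N : ℕ) [NeZero N] (ε : Sec) (p : Par) (o : Ob) (c : ℝ × ℝ) (μ : ℝ) (V : Finset Site → ℝ) (j : ℕ) (x : XT N) : AlT N :=
  (spT N ε p o j).en (GT N) (stT N ε p o c μ V j) x

theorem fa1_mu0 (ε : Sec) (p : Par) (F : AlT N) : muE (extG (perK N ε (gleP p 0))) F = F := by
  have h := perK_sub (N := N) ε 0 0
  rw [sub_self, sub_self] at h
  rw [gleP_zero, h, stb1_extG_zero]
  exact Subtype.ext (mu_zero _)

theorem fa1_add {H : Type} (g g' : H → H → ℝ) (F : Ev (IxH H)) : muE (extG g) (muE (extG g') F) = muE (extG (g + g')) F := by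
  rw [extG_add]
  exact Subtype.ext (mu_add _ _ _).symm

theorem fa1_tau {H : Type} (k : ℕ) : cstA (tau k : Ev (IxH H)) = tau k := by
  refine Subtype.ext ?_
  simp only [cstA, tau, D1.coe_gmapE, D1.coe_th2, map_mul, D1.gmap_vmap_th]
  rfl

theorem fa1_cst {H : Type} {F : Ev (IxH H)} (h : (F : Gr (IxH H)) ∈ supA (Set.range Sum.inl)) :
    cstA F = algebraMap ℝ _ (aug (F : Gr (IxH H))) := by
  refine Subtype.ext ?_
  rw [cstA, D1.coe_gmapE, Subalgebra.coe_algebraMap]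
  refine supA_induction (P := fun x => gmap _ x = algebraMap ℝ _ (aug x)) ?_ (fun x y hx hy => ?_) (fun c x hx => ?_) ?_ h
  · simp only [map_one]
  · simp only [map_add, hx, hy]
  · rw [map_smul, map_smul, hx, smul_eq_mul, map_mul, Algebra.smul_def]
  · rintro _ ⟨a, rfl⟩ x - -
    rw [map_mul, map_mul, D1.gmap_vmap_th, th, aug_iota]
    simp

theorem fa1_conn [NeZero N] {p : Par} (hp : p.OK) {o : Ob} {c : ℝ × ℝ} (hI : InitOK p o.R c o.g) (j : ℕ) :
    (GT N).Conn (p.l j) (o.oS.image (toTorus N)) := by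
  refine (conn_image (hI.obs 0 Nat.one_pos).1).mono ?_
  induction j with
  | zero => simp [Par.l]
  | succ j ih => have := (lam_facts hp j).2.2.2.1; omega

section exact
variable [NeZero N] (ε : Sec) {p : Par} (hp : p.OK) {o : Ob} (hR : 10 * o.R + 20 ≤ p.l0) {c : ℝ × ℝ} (hc : -1 < c.2)
  (hI : InitOK p o.R c o.g) (hF : Fit N o) (μ : ℝ) {V : Finset Site → ℝ} (hV : PotOK o.R V)

/-! ### task E/Flow-a -/

include hp hR hI in
/-- induction, `next_lcl` with `spT_alg`, `lcS_mono` -/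
theorem stT_lcl (j : ℕ) : (stT N ε p o c μ V j).Lcl (GT N) (LcT N p j) (p.l j) := by
  induction j with
  | zero =>
    have h : p.l 0 = p.l0 := by simp [Par.l]
    rw [h]
    exact s0T_lcl ε hp hR hI μ V
  | succ j ih =>
    have hA := spT_alg (N := N) ε hp o j
    have h := (next_lcl (GT N) D1.nil_augE hA ih).1
    have hl : p.l j ≤ p.l (j + 1) := hA.le
    have hm : ∀ Z, LcT N p j Z ≤ LcT N p (j + 1) Z := fun Z =>
      lcS_mono _ _ (by unfold Par.rho; omega) (Finset.Subset.refl Z)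
    exact ⟨fun x => hm _ (h.q x), fun x => hm _ (h.qm x), fun Z => hm _ (h.M Z), fun Z => hm _ (h.K Z), h.Mc, h.Kc⟩

theorem stT_qm (j : ℕ) (x : XT N) : (stT N ε p o c μ V j).qm x = 0 := by
  cases j <;> rfl

include hp hR hc hI hF hV in
/-- induction with `next_rel` (`W = box z (N/8 - ℓ_j)`, `W' = box z (N/8 - ℓ_{j+1})`; `dT_eq`, `injOn_toTorus`, `mu_chart` with `over_of_lc`,
`loc_chart`, `PhI_cstA`, `mv_ob`, `filter_dT`, `st_lcl`, `sp_alg`), `s0T_rel` -/
theorem stT_rel {z : Site} (hz : 2 * supd o.y.1 z ≤ N) (j : ℕ) (hN : 100 * p.l j ≤ N) :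
    (o.g.st p c μ V j).Rel (toTorus N) (PhI N ε) ↑(box z (N / 8 - p.l j)) (stT N ε p o c μ V j) ∧
      ∀ i < j, enT N ε p o c μ V i (toTorus N z) = PhI N ε (o.g.en p c μ V i z) := by
  induction j with
  | zero =>
    have h0 : p.l 0 = p.l0 := by simp [Par.l]
    exact ⟨s0T_rel ε hc hI hF μ hV (by omega) hz (by omega), fun i hi => absurd hi (Nat.not_lt_zero i)⟩
  | succ j ih =>
    obtain ⟨-, -, a3, a4, -⟩ := lam_facts hp j
    obtain ⟨b1, -⟩ := lam_facts hp (j + 1)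
    obtain ⟨ih1, ih2⟩ := ih (by omega)
    obtain ⟨c1, c2, -⟩ := cov_facts hp j
    have hρ : p.rho j = 3 * p.l j + 3 := rfl
    have hW : ∀ x ∈ (↑(box z (N / 8 - p.l j)) : Set Site), ∀ y ∈ (↑(box z (N / 8 - p.l j)) : Set Site),
        supd x y ≤ 2 * (N / 8 - p.l j) := fun x hx y hy => by
      have h1 := mem_box.1 (Finset.mem_coe.1 hx)
      have h2 := mem_box.1 (Finset.mem_coe.1 hy)
      have h3 := supd_triangle x z y
      have h4 := supd_comm z y
      omega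
    have key := next_rel geoZ (GT N) (e := augE) (e' := augE) D4.nilE (S' := spT N ε p o j)
      (sp_alg p hp.1 hp.2.1 hp.2.2.1 o.g j) (toTorus N) (PhI N ε) ↑(box z (N / 8 - p.l j)) rfl rfl (augE_PhI ε)
      (injOn_toTorus fun x hx y hy => by have := hW x hx y hy; omega)
      (fun x hx y hy => Or.inl (by
        rw [D4.geoZ_d]
        exact dT_eq (by have := hW x hx y hy; omega)))
      (fun Z F hZ hF' => by
        have h1 : Over ↑(box z (N / 8 - p.l j + p.rho j)) F := over_of_lc hF' fun y hy => by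
          rw [supd_comm]
          exact mem_box.1 (Finset.mem_coe.1 (hZ hy))
        change muE (CovT N ε p j) _ = PhI N ε (muE (o.g.Cov p j) F)
        rw [cov_ob hp]
        exact mu_chart ε c1 c2 (by omega) (by omega) h1)
      (fun Z x F hZ _ hx hF' => by
        have h1 : Over ↑(box x (2 * (N / 8 - p.l j) + p.rho j)) F := over_of_lc hF' fun y hy => hW x (hZ hx) y (hZ hy)
        exact loc_chart ε hp o j (by omega) h1 (D1.mem_lcS.1 hF').2)
      (fun x _ F _ => ⟨(PhI_cstA ε F).symm, by rw [mv_ob, map_zero]; rfl⟩)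
      (st_lcl hp hR hI μ V j) ih1 ↑(box z (N / 8 - p.l (j + 1)))
      (fun x hx => by
        have h1 := mem_box.1 (Finset.mem_coe.1 hx)
        refine ⟨fun y hy => ?_, ?_⟩
        · rw [D4.geoZ_ball] at hy
          have h2 : supd y x ≤ 2 * p.l j := mem_box.1 (Finset.mem_coe.1 hy)
          have h3 := supd_triangle y x z
          exact Finset.mem_coe.2 (mem_box.2 (by omega))
        · rw [D4.geoZ_ball, D4.image_cl]
          exact filter_dT x _)
    refine ⟨key.1, fun i hi => ?_⟩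
    rcases Nat.lt_succ_iff_lt_or_eq.1 hi with hi | rfl
    · exact ih2 i hi
    · have h1 := key.2 z (Finset.mem_coe.2 (self_mem_box _ _))
      change cstA ((spT N ε p o i).w (GT N) (stT N ε p o c μ V i) (toTorus N z)) = PhI N ε (cstA _)
      rw [h1, PhI_cstA]

include hp hI hF in
/-- induction: `Mnext` with `qm = 0` is `mu (grp l l' 0 M)`, `grp_single'`, `mu_add`, `extG_add`, `perK_sub`, `gleP_zero` -/
theorem stT_M (hN : 16 ≤ N) (j : ℕ) (Z : Finset (XT N)) :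
    (stT N ε p o c μ V j).M Z = muE (extG (perK N ε (gleP p j))) (M0T N ε p o c Z) := by
  induction j generalizing Z with
  | zero => exact (fa1_mu0 ε p _).symm
  | succ j ih =>
    have h0 : (sgl fun x => exA augE ((stT N ε p o c μ V j).qm x) - 1) = fun _ => 0 :=
      funext fun Y => sgl_eq_zero _ fun x _ => by rw [stT_qm, exA_zero, sub_self]
    change muE (CovT N ε p j) ((GT N).grp (p.l j) (p.l (j + 1))
      (sgl fun x => exA augE ((stT N ε p o c μ V j).qm x) - 1) (stT N ε p o c μ V j).M Z) = _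
    rw [h0, grp_single' _ _ _ (fa1_conn hp hI (j + 1)) fun Y hY => by rw [ih, M0T_eq ε hI hF hN, if_neg hY, map_zero],
      ih, CovT, fa1_add, perK_sub, sub_add_cancel]

include hp hR hI in
/-- induction: `next_Z`, `mu_add`, `muE_cst_mul`, `exA_cst`, `exA_add` (`St.In univ` is trivial) -/
theorem total (g : IT N → IT N → ℝ) (J : ℕ) :
    muE (extG g) ((s0T N ε p o c μ V).Z (GT N) augE p.l0 Finset.univ) =
      exA augE (∑ j ∈ Finset.range J, ∑ x, enT N ε p o c μ V j x) *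
        muE (extG (g - perK N ε (gleP p J))) ((stT N ε p o c μ V J).Z (GT N) augE (p.l J) Finset.univ) := by
  induction J with
  | zero =>
    have h : p.l 0 = p.l0 := by simp [Par.l]
    rw [Finset.sum_range_zero, exA_zero, one_mul, h, ← fa1_mu0 ε p ((stT N ε p o c μ V 0).Z _ _ _ _), fa1_add, sub_add_cancel]
    rfl
  | succ J ih =>
    have h := next_Z (GT N) D1.nil_augE (spT_alg ε hp o J) (stT_lcl ε hp hR hI μ (V := V) J) (Λ := Finset.univ)
      ⟨fun x hx => (hx (Finset.mem_univ x)).elim, fun x hx => (hx (Finset.mem_univ x)).elim,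
        fun Z hZ => (hZ (Finset.subset_univ Z)).elim, fun Z hZ => (hZ (Finset.subset_univ Z)).elim⟩
    change muE (CovT N ε p J) ((stT N ε p o c μ V J).Z (GT N) augE (p.l J) Finset.univ) =
      exA augE (∑ x, enT N ε p o c μ V J x) * (stT N ε p o c μ V (J + 1)).Z (GT N) augE (p.l (J + 1)) Finset.univ at h
    have h1 : ∑ x, enT N ε p o c μ V J x = cstA (∑ x, (spT N ε p o J).w (GT N) (stT N ε p o c μ V J) x) :=
      (map_sum cstA _ _).symm
    have h2 : g - perK N ε (gleP p J) = g - perK N ε (gleP p (J + 1)) + perK N ε (gleP p (J + 1) - gleP p J) := by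
      rw [perK_sub, sub_add_sub_cancel]
    rw [ih, Finset.sum_range_succ, exA_add _ D1.nil_augE, mul_assoc, h2, ← fa1_add, ← CovT, h, h1, exA_cst, muE_cst_mul]

include hp hI hF in
/-- `stT_M`, `M0T_eq`, `xi_single`, `mu_add`, `muE_cst_mul` (`tau 0 = cstA (tau 0)`), `gmap_mu` with `bil_TI` -/
theorem bg_T (hN : 16 ≤ N) (g : IT N → IT N → ℝ) (J : ℕ) :
    cstA (muE (extG (g - perK N ε (gleP p J))) ((GT N).Xi (p.l J) (stT N ε p o c μ V J).M Finset.univ)) =
      algebraMap ℝ (AlT N) 1 + tau 0 * algebraMap ℝ (AlT N)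
        (gauss (extG (gL N ε g)) ((hat (o.g.xE c) (edgesIn o.oS) (fun n => algebraMap ℝ Al (o.O n)) : Al) : Gr Ix)) := by
  set H : Al := hat (o.g.xE c) (edgesIn o.oS) fun n => algebraMap ℝ Al (o.O n) with hH
  have h1 : muE (extG g) (PhI N ε H) = PhI N ε (muE (extG (gL N ε g)) H) :=
    Subtype.ext (gmap_mu _ (S := Set.univ) (fun i _ j _ => bil_TI ε g _ _) (mem_supA_univ _)).symm
  have h2 : (H : Gr Ix) ∈ supA (Set.range Sum.inl) := by
    have : H ∈ (supA (Set.range (Sum.inl : HE → Ix))).comap (Subalgebra.val _) := by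
      refine Subalgebra.sum_mem _ fun T _ => mul_mem (Subalgebra.sum_mem _ fun U _ => mul_mem
        (pow_mem (neg_mem (one_mem _)) _) (Subalgebra.algebraMap_mem _ _)) (Subalgebra.prod_mem _ fun e _ => ?_)
      refine Subalgebra.smul_mem _ ?_ _
      exact mul_mem (S := Subalgebra ℝ (Gr Ix)) (th_mem_supA (Set.mem_range_self _)) (th_mem_supA (Set.mem_range_self _))
    exact this
  have h3 : muE (extG (g - perK N ε (gleP p J))) 1 = 1 := Subtype.ext (mu_one _)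
  rw [xi_single _ _ (fa1_conn hp hI J).1 (Finset.subset_univ _) fun Y hY => by
      rw [stT_M ε hp hI hF μ hN, M0T_eq ε hI hF hN, if_neg hY, map_zero],
    stT_M ε hp hI hF μ hN, M0T_eq ε hI hF hN, if_pos rfl, map_add, fa1_add, sub_add_cancel, ← fa1_tau, muE_cst_mul, h1,
    map_add, map_mul, cstA_idem, ← PhI_cstA, fa1_cst (F := muE _ H) (mu_mem_supA _ h2), AlgHom.commutes, h3, map_one, fa1_tau, map_one]
  rfl

end exact

/-! ### task E/Flow-b (plane input) -/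

theorem typ_ob (o : Ob) : o.g.Typ :=
  Or.inl ⟨Set.univ, D5.consb_wPl, D5.consb_bb⟩

theorem geoOK_ob {R : ℕ} {k : Cons} (hk : ConsOK R k) {o : Ob} (hΓ : o.Gam = k.Gam) (hh : 0 < o.h) (j : ℕ) :
    GeoOK k.p k.K k.Γs o.g j := by
  have hj : ¬ ((j : ℕ∞) < 0) := not_lt_bot
  have hg : k.Γs ≤ o.Gam j ∧ k.Γs ≤ o.Gam (j + 1) ∧ o.Gam (j + 1) ≤ 2 * o.Gam j ∧
      (j = 0 → k.Γs * k.p.l 1 * o.Gam 1 ≤ o.Gam 0 ∧ o.Gam 0 ≤ 4 * k.Γs * k.p.l 1 * o.Gam 1) := by
    rw [hΓ]; exact (D5.consb_gam hk j).1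
  refine ⟨⟨_, le_rfl, Or.inl ⟨Set.univ, D5.consb_reg _, D5.consb_wPl, D5.consb_bb, fun h => absurd rfl h⟩⟩,
    fun v hv => absurd hv (Finset.notMem_empty v), fun i _ => ⟨abs_of_pos tc_pos.1, fun b hb => hb.elim⟩,
    fun h => absurd h hj, fun _ h => absurd h Finset.not_nonempty_empty,
    fun _ => Or.inl ⟨o.y.1, 0, Nat.zero_le _, ⟨0, rfl⟩, fun v hv => absurd hv (Finset.notMem_empty v),
      fun i _ => self_mem_box _ _⟩, hg, ⟨hh, hh, ?_⟩, fun _ => rfl⟩
  change o.h ≤ (if (j : ℕ∞) < 0 then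
    (if j = 0 then o.Gam 0 ^ 2 * k.p.l 1 / o.Gam 1 ^ 2 else (k.p.L : ℝ)) else 1) * o.h
  rw [if_neg hj, one_mul]

theorem fb1_conn {l : ℕ} (hl : 0 < l) (r : ℕ) : geoZ.Conn l (box 0 r) := by
  have hd : geoZ.d = supd := exists_geoZ.choose_spec.1
  have key : ∀ (n : ℕ) (x y : Site), supd x y ≤ n → x ∈ box 0 r → y ∈ box 0 r →
      Relation.ReflTransGen (fun a b => a ∈ box 0 r ∧ b ∈ box 0 r ∧ geoZ.d a b ≤ l) x y := by
    intro n
    induction n with
    | zero =>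
      intro x y h _ _
      have : x = y := by
        simp only [supd] at h
        exact Prod.ext (by omega) (by omega)
      rw [this]
    | succ n ih =>
      intro x y h hx hy
      have hz : (x.1 + Int.sign (y.1 - x.1), x.2 + Int.sign (y.2 - x.2)) ∈ box 0 r ∧
          supd x (x.1 + Int.sign (y.1 - x.1), x.2 + Int.sign (y.2 - x.2)) ≤ l ∧
          supd (x.1 + Int.sign (y.1 - x.1), x.2 + Int.sign (y.2 - x.2)) y ≤ n := by
        rw [mem_box'] at hx hy ⊢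
        simp only [supd] at h ⊢
        have s1 : ∀ t : ℤ, (0 < t ∧ Int.sign t = 1) ∨ (t = 0 ∧ Int.sign t = 0) ∨ (t < 0 ∧ Int.sign t = -1) := by
          intro t
          rcases lt_trichotomy 0 t with h | h | h
          · exact Or.inl ⟨h, Int.sign_eq_one_of_pos h⟩
          · exact Or.inr (Or.inl ⟨h.symm, by rw [← h]; rfl⟩)
          · exact Or.inr (Or.inr ⟨h, Int.sign_eq_neg_one_of_neg h⟩)
        have a1 := s1 (y.1 - x.1)
        have a2 := s1 (y.2 - x.2)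
        generalize Int.sign (y.1 - x.1) = u at *
        generalize Int.sign (y.2 - x.2) = v at *
        omega
      exact Relation.ReflTransGen.head ⟨hx, hz.1, by rw [hd]; exact hz.2.1⟩ (ih _ y hz.2.2 hz.1 hy)
  exact ⟨⟨0, self_mem_box _ _⟩, fun x hx y hy => key _ x y le_rfl hx hy⟩

theorem initOK_ob (p : Par) (hp : p.OK) (R : ℕ) (Γ : ℕ → ℝ) (h : ℝ) {O : Cfg → ℝ} {r : ℕ} (hO : DependsOn O ↑(edgesIn (box 0 r))) (c : ℝ × ℝ) :
    InitOK p R c (Ob.g ⟨R, Γ, h, ((0, 0), 0), O, box 0 r⟩) := by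
  have hw : ∀ e, |wPl e| ≤ 1 := fun e => by
    rw [wPl, abs_of_pos tc_pos.1]; exact tc_pos.2.le
  exact ⟨fun B hB => ⟨hB, Set.subset_univ _⟩, fun B hB _ => hB, fun _ _ => ⟨trivial, trivial⟩, hw,
    fun i _ => ⟨fb1_conn hp.2.2.1 r, self_mem_box _ _, Set.subset_univ _, hO⟩, fun h => absurd h (lt_irrefl _)⟩

/-- `O` takes finitely many values; take `h` small -/
theorem exists_src (k : Cons) (R : ℕ) (Γ : ℕ → ℝ) (y : Edge) {O : Cfg → ℝ} {oS : Finset Site} (hO : DependsOn O ↑(edgesIn oS)) {ε₁ : ℝ}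
    (hε : 0 < ε₁) : ∃ h : ℝ, 0 < h ∧ Src0 k (Ob.g ⟨R, Γ, h, y, O, oS⟩) ε₁ := by
  set b := ∑ T ∈ (edgesIn oS).powerset, |O (ind T)| with hb
  set A := (3 * k.a) ^ oS.card * (1 + 4 * k.Γ₀ ^ 2) ^ (edgesIn oS).card with hA
  have hb0 : 0 ≤ b := Finset.sum_nonneg fun _ _ => abs_nonneg _
  have hp : 0 < |A| * b + 1 := by positivity
  refine ⟨ε₁ / (|A| * b + 1), div_pos hε hp, fun _ => b, fun i _ n => ?_, ?_⟩
  · have e : O n = O (ind ((edgesIn oS).filter fun e => n e = true)) := hO fun e he => by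
      have he' : e ∈ edgesIn oS := he
      simp [ind, he']
    change |O n| ≤ b
    rw [e]
    exact Finset.single_le_sum (f := fun T => |O (ind T)|) (fun _ _ => abs_nonneg _)
      (Finset.mem_powerset.2 (Finset.filter_subset _ _))
  · change ∑ _i ∈ Finset.range 1, A * (ε₁ / (|A| * b + 1) * b) ≤ ε₁
    rw [Finset.sum_range_one, div_mul_eq_mul_div, ← mul_div_assoc, div_le_iff₀ hp]
    nlinarith [mul_le_mul_of_nonneg_right (le_abs_self A) (mul_nonneg hε.le hb0)]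

theorem gam_facts {R : ℕ} {k : Cons} (hk : ConsOK R k) (j : ℕ) :
    0 < k.Gam j ∧ k.Gam (j + 1) ≤ 2 * k.Gam j ∧ (2 : ℝ) ^ j ≤ k.Gam j ∧ k.Gam 0 = k.Γ₀ := by
  obtain ⟨⟨h1, -, h2, -⟩, -⟩ := D5.consb_gam hk j
  have h3 := hk.one.1
  refine ⟨by linarith, h2, ?_, by rw [Cons.Gam, if_pos rfl]⟩
  by_cases hj : j = 0
  · subst hj
    rw [pow_zero]; linarith
  · rw [Cons.Gam, if_neg hj]
    exact le_mul_of_one_le_left (by positivity) (h3.trans hk.gam.1)

theorem fb2_bulk (p : Par) (o : Ob) (j : ℕ) (x : Site) : o.g.Bulk p j x :=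
  ⟨fun b hb => by simp [Ob.g, gPlane] at hb, abs_of_pos tc_pos.1⟩

theorem fb2_fix (p : Par) (o : Ob) (j : ℕ) (u : ℝ × ℝ) (x : Site) :
    (o.g.sp p j).mu (D5.qq u x) - (o.g.sp p j).loc x ((o.g.sp p j).mu (D5.qq u x)) = 0 := by
  rw [sp_loc_mu, cb2_loc2G, cb2_mvG, D5.loc2_qq]
  have h0 : toEv (0 : Gr Ix →ₗ[ℝ] Gr Ix) (D5.qq u x) = 0 := D5.toEv_of_eq (by simp)
  set C := o.g.Cov p j
  let L : Al →ₗ[ℝ] Al := muE C - cstA.toLinearMap ∘ₗ muE C - LinearMap.id
  have h1 : ∀ a b : HE, L (th2 (Sum.inl a) (Sum.inl b)) = 0 := fun a b => sub_eq_zero.2 (D5.mu_sub_cst C a b)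
  have h2 : ∀ e, L (eM Sum.inl e) = 0 := fun e => h1 _ _
  have h3 : L (a0M Sum.inl x) = 0 := by
    rw [a0M, map_sum]
    refine Finset.sum_eq_zero fun α _ => ?_
    rw [map_sum]
    refine Finset.sum_eq_zero fun β _ => ?_
    split_ifs
    · exact h1 _ _
    · exact map_zero L
  have h4 : L (D5.qq u x) = 0 := by
    simp only [D5.qq, mX, kX, map_add, map_smul, map_sum, h2, h3, smul_zero, Finset.sum_const_zero, add_zero]
  rw [h0, add_zero, ← sub_sub]
  exact h4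

/-- `q_form` (every point is `Bulk`); pointwise size from `StepOK.mkn` at `j - 1`, resp. D4 `bd_q` at `j = 0`, and the bound in `Tuned`;
`sp_loc_mu`, `loc2_mX`: `mu q - loc (mu q) = 0` because `mu (th2 a b) = th2 a b + const` -/
theorem q_ob {R : ℕ} {k : Cons} (hk : ConsOK R k) {V : Finset Site → ℝ} (hV : PotOK R V) {c : ℝ × ℝ} {μ B : ℝ}
    (ht : Tuned k R V c μ B) (h1 : |c.1| ≤ 1 / 10) (h2 : |c.2| ≤ 1 / 10) {o : Ob} (hR : o.R = R) (hΓ : o.Gam = k.Gam) (hh : 0 < o.h)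
    (hI : InitOK k.p R c o.g) (j : ℕ) : ∃ b : ℝ, 0 ≤ b ∧ ((2 * k.p.l j + 1 : ℕ) : ℝ) ^ 2 * b ≤ 100 * k.Λ * B * vth ^ j ∧ ∀ x,
      o.g.Bd k.p j {x} ((o.g.st k.p c μ V j).q x) b ∧
      (o.g.sp k.p j).mu ((o.g.st k.p c μ V j).q x) - (o.g.sp k.p j).loc x ((o.g.sp k.p j).mu ((o.g.st k.p c μ V j).q x)) = 0 := by
  obtain ⟨ν, z, e1, e2, h⟩ := ht
  have hc : -1 < c.2 := by linarith [(abs_le.1 h2).1]
  have hq : ∀ x, (o.g.st k.p c μ V j).q x = D5.qq (ν j, z j) x := fun x =>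
    (q_form hk hV hc ⟨e1, e2⟩ (fun j x => (h j).1 x) hI (typ_ob o) j x).1 (fb2_bulk _ _ _ _)
  have hb := (h j).2
  have hl : (1 : ℝ) ≤ k.p.l j := D5.one_le_l' hk j
  have hΛ : 1 ≤ k.Λ := hk.one.2.1
  have hB : 0 ≤ B * vth ^ j := le_trans (by positivity) hb
  have h3 : (((2 * k.p.l j + 1 : ℕ) : ℝ)) ^ 2 ≤ 9 * (k.p.l j : ℝ) ^ 2 := by
    push_cast; nlinarith
  have hG : o.g.Gam = k.Gam := hΓ
  have h5 : 9 * k.Λ * (B * vth ^ j) ≤ 100 * k.Λ * B * vth ^ j := by nlinarith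
  rcases j with _ | j
  · have g0 : 0 < o.g.Gam 0 := hG ▸ (gam_facts hk 0).1
    refine ⟨8 * o.g.Gam 0 ^ 2 * (|c.1| + |c.2|), by positivity, ?_, fun x =>
      ⟨D4.bd_q hI g0 h1 h2 μ V x, by rw [hq]; exact fb2_fix _ _ _ _ _⟩⟩
    refine (mul_le_mul_of_nonneg_right h3 (by positivity)).trans ?_
    rw [if_pos rfl, e1, e2] at hb
    have h6 : (|c.1| + |c.2|) * (k.p.l 0 : ℝ) ^ 2 * k.Gam 0 ^ 2 ≤ B * vth ^ 0 := by
      refine le_trans ?_ hb
      have := le_mul_of_one_le_right (abs_nonneg c.1) hl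
      gcongr
    rw [hG]
    nlinarith
  · have hB' := D6.bdAx k.p o.g (j + 1)
    set l : ℝ := ((k.p.l (j + 1) : ℕ) : ℝ) with hl'
    set b : ℝ := |ν (j + 1)| * (k.Λ * k.Gam (j + 1) ^ 2 / l) + |z (j + 1)| * (k.Λ * k.Gam (j + 1) ^ 2 / l ^ 2) with hb'
    have b0 : 0 ≤ b := by positivity
    refine ⟨b, b0, ?_, fun x => ⟨?_, by rw [hq]; exact fb2_fix _ _ _ _ _⟩⟩
    · simp only [Nat.succ_ne_zero, if_false, pow_zero, mul_one] at hb
      have h4 : 9 * l ^ 2 * b = 9 * k.Λ * ((|ν (j + 1)| * l + |z (j + 1)|) * k.Gam (j + 1) ^ 2) := by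
        rw [hb']; field_simp
      exact (mul_le_mul_of_nonneg_right h3 b0).trans
        (h4.trans_le ((mul_le_mul_of_nonneg_left hb (by positivity)).trans h5))
    · rw [hq]
      obtain ⟨m1, m2⟩ := (hk.step o.g j (geoOK_ob hk hΓ hh j)).mkn x (fb2_bulk _ _ _ _)
      rw [hG] at m1 m2
      exact hB'.add (hB'.smul _ m1) (hB'.smul _ m2)

/-- `FlowOK.en` from `Ctx.fl` (`SrcOK` is trivial for `jN = 0`), `BdT.coef`, cover `box (rho j)` by `cover_box` -/
theorem summable_en {k : Cons} {R : ℕ} {V : Finset Site → ℝ} {c : ℝ × ℝ} {J lam C₁ B₁ ε₂ CM B : ℝ}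
    (h : Ctx k R V c J lam C₁ B₁ ε₂ CM B) {o : Ob} (hR : o.R = R) (hΓ : o.Gam = k.Gam) (hh : 0 < o.h)
    (hI : InitOK k.p R c o.g) (hS : Src0 k o.g ε₂) :
    Summable fun j => ∑ x ∈ box o.y.1 (k.p.rho j), coefT [0] (o.g.en k.p c (betaOf J c * lam) V j x) := by
  have hd : geoZ.ball = box := exists_geoZ.choose_spec.2
  have hv : Summable fun j : ℕ => 225 * (C₁ * B) * o.h⁻¹ * vth ^ j :=
    (summable_geometric_of_lt_one (by norm_num [vth]) (by norm_num [vth])).mul_left _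
  refine Summable.of_norm_bounded hv fun j => ?_
  have hs : SrcOK k o.g (j + 1) ε₂ CM := by
    refine ⟨?_, fun i _ h1 h2 => ?_, fun _ => le_rfl, fun i _ h1 h2 => ?_⟩
    · rw [if_pos (show o.g.jN = 0 from rfl)]; exact hS
    · have h3 : (i : ℕ∞) ≤ 0 := h2
      have : i = 0 := by exact_mod_cast nonpos_iff_eq_zero.1 h3
      omega
    · have h3 : (i : ℕ∞) = 0 := h1
      exact absurd (by exact_mod_cast h3) h2
  have hf := h.fl o.g c _ B (j + 1) h.tu h.sm.1 h.sm.2.1 (Nat.succ_pos j) hI (fun i _ => geoOK_ob h.hk hΓ hh i)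
    (Or.inr rfl) (congrFun hΓ 0) (fun i _ => (congrFun hΓ i).le) (Or.inr hs)
  obtain ⟨b, hb, hsum⟩ := hf.en j (Nat.lt_succ_self j)
  have hl : 1 ≤ k.p.l j := by
    have := D3.lam_eq h.hk.pok j
    omega
  obtain ⟨C, hC, hcov⟩ := cover_box o.y.1 (k.p.rho j) (k.p.l j) hl
  have hC' : (C.card : ℝ) ≤ 225 := by
    have h1 : k.p.rho j / k.p.l j ≤ 6 := Nat.div_le_of_le_mul (by rw [Par.rho]; omega)
    have h2 : C.card ≤ 15 ^ 2 := hC.trans (Nat.pow_le_pow_left (by omega) 2)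
    exact_mod_cast h2
  have h0 : 0 ≤ C₁ * B * vth ^ j := (Finset.sum_nonneg fun x _ => (hb x).1).trans (hsum 0)
  have h1 : ∑ x ∈ box o.y.1 (k.p.rho j), b x ≤ 225 * (C₁ * B * vth ^ j) := by
    calc ∑ x ∈ box o.y.1 (k.p.rho j), b x
        ≤ ∑ x ∈ box o.y.1 (k.p.rho j), ∑ z ∈ C, if x ∈ box z (k.p.l j) then b x else 0 := by
          refine Finset.sum_le_sum fun x hx => ?_
          obtain ⟨z, hz, hzx⟩ := hcov x hx
          refine le_trans ?_ (Finset.single_le_sum (f := fun z => if x ∈ box z (k.p.l j) then b x else 0)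
            (fun z _ => by split_ifs; exacts [(hb x).1, le_rfl]) hz)
          rw [if_pos (mem_box_supd.2 (by rwa [supd_comm]))]
      _ ≤ ∑ _z ∈ C, C₁ * B * vth ^ j := by
          rw [Finset.sum_comm]
          refine Finset.sum_le_sum fun z _ => le_trans ?_ (hsum z)
          rw [hd, ← Finset.sum_filter]
          exact Finset.sum_le_sum_of_subset_of_nonneg (fun x hx => (Finset.mem_filter.1 hx).2) fun x _ _ => (hb x).1
      _ ≤ _ := by
          rw [Finset.sum_const, nsmul_eq_mul]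
          exact mul_le_mul_of_nonneg_right hC' h0
  calc ‖∑ x ∈ box o.y.1 (k.p.rho j), coefT [0] (o.g.en k.p c (betaOf J c * lam) V j x)‖
      ≤ ∑ x ∈ box o.y.1 (k.p.rho j), b x * o.h⁻¹ := by
        refine (norm_sum_le _ _).trans (Finset.sum_le_sum fun x _ => ?_)
        have := BdT.coef hh (hb x).2 [0]
        rwa [List.length_singleton, pow_one] at this
    _ ≤ 225 * (C₁ * B * vth ^ j) * o.h⁻¹ := by
        rw [← Finset.sum_mul]
        exact mul_le_mul_of_nonneg_right h1 (inv_nonneg.2 hh.le)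
    _ = _ := by ring

/-- `en_form` kills the terms outside the box; `near N y` is injective and fixes the box (`near_toTorus`) -/
theorem sum_coef_near [NeZero N] {R : ℕ} {k : Cons} (hk : ConsOK R k) {V : Finset Site → ℝ} {c : ℝ × ℝ} (μ : ℝ) {o : Ob}
    (hΓ : o.Gam = k.Gam) (hh : 0 < o.h) (hI : InitOK k.p R c o.g) {j : ℕ} (hN : 100 * k.p.l (j + 1) ≤ N) :
    ∑ x : XT N, coefT [0] (o.g.en k.p c μ V j (near N o.y.1 x)) =
      ∑ x ∈ box o.y.1 (k.p.rho j), coefT [0] (o.g.en k.p c μ V j x) := by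
  have hinj : Function.Injective (near N o.y.1) := Function.LeftInverse.injective (toTorus_near o.y.1)
  rw [← Finset.sum_image (f := fun x => coefT [0] (o.g.en k.p c μ V j x)) (hinj.injOn (s := ↑(Finset.univ : Finset (XT N))))]
  refine (Finset.sum_subset (fun x hx => ?_) fun x _ hx => ?_).symm
  · refine Finset.mem_image.2 ⟨toTorus N x, Finset.mem_univ _, near_toTorus ?_⟩
    have h1 := mem_box_supd.1 hx
    have h2 := D3.lam_eq hk.pok j
    have h3 := D3.lam_eq hk.pok (j + 1)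
    rw [supd_comm, Par.rho] at h1
    omega
  · have h1 := en_form hk (V := V) μ hI (geoOK_ob hk hΓ hh j) (Or.inr le_rfl) x
    have h2 : ¬ supd x (o.g.y 0).1 ≤ k.p.rho j := fun h => hx (mem_box_supd.2 h)
    rw [show o.g.m = 1 from rfl, Finset.sum_range_one, if_neg h2, zero_smul, add_zero] at h1
    have h3 := (coefT_lin (H := HE) (augE (o.g.en k.p c μ V j x)) 0).2
    rwa [map_zero, mul_zero, add_zero, ← h1] at h3

/-! ### task E/Flow-c (bounds) -/

theorem flc_q [NeZero N] (ε : Sec) {R : ℕ} {k : Cons} (hk : ConsOK R k) {V : Finset Site → ℝ} (hV : PotOK R V) {c : ℝ × ℝ}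
    {μ B α : ℝ} (ht : Tuned k R V c μ B) (h1 : |c.1| ≤ 1 / 10) (h2 : |c.2| ≤ 1 / 10) {o : Ob} (hR : o.R = R) (hΓ : o.Gam = k.Gam)
    (hh : 0 < o.h) (hI : InitOK k.p R c o.g) (hF : Fit N o) (hB : 100 * k.Λ * B ≤ α) (j : ℕ) (hN : 100 * k.p.l j ≤ N) :
    (GT N).SN (BT N ε k.p o j) (k.p.l j) (stT N ε k.p o c μ V j).q (α * vth ^ j) ∧ (100 * k.p.l (j + 1) ≤ N → ∀ x,
      (spT N ε k.p o j).mu ((stT N ε k.p o c μ V j).q x) -
        (spT N ε k.p o j).loc x ((spT N ε k.p o j).mu ((stT N ε k.p o c μ V j).q x)) = 0) := by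
  subst hR
  have hp := hk.pok
  obtain ⟨b, hb0, hb, hq⟩ := q_ob hk hV ht h1 h2 rfl hΓ hh hI j
  have hc : -1 < c.2 := by linarith [(abs_le.1 h2).1]
  have e : ∀ x, (stT N ε k.p o c μ V j).q x = PhI N ε ((o.g.st k.p c μ V j).q (near N o.y.1 x)) := fun x => by
    have := (stT_rel ε hp hk.l0.2 hc hI hF μ hV (z := near N o.y.1 x) (by rw [supd_near]; exact two_dT_le _ _) j hN).1.q _
      (Finset.mem_coe.2 (self_mem_box _ _))
    rwa [toTorus_near] at this
  refine ⟨⟨fun _ => b, fun x => ⟨hb0, ?_⟩, fun y => ?_⟩, fun hN' x => ?_⟩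
  · have := bd_push (N := N) ε (hq (near N o.y.1 x)).1
    rwa [Finset.image_singleton, toTorus_near, ← e] at this
  · have h3 : ((GT N).ball y (k.p.l j)).card ≤ (2 * k.p.l j + 1) ^ 2 := by
      rw [← toTorus_lift y, ← card_box (lift y)]
      exact (congrArg Finset.card (filter_dT (lift y) _)).le.trans Finset.card_image_le
    have h4 : (0 : ℝ) ≤ vth ^ j := pow_nonneg (by norm_num [vth]) _
    rw [Finset.sum_const, nsmul_eq_mul]
    refine le_trans (mul_le_mul_of_nonneg_right ?_ hb0) (hb.trans (mul_le_mul_of_nonneg_right hB h4))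
    exact_mod_cast h3
  · obtain ⟨e1, -, e2, e3, -, e4, -⟩ := lam_facts hp j
    have e5 := (lam_facts hp (j + 1)).1
    have e6 : k.p.rho j = 3 * k.p.l j + 3 := rfl
    obtain ⟨c1, c2, -⟩ := cov_facts hp j
    have hL := (st_lcl hp hk.l0.2 hI μ V j).q (near N o.y.1 x)
    have hz : ∀ z ∈ ({near N o.y.1 x} : Finset Site), supd (near N o.y.1 x) z ≤ 0 := fun z hz => by
      rw [Finset.mem_singleton.1 hz, supd_self]
    have hmu : (spT N ε k.p o j).mu (PhI N ε ((o.g.st k.p c μ V j).q (near N o.y.1 x))) =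
        PhI N ε ((o.g.sp k.p j).mu ((o.g.st k.p c μ V j).q (near N o.y.1 x))) := by
      have := mu_chart (N := N) ε c1 c2 (by omega) (ρ := 0 + k.p.rho j) (by omega) (over_of_lc hL hz)
      rw [← cov_ob hp o j] at this
      exact this
    have hG := (sp_alg k.p hp.1 hp.2.1 hp.2.2.1 o.g j).mu_mem hL
    have hloc := loc_chart (N := N) ε hp o j (r := 0 + k.p.rho j) (by omega) (over_of_lc hG hz) hG.2
    rw [toTorus_near] at hloc
    rw [e, hmu, hloc, ← map_sub, (hq _).2, map_zero]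

theorem flc_M [NeZero N] (ε : Sec) {R : ℕ} {k : Cons} (hk : ConsOK R k) {V : Finset Site → ℝ} {c : ℝ × ℝ}
    {μ : ℝ} {o : Ob} (hΓ : o.Gam = k.Gam) (hI : InitOK k.p o.R c o.g) (hF : Fit N o)
    (hG : ∀ j, Gram (⋃ x, o.g.U k.p j x) (o.g.Cov k.p j) (1 / 60))
    (hM : ∃ b, BT N ε k.p o 0 (o.oS.image (toTorus N)) (M0T N ε k.p o c (o.oS.image (toTorus N))) b ∧ k.a ^ o.oS.card * b ≤ k.ε)
    (J : ℕ) (hN : 100 * k.p.l J ≤ N) : (GT N).PN (BT N ε k.p o J) (k.p.l J) k.a (stT N ε k.p o c μ V J).M k.ε := by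
  have hp := hk.pok
  obtain ⟨b, hb, hbε⟩ := hM
  have h16 : 16 ≤ N := by have := (lam_facts hp J).2.2.1; omega
  have key : ∀ j, 100 * k.p.l j ≤ N →
      BT N ε k.p o j (o.oS.image (toTorus N)) ((stT N ε k.p o c μ V j).M (o.oS.image (toTorus N))) b := by
    intro j
    induction j with
    | zero => exact fun _ => hb
    | succ j ih =>
      intro hj
      have e3 := (lam_facts hp j).2.2.2.1
      have g0 : 0 < o.Gam j := hΓ ▸ (gam_facts hk j).1
      have := h1T ε hp g0 (hΓ ▸ (gam_facts hk (j + 1)).1) (hΓ ▸ (gam_facts hk j).2.1) (gram_stepT ε hp g0.le hj (hG j))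
        (ih (by omega))
      have e : (stT N ε k.p o c μ V (j + 1)).M (o.oS.image (toTorus N)) =
          muE (CovT N ε k.p j) ((stT N ε k.p o c μ V j).M (o.oS.image (toTorus N))) := by
        rw [stT_M ε hp hI hF μ h16, stT_M ε hp hI hF μ h16]
        refine Subtype.ext ?_
        change mu _ _ = mu _ (mu _ _)
        rw [← mu_add, CovT, ← extG_add, perK_sub, sub_add_cancel]
      rw [e]
      exact this
  have hb0 : 0 ≤ b := GBd.nonneg hb
  have ha : 1 ≤ k.a := by linarith [hk.one.2.1, hk.one.2.2.1]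
  refine ⟨fun Z => if Z = o.oS.image (toTorus N) then b else 0, fun Z => ?_, fun y 𝒮 _ => ?_⟩
  · by_cases hZ : Z = o.oS.image (toTorus N)
    · simp only [hZ, if_true]
      exact ⟨hb0, key J hN⟩
    · simp only [hZ, if_false]
      rw [stT_M ε hp hI hF μ h16, M0T_eq ε hI hF h16, if_neg hZ, map_zero]
      exact ⟨le_rfl, (bdAx_BdU _).zero Z⟩
  · simp only [mul_ite, mul_zero, Finset.sum_ite_eq']
    split_ifs
    · refine le_trans (mul_le_mul_of_nonneg_right (pow_le_pow_right₀ ha ?_) hb0) hbε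
      refine le_trans ?_ (Finset.card_image_le (f := toTorus N))
      exact Nat.sInf_le ⟨_, rfl, fun z hz => ⟨z, hz, by rw [(GT N).d_self]; exact Nat.zero_le _⟩⟩
    · exact hk.one.2.2.2.2.1.le

/-- Induction on `j ≤ J` with `hk.nb` (`αd = 0`): `q` from `stT_rel` at `z = near N y x`, `q_ob`, `bd_push`, `mu_chart`, `loc_chart`, card of a ball
`≤ (2l+1)²` (`filter_dT`); `M` from `h1T` (no loss) and `cov ≤ card`, supported on `π oS` (`stT_M`, `M0T_eq`); `spT_ana`;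
`2/128 α + C (2α)(3ε) ≤ α/16` since `128 C ε ≤ 1`. -/
theorem stT_bound [NeZero N] (ε : Sec) {R : ℕ} {k : Cons} (hk : ConsOK R k) {V : Finset Site → ℝ} (hV : PotOK R V) {c : ℝ × ℝ}
    {μ B α : ℝ} (ht : Tuned k R V c μ B) (h1 : |c.1| ≤ 1 / 10) (h2 : |c.2| ≤ 1 / 10) {o : Ob} (hR : o.R = R) (hΓ : o.Gam = k.Gam)
    (hh : 0 < o.h) (hI : InitOK k.p R c o.g) (hF : Fit N o) (hB : 100 * k.Λ * B ≤ α) (hα : α ≤ k.ε)
    (hG : ∀ j, Gram (⋃ x, o.g.U k.p j x) (o.g.Cov k.p j) (1 / 60))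
    (hK : (GT N).PN (BT N ε k.p o 0) k.p.l0 k.a (s0T N ε k.p o c μ V).K α)
    (hM : ∃ b, BT N ε k.p o 0 (o.oS.image (toTorus N)) (M0T N ε k.p o c (o.oS.image (toTorus N))) b ∧ k.a ^ o.oS.card * b ≤ k.ε)
    (J : ℕ) (hN : 100 * k.p.l J ≤ N) :
    (GT N).PN (BT N ε k.p o J) (k.p.l J) k.a (stT N ε k.p o c μ V J).K (α * vth ^ J) ∧
    (GT N).PN (BT N ε k.p o J) (k.p.l J) k.a (stT N ε k.p o c μ V J).M k.ε ∧
    (GT N).SN (BT N ε k.p o J) (k.p.l J) (stT N ε k.p o c μ V J).q (α * vth ^ J) := by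
  have hp := hk.pok
  have hI' : InitOK k.p o.R c o.g := hR ▸ hI
  refine ⟨?_, flc_M ε hk hΓ hI' hF hG hM J hN, (flc_q ε hk hV ht h1 h2 hR hΓ hh hI hF hB J hN).1⟩
  have hα0 : 0 ≤ α := by
    obtain ⟨b, -, hb⟩ := hK
    simpa using hb 0 ∅ (by simp)
  induction J with
  | zero =>
    rw [pow_zero, mul_one, show k.p.l 0 = k.p.l0 by simp [Par.l]]
    exact hK
  | succ j ih =>
    obtain ⟨-, e1, e2, e3, -⟩ := lam_facts hp j
    have hj : 100 * k.p.l j ≤ N := by omega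
    obtain ⟨hq, hd⟩ := flc_q ε hk hV ht h1 h2 hR hΓ hh hI hF hB j hj
    have g0 : 0 < o.Gam j := hΓ ▸ (gam_facts hk j).1
    obtain ⟨κ, hA⟩ := spT_ana (N := N) ε hp g0 (hΓ ▸ (gam_facts hk (j + 1)).1) (hΓ ▸ (gam_facts hk j).2.1) hN hk.one.2.1 (hG j)
      (hk.step _ j (geoOK_ob hk hΓ hh j)).ana
    have v0 : (0 : ℝ) ≤ vth ^ j := pow_nonneg (by norm_num [vth]) _
    have v1 : vth ^ j ≤ 1 := pow_le_one₀ (by norm_num [vth]) (by norm_num [vth])
    have a0 : 0 ≤ α * vth ^ j := mul_nonneg hα0 v0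
    have a1 : α * vth ^ j ≤ k.ε := (mul_le_of_le_one_right hα0 v1).trans hα
    obtain ⟨b, hb1, hb2⟩ := hk.nb (XT N) (AlT N) (GT N) augE (LcT N k.p j) (spT N ε k.p o j) (BT N ε k.p o j)
      (BT N ε k.p o (j + 1)) κ (stT N ε k.p o c μ V j) (α * vth ^ j) (α * vth ^ j) 0 k.ε (show 1 ≤ k.p.l j by omega) e1
      (bdAx_BdU _) (bdAx_BdU _) (spT_alg ε hp o j) hA (stT_lcl ε hp (hR ▸ hk.l0.2) hI' μ j) a1 a1 le_rfl (ih hj)
      (flc_M ε hk hΓ hI' hF hG hM j hj) hq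
      ⟨fun _ => 0, fun x => ⟨le_rfl, by rw [stT_qm]; exact (bdAx_BdU _).zero _⟩, fun y => by simpa using a0⟩
      ⟨fun _ => 0, fun x => ⟨le_rfl, by simp only [hd hN x]; exact (bdAx_BdU _).zero _⟩, fun y => by simp⟩
    refine ⟨b, hb1, fun y 𝒮 h => (hb2 y 𝒮 h).trans ?_⟩
    obtain ⟨-, -, -, c1, c2, c3⟩ := hk.one
    rw [pow_succ, ← mul_assoc α]
    generalize α * vth ^ j = t at a0 a1
    have c4 : k.C * (t + t) * (t + t + k.ε) ≤ k.C * (t + t) * (3 * k.ε) :=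
      mul_le_mul_of_nonneg_left (by linarith) (by positivity)
    have c5 : 128 * k.C * k.ε * t ≤ 1 * t := mul_le_mul_of_nonneg_right c3 a0
    simp only [vth]
    linarith

end Crest.Agent.R165.E
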