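import Crest.Agent.R165.E.Defs

/-! # R165/E (torus, owner helper12): trigonometric products -/

set_option autoImplicit false
noncomputable section
open Classical Crest.ProbabilityR.IsingModel

namespace Crest.Agent.R165.E
open BA

variable {N : ℕ}

/-- the momenta -/
def mom (N : ℕ) (b : Bool) (m : ℕ) : ℝ := Real.pi * (2 * m + if b = true then 1 else 0) / N

theorem trig_normSq (l t : ℝ) : Complex.normSq ((l : ℂ) - Complex.exp ((t : ℂ) * Complex.I)) =
    l ^ 2 + 1 - 2 * l * Real.cos t := by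
  rw [Complex.normSq_apply]
  simp only [Complex.sub_re, Complex.sub_im, Complex.ofReal_re, Complex.ofReal_im, Complex.exp_ofReal_mul_I_re,
    Complex.exp_ofReal_mul_I_im]
  linear_combination Real.sin_sq_add_cos_sq t

theorem trig_exp (hN : N ≠ 0) (b : Bool) (m : ℕ) : Complex.exp ((mom N b m : ℝ) * Complex.I) =
    Complex.exp (2 * Real.pi * Complex.I / N) ^ m * Complex.exp ((mom N b 0 : ℝ) * Complex.I) := by
  have hNc : (N : ℂ) ≠ 0 := by exact_mod_cast hN
  rw [← Complex.exp_nat_mul, ← Complex.exp_add]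
  congr 1
  unfold mom
  push_cast
  field_simp
  ring

/-- Over `ℂ`: with `u = exp (i mom)`, `l + l⁻¹ - 2 cos = (l - u)(l - conj u) / l = ‖l - u‖² / l`, and `∏_m (l - ζ ω^m) = l^N - ζ^N`
(`X_pow_sub_C_eq_prod` with `Complex.isPrimitiveRoot_exp`, `ω = exp (2πi/N)`, `ζ = exp (i mom N b 0)`, `ζ^N = ±1`); take `Complex.normSq`. -/
theorem prod_cos (hN : N ≠ 0) (b : Bool) {l : ℝ} (hl : 0 < l) :
    ∏ m ∈ Finset.range N, (l + l⁻¹ - 2 * Real.cos (mom N b m)) = (l ^ N - if b = true then -1 else 1) ^ 2 / l ^ N := by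
  have hω := Complex.isPrimitiveRoot_exp N hN
  have hNc : (N : ℂ) ≠ 0 := by exact_mod_cast hN
  set c : ℝ := if b = true then -1 else 1 with hc
  have hζ : Complex.exp ((mom N b 0 : ℝ) * Complex.I) ^ N = (c : ℂ) := by
    rw [← Complex.exp_nat_mul, hc, mom]
    cases b
    · simp
    · simp only [if_true]
      push_cast
      rw [show (N : ℂ) * ((Real.pi : ℂ) * (2 * 0 + 1) / N * Complex.I) = Real.pi * Complex.I by field_simp; ring,
        Complex.exp_pi_mul_I]
  have h1 := congrArg (fun q => Complex.normSq (Polynomial.eval (l : ℂ) q))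
    (X_pow_sub_C_eq_prod hω (Nat.pos_of_ne_zero hN) hζ)
  simp only [Polynomial.eval_sub, Polynomial.eval_pow, Polynomial.eval_X, Polynomial.eval_C, Polynomial.eval_prod,
    map_prod, ← trig_exp hN, trig_normSq] at h1
  rw [← Complex.ofReal_pow, ← Complex.ofReal_sub, Complex.normSq_ofReal] at h1
  rw [eq_div_iff (by positivity), sq, h1, ← Finset.card_range N, ← Finset.prod_const, Finset.card_range,
    ← Finset.prod_mul_distrib]
  refine Finset.prod_congr rfl fun m _ => ?_
  field_simp

/-- `IsPrimitiveRoot.prod_one_sub_pow_eq_order`, `Complex.normSq` -/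
theorem prod_cos_one (hN : N ≠ 0) : ∏ m ∈ (Finset.range N).erase 0, (2 - 2 * Real.cos (mom N false m)) = (N : ℝ) ^ 2 := by
  obtain ⟨n, rfl⟩ := Nat.exists_eq_succ_of_ne_zero hN
  have hω := Complex.isPrimitiveRoot_exp (n + 1) hN
  have h1 := congrArg Complex.normSq hω.prod_one_sub_pow_eq_order
  have h2 : ∀ m, Complex.normSq (1 - Complex.exp (2 * Real.pi * Complex.I / ((n + 1 : ℕ) : ℂ)) ^ m) =
      2 - 2 * Real.cos (mom (n + 1) false m) := fun m => by
    have h3 := trig_normSq 1 (mom (n + 1) false m)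
    rw [trig_exp hN, show mom (n + 1) false 0 = 0 by simp [mom]] at h3
    simp only [Complex.ofReal_zero, zero_mul, Complex.exp_zero, mul_one, Complex.ofReal_one] at h3
    rw [h3]; ring
  rw [map_prod] at h1
  simp only [h2] at h1
  have h4 := Finset.mul_prod_erase (Finset.range (n + 1)) (fun m => if m = 0 then (1 : ℝ) else
    2 - 2 * Real.cos (mom (n + 1) false m)) (a := 0) (by simp)
  rw [Finset.prod_range_succ'] at h4
  simp only [Nat.succ_ne_zero, if_false, if_true, one_mul, mul_one] at h4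
  rw [Finset.prod_congr rfl fun m hm => if_neg (Finset.ne_of_mem_erase hm)] at h4
  rw [h4, h1, show ((n : ℂ) + 1) = ((n + 1 : ℝ) : ℂ) by push_cast; ring, Complex.normSq_ofReal]
  push_cast
  ring

/-- `z = l + l⁻¹` with `l = (z + √(z² - 4)) / 2` -/
theorem prod_cos_le (hN : N ≠ 0) {z : ℝ} (hz : 2 ≤ z) :
    ∏ m ∈ Finset.range N, (z - 2 * Real.cos (mom N false m)) ≤ ∏ m ∈ Finset.range N, (z - 2 * Real.cos (mom N true m)) := by
  have h4 : 0 ≤ z ^ 2 - 4 := by nlinarith
  have hs := Real.sq_sqrt h4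
  have hs0 := Real.sqrt_nonneg (z ^ 2 - 4)
  set l := (z + Real.sqrt (z ^ 2 - 4)) / 2 with hl
  have hl0 : 0 < l := by positivity
  have e : z = l + l⁻¹ := by
    field_simp
    rw [hl]; nlinarith
  rw [e, prod_cos hN false hl0, prod_cos hN true hl0]
  have : 0 < l ^ N := by positivity
  refine div_le_div_of_nonneg_right ?_ this.le
  simp only [if_true, Bool.false_eq_true, if_false]
  nlinarith

theorem prod_cos_four (hN : N ≠ 0) : ∏ m ∈ Finset.range N, (2 - 2 * Real.cos (mom N true m)) = 4 := by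
  have h := prod_cos hN true one_pos
  simp only [inv_one, one_pow, if_true] at h
  rw [show (2 : ℝ) = 1 + 1 by norm_num] at h ⊢
  rw [h]; norm_num

/-- `0 < mom < 2π` (`Real.cos_eq_one_iff_of_lt_of_lt`) -/
theorem cos_mom_lt {b : Bool} {m : ℕ} (hm : m < N) (h : b = true ∨ m ≠ 0) : Real.cos (mom N b m) < 1 := by
  have hN : (0 : ℝ) < N := by exact_mod_cast (by omega : 0 < N)
  have hm' : (m : ℝ) + 1 ≤ N := by exact_mod_cast hm
  have hπ := Real.pi_pos
  have h0 : (0 : ℝ) < 2 * m + if b = true then 1 else 0 := by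
    rcases h with h | h
    · rw [if_pos h]; positivity
    · have : (0 : ℝ) < m := by exact_mod_cast Nat.pos_of_ne_zero h
      split_ifs <;> linarith
  have h1 : (2 * m + if b = true then 1 else 0 : ℝ) < 2 * N := by split_ifs <;> linarith
  have h2 : 0 < mom N b m := by unfold mom; positivity
  have h3 : mom N b m < 2 * Real.pi := by
    unfold mom; rw [div_lt_iff₀ hN]; nlinarith
  refine lt_of_le_of_ne (Real.cos_le_one _) fun h4 => ?_
  rw [Real.cos_eq_one_iff_of_lt_of_lt (by linarith) h3] at h4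
  exact h2.ne' h4

end Crest.Agent.R165.E
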