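import Crest.Agent.R165.E.Mat
import Crest.Agent.R165.E.Trig

/-! # R165/E (torus, owner helper12): Fourier determinant -/

set_option autoImplicit false
noncomputable section
open Classical Crest.ProbabilityR.IsingModel

namespace Crest.Agent.R165.E
open BA

variable {N : ℕ}

/-- the symbol -/
def sym (t k : ℂ) (u v : ℂ) : Matrix (Fin 4) (Fin 4) ℂ :=
  !![0, 1 + k, 1 + t * u, 1; -1 - k, 0, 1, 1 + t * v; -1 - t * u⁻¹, -1, 0, 1; -1, -1 - t * v⁻¹, -1, 0]

theorem foura_det4 (a b c d e f g h i j k l m n o p : ℂ) :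
    (!![a, b, c, d; e, f, g, h; i, j, k, l; m, n, o, p] : Matrix (Fin 4) (Fin 4) ℂ).det =
      a * (f * (k * p - l * o) - g * (j * p - l * n) + h * (j * o - k * n)) -
        b * (e * (k * p - l * o) - g * (i * p - l * m) + h * (i * o - k * m)) +
        c * (e * (j * p - l * n) - f * (i * p - l * m) + h * (i * n - j * m)) -
        d * (e * (j * o - k * n) - f * (i * o - k * m) + g * (i * n - j * m)) := by
  rw [Matrix.det_succ_row_zero, Fin.sum_univ_four]
  simp [Matrix.det_fin_three, Fin.succAbove]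
  ring

/-- `Matrix.det_succ_row_zero`, `Fin.sum_univ_succ`, `field_simp`, `ring` -/
theorem det_sym (t : ℂ) {u v : ℂ} (hu : u ≠ 0) (hv : v ≠ 0) :
    (sym t 0 u v).det = (1 + t ^ 2) ^ 2 - (t - t ^ 3) * (u + u⁻¹ + (v + v⁻¹)) := by
  rw [sym, foura_det4]
  field_simp
  ring

theorem det_sym_one (t k : ℂ) : (sym t k 1 1).det = (k + (2 - (1 + t) ^ 2)) ^ 2 := by
  rw [sym, foura_det4, inv_one]
  ring

def um (N : ℕ) (b : Bool) (m : ZMod N) : ℂ := Complex.exp (mom N b m.val * Complex.I)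

/-- one-dimensional Fourier matrix -/
def fo (N : ℕ) (b : Bool) : Matrix (ZMod N) (ZMod N) ℂ := Matrix.of fun x m => um N b m ^ x.val

theorem foura_um_eq [NeZero N] (b : Bool) (m : ZMod N) :
    um N b m = Complex.exp (mom N b 0 * Complex.I) * Complex.exp (2 * Real.pi * Complex.I / N) ^ m.val := by
  have hN : (N : ℂ) ≠ 0 := by exact_mod_cast NeZero.ne N
  rw [um, ← Complex.exp_nat_mul, ← Complex.exp_add]
  congr 1
  generalize m.val = k
  unfold mom
  push_cast
  ring

theorem foura_um_inj [NeZero N] (b : Bool) : Function.Injective (um N b) := by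
  intro m m' h
  rw [foura_um_eq, foura_um_eq] at h
  have h1 := mul_left_cancel₀ (Complex.exp_ne_zero _) h
  exact ZMod.val_injective N
    ((Complex.isPrimitiveRoot_exp N (NeZero.ne N)).pow_inj (ZMod.val_lt m) (ZMod.val_lt m') h1)

theorem foura_um_ne (b : Bool) (m : ZMod N) : um N b m ≠ 0 := Complex.exp_ne_zero _

theorem foura_um_pow [NeZero N] (b : Bool) (m : ZMod N) : um N b m ^ N = if b = true then -1 else 1 := by
  have hN : (N : ℂ) ≠ 0 := by exact_mod_cast NeZero.ne N
  rw [foura_um_eq, mul_pow, ← pow_mul, mul_comm m.val N, pow_mul,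
    (Complex.isPrimitiveRoot_exp N (NeZero.ne N)).pow_eq_one, one_pow, mul_one, ← Complex.exp_nat_mul]
  cases b
  · simp [mom]
  · have : (N : ℂ) * (mom N true 0 * Complex.I) = Real.pi * Complex.I := by
      simp [mom]
      field_simp
    rw [this, Complex.exp_pi_mul_I]
    simp

theorem foura_um_zero [NeZero N] : um N false 0 = 1 := by
  simp [um, mom]

theorem foura_um_add (b : Bool) (m : ZMod N) :
    um N b m + (um N b m)⁻¹ = ((2 * Real.cos (mom N b m.val) : ℝ) : ℂ) := by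
  rw [um, ← Complex.exp_neg, ← neg_mul]
  push_cast
  rw [Complex.two_cos]

theorem foura_prod [NeZero N] {M : Type} [CommMonoid M] (f : ℕ → M) :
    ∏ x : ZMod N, f x.val = ∏ i ∈ Finset.range N, f i := by
  obtain ⟨n, rfl⟩ := Nat.exists_eq_succ_of_ne_zero (NeZero.ne N)
  exact Fin.prod_univ_eq_prod_range f (n + 1)

theorem foura_sum [NeZero N] {M : Type} [AddCommMonoid M] (f : ℕ → M) :
    ∑ x : ZMod N, f x.val = ∑ i ∈ Finset.range N, f i := by
  obtain ⟨n, rfl⟩ := Nat.exists_eq_succ_of_ne_zero (NeZero.ne N)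
  exact Fin.sum_univ_eq_sum_range f (n + 1)

/-- orthogonality (`fo^* fo = N`, geometric sums), or Vandermonde (`cases N`; `ZMod (n+1) = Fin (n+1)`, `Matrix.det_vandermonde_ne_zero_iff`, `um` is injective) -/
theorem det_fo [NeZero N] (b : Bool) : (fo N b).det ≠ 0 := by
  have hinj := foura_um_inj (N := N) b
  obtain ⟨n, rfl⟩ := Nat.exists_eq_succ_of_ne_zero (NeZero.ne N)
  have h : fo (n + 1) b = (Matrix.vandermonde (n := n + 1) (um (n + 1) b)).transpose := by
    ext x m
    rfl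
  rw [h]
  exact (Matrix.det_transpose _).trans_ne (Matrix.det_vandermonde_ne_zero_iff.2 hinj)

/-- quasi-periodicity: `um ^ N = ±1` -/
theorem um_zpow [NeZero N] (b : Bool) (m : ZMod N) (k : ℤ) :
    um N b m ^ k = (sgn b (k / N) : ℂ) * um N b m ^ ((k : ZMod N)).val := by
  have h1 : um N b m ^ k = (um N b m ^ N) ^ (k / N) * um N b m ^ ((k : ZMod N)).val := by
    rw [← zpow_natCast, ← zpow_natCast, ← zpow_mul, ← zpow_add₀ (foura_um_ne b m), ZMod.val_intCast,
      Int.mul_ediv_add_emod]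
  rw [h1, foura_um_pow]
  congr 1
  cases b
  · simp [sgn]
  · rcases Int.even_or_odd (k / N) with h | h
    · simp [sgn, h.neg_one_zpow, Int.not_odd_iff_even.2 h]
    · simp [sgn, h.neg_one_zpow, h]

theorem sum_um [NeZero N] (m : ZMod N) : ∑ x : ZMod N, um N false m ^ x.val = if m = 0 then (N : ℂ) else 0 := by
  rw [foura_sum fun i => um N false m ^ i]
  split_ifs with h
  · simp [h, foura_um_zero]
  · have h1 : um N false m ≠ 1 := fun h1 => h (foura_um_inj false (h1.trans foura_um_zero.symm))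
    rw [geom_sum_eq h1, foura_um_pow]
    simp

/-- plane waves -/
def fourb_ph (N : ℕ) (ε : Sec) (m x : XT N) : ℂ := um N ε.1 m.1 ^ x.1.val * um N ε.2 m.2 ^ x.2.val

theorem fourb_sym (k u v : ℂ) (tr : ℝ) (α γ : Fin 4) : sym tr k u v α γ = (A0 α γ : ℝ) +
    (if γ = α + 2 then (sgA α : ℝ) * (tr : ℂ) * (u ^ (dv α).1 * v ^ (dv α).2) else 0) + k * (j4 α γ : ℝ) := by
  fin_cases α <;> fin_cases γ <;> simp [sym, A0, sgA, dv, j4, sub_eq_add_neg]

theorem fourb_shift [NeZero N] (ε : Sec) (m x : XT N) (a : Site) :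
    (chi N ε (lift x + a) : ℝ) * fourb_ph N ε m (toTorus N (lift x + a)) =
      fourb_ph N ε m x * (um N ε.1 m.1 ^ a.1 * um N ε.2 m.2 ^ a.2) := by
  have hu : ∀ b m, um N b m ≠ 0 := fun _ _ => Complex.exp_ne_zero _
  have h1 := um_zpow ε.1 m.1 (lift x + a).1
  have h2 := um_zpow ε.2 m.2 (lift x + a).2
  have e : (chi N ε (lift x + a) : ℝ) * fourb_ph N ε m (toTorus N (lift x + a)) =
      um N ε.1 m.1 ^ (lift x + a).1 * um N ε.2 m.2 ^ (lift x + a).2 := by
    rw [h1, h2, chi, fourb_ph, Complex.ofReal_mul, mul_mul_mul_comm]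
    rfl
  rw [e, Prod.fst_add, Prod.snd_add, zpow_add₀ (hu _ _), zpow_add₀ (hu _ _),
    mul_mul_mul_comm]
  simp only [lift, zpow_natCast]
  rfl

theorem fourb_const [NeZero N] (ε : Sec) (κ : ℝ) (hκ : ε ≠ (false, false) → κ = 0) (m x : XT N) :
    (κ : ℂ) / (N : ℂ) ^ 2 * ∑ y, fourb_ph N ε m y = fourb_ph N ε m x * if m = 0 then (κ : ℂ) else 0 := by
  by_cases h : ε = (false, false)
  · subst h
    have hN : (N : ℂ) ≠ 0 := Nat.cast_ne_zero.2 (NeZero.ne N)
    simp only [fourb_ph, Fintype.sum_prod_type]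
    rw [← Finset.sum_mul_sum, sum_um, sum_um]
    by_cases hm : m = 0
    · subst hm
      have : um N false 0 = 1 := by simp [um, mom]
      simp only [Prod.fst_zero, Prod.snd_zero, if_true, this, one_pow, one_mul]
      field_simp
    · rw [if_neg hm, mul_zero]
      by_cases h1 : m.1 = 0
      · rw [if_neg (show m.2 ≠ 0 from fun h2 => hm (Prod.ext h1 h2)), mul_zero, mul_zero]
      · rw [if_neg h1, zero_mul, mul_zero]
  · simp [hκ h]

theorem fourb_row [NeZero N] (ε : Sec) (t κ : ℝ) (hκ : ε ≠ (false, false) → κ = 0) (x m : XT N) (α γ : Fin 4) :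
    ∑ y, (aT N ε t κ (x, α) (y, γ) : ℂ) * fourb_ph N ε m y =
      fourb_ph N ε m x * sym t (if m = 0 then κ else 0) (um N ε.1 m.1) (um N ε.2 m.2) α γ := by
  have h1 : ∑ y, (a0T N (x, α) (y, γ) : ℂ) * fourb_ph N ε m y = fourb_ph N ε m x * (A0 α γ : ℝ) := by
    rw [Finset.sum_eq_single x (fun y _ hy => by simp [a0T, hy.symm]) (by simp), a0T, if_pos rfl, mul_comm]
  have h2 : ∑ y, (qT N ε t (x, α) (y, γ) : ℂ) * fourb_ph N ε m y = fourb_ph N ε m x *
      if γ = α + 2 then (sgA α : ℝ) * (t : ℂ) * (um N ε.1 m.1 ^ (dv α).1 * um N ε.2 m.2 ^ (dv α).2) else 0 := by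
    have e : piH N (oppHE (liftH (x, α))) = (toTorus N (lift x + dv α), α + 2) := rfl
    rw [Finset.sum_eq_single (toTorus N (lift x + dv α)) (fun y _ hy => by simp [qT, e, hy]) (by simp), qT, e]
    by_cases h : γ = α + 2
    · rw [if_pos (by rw [h]), if_pos h, mul_left_comm, ← fourb_shift]
      push_cast
      ring
    · rw [if_neg fun e' => h (congrArg Prod.snd e'), if_neg h, Complex.ofReal_zero, zero_mul, mul_zero]
  have h3 : ∑ y, (jT N κ (x, α) (y, γ) : ℂ) * fourb_ph N ε m y =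
      fourb_ph N ε m x * ((if m = 0 then (κ : ℂ) else 0) * (j4 α γ : ℝ)) := by
    rw [← mul_assoc, ← fourb_const ε κ hκ m x, mul_right_comm, Finset.mul_sum]
    simp only [jT]
    push_cast
    rfl
  rw [fourb_sym, mul_add, mul_add, ← h1, ← h2, ← h3, ← Finset.sum_add_distrib, ← Finset.sum_add_distrib]
  refine Finset.sum_congr rfl fun y _ => ?_
  simp only [aT, Pi.add_apply]
  push_cast
  ring

/-- block diagonalisation. `F = (fo ε.1 ⊗ₖ fo ε.2) ⊗ₖ 1` on `IT N`, `D (m, α) (m', β) = if m = m' then sym .. α β else 0`; `M * F = F * D` entrywise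
(`um_zpow` for the four neighbours, `sum_um` for `jT`), `det F ≠ 0` (`Matrix.det_kronecker`), `det D = ∏` (`Matrix.det_blockDiagonal` after `Equiv.prodComm`). -/
theorem det_aT_c [NeZero N] (ε : Sec) (t κ : ℝ) (hκ : ε ≠ (false, false) → κ = 0) :
    (((Matrix.of (aT N ε t κ)).det : ℝ) : ℂ) =
      ∏ m : XT N, (sym t (if m = 0 then κ else 0) (um N ε.1 m.1) (um N ε.2 m.2)).det := by
  set S : XT N → Matrix (Fin 4) (Fin 4) ℂ := fun m =>
    sym t (if m = 0 then κ else 0) (um N ε.1 m.1) (um N ε.2 m.2) with hS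
  set F : Matrix (IT N) (IT N) ℂ := Matrix.kroneckerMap (· * ·)
    (Matrix.kroneckerMap (· * ·) (fo N ε.1) (fo N ε.2)) (1 : Matrix (Fin 4) (Fin 4) ℂ) with hF
  have hFd : F.det ≠ 0 := by
    rw [hF, Matrix.det_kronecker, Matrix.det_kronecker, Matrix.det_one, one_pow, mul_one]
    exact pow_ne_zero _ (mul_ne_zero (pow_ne_zero _ (det_fo _)) (pow_ne_zero _ (det_fo _)))
  have hFa : ∀ (x m : XT N) (α γ : Fin 4), F (x, α) (m, γ) = fourb_ph N ε m x * if α = γ then 1 else 0 :=
    fun x m α γ => by rw [← Matrix.one_apply]; rfl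
  have key : Complex.ofRealHom.mapMatrix (Matrix.of (aT N ε t κ)) * F =
      F * (Matrix.blockDiagonal S).submatrix (Equiv.prodComm _ _) (Equiv.prodComm _ _) := by
    ext ⟨x, α⟩ ⟨m, γ⟩
    rw [Matrix.mul_apply, Matrix.mul_apply, Fintype.sum_prod_type (α₁ := XT N), Fintype.sum_prod_type (α₁ := XT N)]
    simp only [hFa, Matrix.submatrix_apply, Equiv.prodComm_apply, Prod.swap_prod_mk, Matrix.blockDiagonal_apply,
      mul_ite, ite_mul, mul_one, mul_zero, zero_mul, Finset.sum_ite_eq, Finset.sum_ite_eq', Finset.mem_univ, if_true,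
      Finset.sum_ite_irrel, Finset.sum_const_zero]
    exact fourb_row ε t κ hκ x m α γ
  have hd := congrArg Matrix.det key
  rw [Matrix.det_mul, Matrix.det_mul, Matrix.det_submatrix_equiv_self, Matrix.det_blockDiagonal, ← RingHom.map_det,
    mul_comm] at hd
  exact mul_left_cancel₀ hFd hd

def dd (t a b : ℝ) : ℝ := (1 + t ^ 2) ^ 2 - 2 * (t - t ^ 3) * (Real.cos a + Real.cos b)

theorem foura_det_dd (t : ℝ) (b b' : Bool) (m m' : ZMod N) :
    (sym t 0 (um N b m) (um N b' m')).det = (dd t (mom N b m.val) (mom N b' m'.val) : ℂ) := by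
  rw [det_sym _ (foura_um_ne _ _) (foura_um_ne _ _), foura_um_add, foura_um_add, dd]
  simp only [Complex.ofReal_mul, Complex.ofReal_sub, Complex.ofReal_add, Complex.ofReal_pow, Complex.ofReal_one,
    Complex.ofReal_ofNat]
  ring

/-- `det_aT_c`, `det_sym`, `u + u⁻¹ = 2 cos`; `∏ m : ZMod N, f m.val = ∏ m ∈ range N, f m` (`Finset.prod_range`/`ZMod.finEquiv`, or `prod_bij`) -/
theorem det_aT [NeZero N] (ε : Sec) (t : ℝ) :
    (Matrix.of (aT N ε t 0)).det = ∏ b ∈ Finset.range N, ∏ a ∈ Finset.range N, dd t (mom N ε.1 a) (mom N ε.2 b) := by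
  apply Complex.ofReal_injective
  rw [det_aT_c ε t 0 fun _ => rfl, ← foura_prod fun b => ∏ a ∈ Finset.range N, dd t (mom N ε.1 a) (mom N ε.2 b),
    Fintype.prod_prod_type_right, Complex.ofReal_prod]
  refine Finset.prod_congr rfl fun b _ => ?_
  rw [← foura_prod fun a => dd t (mom N ε.1 a) (mom N ε.2 b.val), Complex.ofReal_prod]
  refine Finset.prod_congr rfl fun a _ => ?_
  simp only [Complex.ofReal_zero, ite_self]
  exact foura_det_dd _ _ _ _ _

theorem det_aT_deg [NeZero N] (κ : ℝ) :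
    (Matrix.of (aT N (false, false) tc κ)).det =
      (κ ^ 2 * ∏ a ∈ (Finset.range N).erase 0, dd tc (mom N false a) 0) *
        ∏ b ∈ (Finset.range N).erase 0, ∏ a ∈ Finset.range N, dd tc (mom N false a) (mom N false b) := by
  have h0 : 0 ∈ Finset.range N := Finset.mem_range.2 (Nat.pos_of_ne_zero (NeZero.ne N))
  have hm0 : mom N false 0 = 0 := by simp [mom]
  set G : ℕ → ℕ → ℝ := fun a b => if a = 0 ∧ b = 0 then κ ^ 2 else dd tc (mom N false a) (mom N false b) with hG
  have h1 : (Matrix.of (aT N (false, false) tc κ)).det = ∏ b ∈ Finset.range N, ∏ a ∈ Finset.range N, G a b := by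
    apply Complex.ofReal_injective
    rw [det_aT_c (false, false) tc κ fun h => absurd rfl h, ← foura_prod fun b => ∏ a ∈ Finset.range N, G a b,
      Fintype.prod_prod_type_right, Complex.ofReal_prod]
    refine Finset.prod_congr rfl fun b _ => ?_
    rw [← foura_prod fun a => G a b.val, Complex.ofReal_prod]
    refine Finset.prod_congr rfl fun a _ => ?_
    by_cases h : a = 0 ∧ b = 0
    · obtain ⟨rfl, rfl⟩ := h
      have h2 : (1 + tc) ^ 2 = 2 := by
        rw [tc, add_sub_cancel, Real.sq_sqrt (by norm_num)]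
      have h3 : (1 + (tc : ℂ)) ^ 2 = 2 := by exact_mod_cast h2
      have h4 : ((0, 0) : XT N) = 0 := rfl
      simp only [h4, if_true, foura_um_zero, det_sym_one, h3, hG, ZMod.val_zero, and_self]
      simp
    · have h2 : ((a, b) : XT N) ≠ 0 := fun h2 => h (Prod.mk_eq_zero.1 h2)
      have h3 : ¬ (a.val = 0 ∧ b.val = 0) := by
        rwa [ZMod.val_eq_zero, ZMod.val_eq_zero]
      simp only [h2, if_false, hG, h3]
      exact foura_det_dd _ _ _ _ _
  rw [h1, ← Finset.mul_prod_erase _ _ h0, ← Finset.mul_prod_erase _ (fun a => G a 0) h0]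
  refine congrArg₂ (· * ·) (congrArg₂ (· * ·) ?_ ?_) ?_
  · simp [hG]
  · refine Finset.prod_congr rfl fun a ha => ?_
    simp [hG, Finset.ne_of_mem_erase ha, hm0]
  · refine Finset.prod_congr rfl fun b hb => Finset.prod_congr rfl fun a _ => ?_
    simp [hG, Finset.ne_of_mem_erase hb]

end Crest.Agent.R165.E
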