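import Crest.Agent.R165.E.StepT
import Crest.Agent.R165.E.InitG
import Crest.Agent.R165.E.Energy

/-! # R165/E (torus, owner helper12): the initial state on the torus -/

set_option autoImplicit false
noncomputable section
open Classical Crest.ProbabilityR.IsingModel

namespace Crest.Agent.R165.E

variable {N : ℕ}

def edT (N : ℕ) (Z : Finset (XT N)) : Finset Edge :=
  (EN N).filter fun e => toTorus N e.1 ∈ Z ∧ toTorus N (e.1 + uv e.2) ∈ Z
def xT (N : ℕ) (ε : Sec) (o : Ob) (c : ℝ × ℝ) (e : Edge) : AlT N := PhI N ε (o.g.xE c e)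
def actVT (N : ℕ) (o : Ob) (μ : ℝ) (V : Finset Site → ℝ) (Y : Finset (XT N)) : Cfg → AlT N := fun n =>
  algebraMap ℝ (AlT N) (pertF ((tShapes N o.R).filter fun B => (bSites B).image (toTorus N) = Y) μ V (per N n) - 1)
def actOT (N : ℕ) (o : Ob) (Y : Finset (XT N)) : Cfg → AlT N := fun n =>
  if Y = o.oS.image (toTorus N) then o.O (per N n) • tau 0 else 0
def M0T (N : ℕ) [NeZero N] (ε : Sec) (p : Par) (o : Ob) (c : ℝ × ℝ) (Z : Finset (XT N)) : AlT N :=
  hat (xT N ε o c) (edT N Z) ((GT N).grp p.l0 p.l0 (actOT N o) (fun _ => 0) Z)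
def s0T (N : ℕ) [NeZero N] (ε : Sec) (p : Par) (o : Ob) (c : ℝ × ℝ) (μ : ℝ) (V : Finset Site → ℝ) : St (XT N) (AlT N) where
  q x := PhI N ε ((o.g.s0 p c μ V).q (lift x))
  qm _ := 0
  M := M0T N ε p o c
  K Z := hat (xT N ε o c) (edT N Z) ((GT N).grp p.l0 p.l0
    (fun Y => actOT N o Y + actVT N o μ V Y + actOT N o Y * actVT N o μ V Y) (fun _ => 0) Z) - M0T N ε p o c Z
/-- embedding of the source-free algebra -/
def iT (N : ℕ) : Ev (IT N) →ₐ[ℝ] AlT N := gmapE (Finsupp.lmapDomain ℝ ℝ Sum.inl)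
/-- the observable fits in the torus -/
def Fit (N : ℕ) (o : Ob) : Prop := ∀ z ∈ o.oS, 16 * supd o.y.1 z ≤ N

/-! ### task E/InitT-a (locality) -/

theorem edT_mono (Y Z : Finset (XT N)) (h : Y ⊆ Z) : edT N Y ⊆ edT N Z := by
  intro e he
  rw [edT, Finset.mem_filter] at he ⊢
  exact ⟨he.1, h he.2.1, h he.2.2⟩

theorem edT_disj (Y Z : Finset (XT N)) (h : Disjoint Y Z) : Disjoint (edT N Y) (edT N Z) := by
  exact Finset.disjoint_left.2 fun e he he' =>
    Finset.disjoint_left.1 h (Finset.mem_filter.1 he).2.1 (Finset.mem_filter.1 he').2.1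

theorem edT_univ [NeZero N] : edT N Finset.univ = EN N := by
  exact Finset.filter_true_of_mem fun e _ => ⟨Finset.mem_univ _, Finset.mem_univ _⟩

theorem card_edT [NeZero N] (Z : Finset (XT N)) : (edT N Z).card ≤ 2 * Z.card := by
  have h := Finset.card_le_card_of_injOn (s := edT N Z) (t := Z ×ˢ (Finset.univ : Finset (Fin 2)))
    (fun e => (toTorus N e.1, e.2)) (fun e he => Finset.mem_coe.2 (Finset.mem_product.2
      ⟨(Finset.mem_filter.1 (Finset.mem_coe.1 he)).2.1, Finset.mem_univ _⟩)) fun e he e' he' h => by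
      have h1 := redS_eq_iff.2 (congrArg Prod.fst h)
      rw [redS_of_mem (Finset.mem_product.1 (Finset.mem_filter.1 (Finset.mem_coe.1 he)).1).1,
        redS_of_mem (Finset.mem_product.1 (Finset.mem_filter.1 (Finset.mem_coe.1 he')).1).1] at h1
      exact Prod.ext h1 (congrArg Prod.snd h :)
  rwa [Finset.card_product, Finset.card_univ, Fintype.card_fin, mul_comm] at h

theorem red_mem_edT [NeZero N] {Z : Finset Site} {e : Edge} (he : e ∈ edgesIn Z) : red N e ∈ edT N (Z.image (toTorus N)) := by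
  rw [D4.mem_edgesIn] at he
  refine Finset.mem_filter.2 ⟨Finset.mem_product.2 ⟨redS_mem _, Finset.mem_univ _⟩, Finset.mem_image.2 ⟨_, he.1, ?_⟩,
    Finset.mem_image.2 ⟨_, he.2, ?_⟩⟩
  · exact (toTorus_redS _).symm
  · simp only [red, toTorus_add, toTorus_redS]

/-- for `Z` of diameter `< N - 1` the torus edges inside `π Z` are the reductions of the edges inside `Z` -/
theorem edT_image [NeZero N] {Z : Finset Site} (hZ : ∀ x ∈ Z, ∀ y ∈ Z, supd x y + 1 < N) :
    edT N (Z.image (toTorus N)) = (edgesIn Z).image (red N) ∧ Set.InjOn (red N) ↑(edgesIn Z) := by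
  refine ⟨Finset.Subset.antisymm (fun e he => ?_) fun e he => ?_, fun e he e' he' h => ?_⟩
  · obtain ⟨h1, h2, h3⟩ := Finset.mem_filter.1 he
    obtain ⟨x, hx, e1⟩ := Finset.mem_image.1 h2
    obtain ⟨y, hy, e2⟩ := Finset.mem_image.1 h3
    have h4 := hZ x hx y hy
    have h5 := hZ x hx x hx
    have h6 : supd (x + uv e.2) y < N ∧ supd y (x + uv e.2) < N := by
      unfold supd at h4 ⊢
      generalize e.2 = j
      fin_cases j <;> simp [uv] <;> omega
    have h7 : x + uv e.2 = y := injOn_toTorus (N := N) (W := {x + uv e.2, y}) (by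
      rintro a (rfl | rfl) b (rfl | rfl)
      · simp only [supd, sub_self, Int.natAbs_zero, max_self]; omega
      · exact h6.1
      · exact h6.2
      · simp only [supd, sub_self, Int.natAbs_zero, max_self]; omega) (Or.inl rfl) (Or.inr rfl)
      (by rw [e2, toTorus_add, toTorus_add, e1])
    refine Finset.mem_image.2 ⟨(x, e.2), D4.mem_edgesIn.2 ⟨hx, h7 ▸ hy⟩, Prod.ext ?_ rfl⟩
    exact (redS_eq_iff.2 e1).trans (redS_of_mem (Finset.mem_product.1 h1).1)
  · obtain ⟨e', he', rfl⟩ := Finset.mem_image.1 he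
    exact red_mem_edT he'
  · refine Prod.ext ?_ (congrArg Prod.snd h :)
    exact injOn_toTorus (N := N) (W := ↑Z) (fun x hx y hy => Nat.lt_of_succ_lt (hZ x hx y hy))
      (D4.mem_edgesIn.1 he).1 (D4.mem_edgesIn.1 he').1 (redS_eq_iff.1 (congrArg Prod.fst h))

theorem ita_eM (ε : Sec) (e : Edge) : PhI N ε (eM Sum.inl e) =
    (chi N ε (e.1 + uv e.2) * chi N ε e.1) • th2 (Sum.inl (piH N (he0 e))) (Sum.inl (piH N (he1 e))) := by
  refine Subtype.ext ?_
  simp only [PhI, TI, eM, D1.coe_gmapE, D1.coe_th2, map_mul, D1.gmap_vmap_th, Sum.elim_inl, map_smul, smul_mul_smul_comm,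
    SetLike.val_smul]
  rw [mul_comm (chi N ε (e.1 + uv e.2))]
  rfl

theorem xT_red [NeZero N] (ε : Sec) (o : Ob) (c : ℝ × ℝ) (e : Edge) : xT N ε o c (red N e) = xT N ε o c e := by
  have h : piH N (he0 (red N e)) = piH N (he0 e) ∧ piH N (he1 (red N e)) = piH N (he1 e) := by
    simp only [piH, he0, he1, red, toTorus_add, toTorus_redS, and_self]
  simp only [xT, Geom.xE, map_smul, ita_eM, h.1, h.2]
  exact congrArg (fun t : ℝ => _ • t • _) (chi_shift ε (toTorus_redS e.1) (uv e.2))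

/-- `sB_dependsOn`, `bEdges B ⊆ edgesIn (bSites B)` (D4/Hat), `red_mem_edT` -/
theorem actVT_dep [NeZero N] (o : Ob) (μ : ℝ) (V : Finset Site → ℝ) (Y : Finset (XT N)) :
    DependsOn (actVT N o μ V Y) ↑(edT N Y) := by
  intro n n' hn
  unfold actVT pertF
  congr 2
  refine Finset.prod_congr rfl fun B hB => ?_
  have h1 : (bSites B).image (toTorus N) = Y := (Finset.mem_filter.1 hB).2
  rw [sB_dependsOn B (x := per N n) (y := per N n') fun e he => hn _ (by rw [← h1]; exact red_mem_edT (D4.bEdges_subset B he))]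

theorem actOT_dep [NeZero N] {o : Ob} (hO : DependsOn o.O ↑(edgesIn o.oS)) (Y : Finset (XT N)) :
    DependsOn (actOT N o Y) ↑(edT N Y) := by
  intro n n' hn
  unfold actOT
  split_ifs with h
  · rw [hO (x := per N n) (y := per N n') fun e he => hn _ (by rw [h]; exact red_mem_edT he)]
  · rfl

theorem conn_image [NeZero N] {l : ℕ} {Z : Finset Site} (h : geoZ.Conn l Z) : (GT N).Conn l (Z.image (toTorus N)) := by
  refine ⟨h.1.image _, fun x hx y hy => ?_⟩
  obtain ⟨x', hx', rfl⟩ := Finset.mem_image.1 hx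
  obtain ⟨y', hy', rfl⟩ := Finset.mem_image.1 hy
  refine Relation.ReflTransGen.lift (toTorus N) (fun a b hab => ?_) x' y' (h.2 x' hx' y' hy')
  refine ⟨Finset.mem_image_of_mem _ hab.1, Finset.mem_image_of_mem _ hab.2.1, (dT_le a b).trans ?_⟩
  simpa only [D4.geoZ_d] using hab.2.2

/-- `bSites B` has diameter `≤ R + 1` (D4 `tiny_bSites`), `dT_le` -/
theorem actVT_eq_zero [NeZero N] (o : Ob) (μ : ℝ) (V : Finset Site → ℝ) {Y : Finset (XT N)}
    (h : ¬ (Y.Nonempty ∧ ∀ x ∈ Y, ∀ y ∈ Y, dT x y ≤ o.R + 1)) : actVT N o μ V Y = 0 := by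
  have h1 : ((tShapes N o.R).filter fun B => (bSites B).image (toTorus N) = Y) = ∅ :=
    Finset.filter_eq_empty_iff.2 fun B hB e => h (by
      have h2 := D4.tiny_bSites (mem_tShapes.1 hB).1
      rw [← e]
      refine ⟨h2.1.image _, fun x hx y hy => ?_⟩
      obtain ⟨x', hx', rfl⟩ := Finset.mem_image.1 hx
      obtain ⟨y', hy', rfl⟩ := Finset.mem_image.1 hy
      exact (dT_le x' y').trans (h2.2 x' hx' y' hy'))
  funext n
  rw [actVT, h1, pertF, Finset.prod_empty, sub_self, map_zero, Pi.zero_apply]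

/-- `hat_mem`, `grp_mem`, `PhI_mem`, `s0_lcl` -/
theorem s0T_lcl [NeZero N] (ε : Sec) {p : Par} (hp : p.OK) {o : Ob} (hR : 10 * o.R + 20 ≤ p.l0) {c : ℝ × ℝ}
    (hI : InitOK p o.R c o.g) (μ : ℝ) (V : Finset Site → ℝ) : (s0T N ε p o c μ V).Lcl (GT N) (LcT N p 0) p.l0 := by
  have hx : ∀ Z, ∀ e ∈ edT N Z, xT N ε o c e ∈ LcT N p 0 Z := fun Z e he => by
    have h1 : o.g.xE c e ∈ o.g.Lc p 0 {e.1, e.1 + uv e.2} :=
      Subalgebra.smul_mem _ (D4.th2_mem_Lc p o.g 0 ⟨e.1, by simp, by simp [he0, supd]⟩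
        ⟨e.1 + uv e.2, by simp, by simp [he1, supd]⟩) _
    refine lcS_mono _ _ le_rfl ?_ (PhI_mem ε h1)
    rw [Finset.image_insert, Finset.image_singleton, Finset.insert_subset_iff, Finset.singleton_subset_iff]
    exact (Finset.mem_filter.1 he).2
  have hO : ∀ Z Y n, actOT N o Y n ∈ LcT N p 0 Z := fun Z Y n => by
    unfold actOT
    split_ifs
    · exact Subalgebra.smul_mem _ (D1.mem_lcS.2
        ⟨mul_mem (th_mem_supA fun _ h => nomatch h) (th_mem_supA fun _ h => nomatch h), D1.flipS_tau 0⟩) _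
    · exact zero_mem _
  have hV : ∀ Z Y n, actVT N o μ V Y n ∈ LcT N p 0 Z := fun Z Y n => Subalgebra.algebraMap_mem _ _
  have hM : ∀ Z, M0T N ε p o c Z ∈ LcT N p 0 Z := fun Z => hat_mem _ (hx Z) (grp_mem _ _ _ fun Y _ => hO Z Y)
  refine ⟨fun x => ?_, fun _ => zero_mem _, hM, fun Z => ?_, fun Z hZ => ?_, fun Z hZ => ?_⟩
  · have h := PhI_mem (N := N) ε ((s0_lcl hp hR hI μ V).q (lift x))
    rwa [Finset.image_singleton, toTorus_lift] at h
  · exact sub_mem (hat_mem _ (hx Z) (grp_mem _ _ _ fun Y _ n =>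
      add_mem (add_mem (hO Z Y n) (hV Z Y n)) (mul_mem (hO Z Y n) (hV Z Y n)))) (hM Z)
  · simp only [s0T, M0T, (GT N).grp_of_not_conn _ _ _ hZ, D4.hat_zero]
  · simp only [s0T, M0T, (GT N).grp_of_not_conn _ _ _ hZ, sub_self]

/-- `grp_single` -/
theorem M0T_eq [NeZero N] (ε : Sec) {p : Par} {o : Ob} {c : ℝ × ℝ} (hI : InitOK p o.R c o.g) (hF : Fit N o) (hN : 16 ≤ N)
    (Z : Finset (XT N)) : M0T N ε p o c Z = if Z = o.oS.image (toTorus N) then
      tau 0 * PhI N ε (hat (o.g.xE c) (edgesIn o.oS) fun n => algebraMap ℝ Al (o.O n)) else 0 := by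
  obtain ⟨hc, -, -, hd⟩ := hI.obs 0 Nat.one_pos
  rw [M0T, grp_single (GT N) p.l0 (conn_image hc) (P := actOT N o) (fun Y hY => funext fun n => if_neg hY)]
  split_ifs with hZ
  · subst hZ
    obtain ⟨h1, h2⟩ := edT_image (N := N) (Z := o.oS) fun x hx y hy => by
      have a := hF x hx
      have b := hF y hy
      have d := supd_triangle x o.y.1 y
      rw [supd_comm x o.y.1] at d
      omega
    have h3 : actOT N o (o.oS.image (toTorus N)) = fun n => tau 0 * algebraMap ℝ (AlT N) (o.O (per N n)) := by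
      funext n
      rw [actOT, if_pos rfl, Algebra.smul_def, mul_comm]
    have h4 : DependsOn (fun n => algebraMap ℝ (AlT N) (o.O n)) ↑(edgesIn o.oS) := fun n n' hn => congrArg _ (hd hn)
    rw [h3, hat_const_mul, map_hat, h1, hat_red _ (xT_red ε o c) _ h2 h4]
    simp only [AlgHom.commutes]
    rfl
  · rw [show actOT N o Z = 0 from funext fun n => if_neg hZ, D4.hat_zero]

/-! ### task E/InitT-b (charts) -/

private theorem ita2_th2 (ε : Sec) (i j : HE) : PhI N ε (th2 (Sum.inl i) (Sum.inl j)) =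
    (chi N ε i.1 * chi N ε j.1) • th2 (Sum.inl (piH N i)) (Sum.inl (piH N j)) := by
  refine Subtype.ext ?_
  change gmap (TI N ε) (th (Sum.inl i) * th (Sum.inl j)) =
    (chi N ε i.1 * chi N ε j.1) • (th (Sum.inl (piH N i)) * th (Sum.inl (piH N j)))
  rw [map_mul, TI, D1.gmap_vmap_th, D1.gmap_vmap_th, Sum.elim_inl, Sum.elim_inl, map_smul, map_smul, smul_mul_smul_comm]
  rfl

private theorem ita2_eM [NeZero N] (ε : Sec) {x y : Site} (h : toTorus N x = toTorus N y) (j : Fin 2) :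
    PhI N ε (eM Sum.inl (x, j)) = PhI N ε (eM Sum.inl (y, j)) := by
  rw [eM, eM, ita2_th2, ita2_th2]
  simp only [he0, he1, piH, toTorus_add, h]
  rw [mul_comm, chi_shift ε h, mul_comm]

/-- `m` and `k` are periodic after projection -/
theorem PhI_mk_per [NeZero N] (ε : Sec) {x y : Site} (h : toTorus N x = toTorus N y) :
    PhI N ε (mX wPl x) = PhI N ε (mX wPl y) ∧ PhI N ε (kX wPl x) = PhI N ε (kX wPl y) := by
  have h1 : ∀ α, PhI N ε (eM Sum.inl (edgeOf x α)) = PhI N ε (eM Sum.inl (edgeOf y α)) := fun α => by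
    have h2 : ∀ a, toTorus N (x - a) = toTorus N (y - a) := fun a => by rw [toTorus_sub, toTorus_sub, h]
    fin_cases α
    · exact ita2_eM ε h 0
    · exact ita2_eM ε h 1
    · exact ita2_eM ε (h2 _) 0
    · exact ita2_eM ε (h2 _) 1
  have h3 : PhI N ε (a0M Sum.inl x) = PhI N ε (a0M Sum.inl y) := by
    simp only [a0M, map_sum, apply_ite (PhI N ε), ita2_th2, chi_sq, piH, h]
  simp only [mX, kX, map_add, map_sum, map_smul, h1, h3, wPl, and_self]

/-- `sB` is translation covariant (D4 has a version for `flow_local`/`s0_symm`), `per N n` is periodic -/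
theorem sB_pv [NeZero N] {B : Finset Site} (hB : Even B.card) (a : Site) (n : Cfg) :
    sB (B.image (· + pv N a)) (per N n) = sB B (per N n) := by
  rw [(D4.lsym_shift (pv N a)).sB hB]
  congr 1
  funext e
  have h : redS N (e.1 + pv N a) = redS N e.1 := redS_eq_iff.2 (by rw [toTorus_add, toTorus_pv, add_zero])
  simp only [Function.comp_apply, per, red, trE, h]

theorem itb_inj {x y : Site} (h : toTorus N x = toTorus N y) (hd : supd x y < N) : x = y := by
  refine injOn_toTorus (N := N) (W := {x, y}) ?_ (Or.inl rfl) (Or.inr rfl) h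
  have h0 : 0 < N := by omega
  rintro a (rfl | rfl) b (rfl | rfl)
  · rwa [supd_self]
  · exact hd
  · rwa [supd_comm]
  · rwa [supd_self]

theorem itb_img (Y : Finset Site) (m : Site) : (Y.image (· + pv N m)).image (toTorus N) = Y.image (toTorus N) := by
  rw [Finset.image_image]
  exact Finset.image_congr fun x _ => by simp only [Function.comp_apply, toTorus_add, toTorus_pv, add_zero]

theorem itb_pv (x : Site) : ∃ m, redS N x - x = pv N m := by
  obtain ⟨m, hm⟩ := toTorus_eq_iff.1 (toTorus_redS (N := N) x).symm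
  exact ⟨m, by rw [hm, add_sub_cancel_left]⟩

/-- the bijection `B ↦ B + pv N a` with `anc ∈ dom N` (`anc_image`, `mem_tShapes`, `hV.trans`, `sB_pv`; `bSites` is translation covariant) -/
theorem actVT_image [NeZero N] (ε : Sec) (o : Ob) (μ : ℝ) {V : Finset Site → ℝ} (hV : PotOK o.R V) {Y : Finset Site}
    (hY : ∀ x ∈ Y, ∀ y ∈ Y, supd x y + o.R + 1 < N) (n : Cfg) :
    actVT N o μ V (Y.image (toTorus N)) n = PhI N ε (o.g.actV μ V Y (per N n)) := by
  rw [actVT, Geom.actV, AlgHom.commutes]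
  congr 2
  unfold pertF
  symm
  refine Finset.prod_bij (fun B _ => B.image (· + (redS N (anc B) - anc B))) (fun B hB => ?_) (fun B hB B' hB' e => ?_)
    (fun B' hB' => ?_) fun B _ => ?_
  · obtain ⟨-, h2, h3⟩ := Finset.mem_filter.1 hB
    have h4 : IsShape o.R B := h2
    obtain ⟨m, hm⟩ := itb_pv (N := N) (anc B)
    refine Finset.mem_filter.2 ⟨mem_tShapes.2 ⟨ena_shape h4 _, ?_⟩, ?_⟩
    · rw [anc_image B h4.1, add_sub_cancel]
      exact redS_mem _
    · rw [hm, (D4.lsym_shift _).bSites, h3, itb_img]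
  · obtain ⟨-, h2, h3⟩ := Finset.mem_filter.1 hB
    obtain ⟨-, -, h3'⟩ := Finset.mem_filter.1 hB'
    have h4 : IsShape o.R B := h2
    have hne : Y.Nonempty := h3 ▸ (D4.tiny_bSites h4).1
    have e1 := congrArg (fun S => anc (bSites S)) e
    simp only [(D4.lsym_shift _).bSites, h3, h3', anc_image Y hne, add_right_inj] at e1
    rw [e1] at e
    exact Finset.image_injective (add_left_injective _) e
  · obtain ⟨h1, h2⟩ := Finset.mem_filter.1 hB'
    obtain ⟨h3, h4⟩ := mem_tShapes.1 h1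
    obtain ⟨x₀, hx₀⟩ := (D4.tiny_bSites h3).1
    obtain ⟨y₀, hy₀, e₀⟩ := Finset.mem_image.1 (h2 ▸ Finset.mem_image_of_mem (toTorus N) hx₀)
    obtain ⟨m, rfl⟩ := toTorus_eq_iff.1 e₀.symm
    have h5 := ena_shape h3 (pv N m)
    have h6 : (bSites (B'.image (· + pv N m))).image (toTorus N) = Y.image (toTorus N) := by
      rw [(D4.lsym_shift _).bSites, itb_img, h2]
    have h7 : x₀ + pv N m ∈ bSites (B'.image (· + pv N m)) := by
      rw [(D4.lsym_shift _).bSites]
      exact Finset.mem_image_of_mem _ hx₀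
    have key : ∀ z ∈ bSites (B'.image (· + pv N m)), ∀ y ∈ Y, toTorus N z = toTorus N y → z = y := fun z hz y hy e => by
      have a1 := (D4.tiny_bSites h5).2 z hz _ h7
      have a2 := hY _ hy₀ y hy
      have a3 := supd_triangle z (x₀ + pv N m) y
      exact itb_inj e (by omega)
    have h8 : bSites (B'.image (· + pv N m)) = Y := by
      ext z
      refine ⟨fun hz => ?_, fun hz => ?_⟩
      · obtain ⟨y, hy, e⟩ := Finset.mem_image.1 (h6 ▸ Finset.mem_image_of_mem (toTorus N) hz)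
        rwa [key z hz y hy e.symm]
      · obtain ⟨y, hy, e⟩ := Finset.mem_image.1 (h6.symm ▸ Finset.mem_image_of_mem (toTorus N) hz)
        rwa [← key y hy z hz e]
    refine ⟨B'.image (· + pv N m), Finset.mem_filter.2 ⟨Finset.mem_powerset.2 (h8 ▸ D4.subset_bSites _), h5, h8⟩, ?_⟩
    have h9 : redS N (anc B' + pv N m) = anc B' := by
      rw [redS_eq_iff.2 (show toTorus N (anc B' + pv N m) = toTorus N (anc B') by rw [toTorus_add, toTorus_pv, add_zero]),
        redS_of_mem h4]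
    rw [anc_image B' h3.1, h9, ena_image, show pv N m + (anc B' - (anc B' + pv N m)) = 0 by abel, ena_image0]
  · obtain ⟨m, hm⟩ := itb_pv (N := N) (anc B)
    rw [hm, hV.trans]
    by_cases h0 : V B = 0
    · simp [h0]
    · rw [sB_pv (hV.even B h0)]

theorem actOT_image [NeZero N] (ε : Sec) {o : Ob} (hF : Fit N o) {Y : Finset Site} (hY : ∀ x ∈ Y, 8 * supd o.y.1 x ≤ 5 * N)
    (n : Cfg) : actOT N o (Y.image (toTorus N)) n = PhI N ε (o.g.actO Y (per N n)) := by
  have hN := Nat.pos_of_neZero N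
  have key : ∀ x ∈ Y, ∀ z ∈ o.oS, toTorus N x = toTorus N z → x = z := fun x hx z hz e => by
    have a := hF z hz
    have b := hY x hx
    have d := supd_triangle x o.y.1 z
    rw [supd_comm x o.y.1] at d
    refine injOn_toTorus (W := {x, z}) ?_ (by simp) (by simp) e
    rintro u (rfl | rfl) v (rfl | rfl)
    · simpa [supd] using hN
    · omega
    · rw [supd_comm]; omega
    · simpa [supd] using hN
  have hi : Y.image (toTorus N) = o.oS.image (toTorus N) ↔ o.oS = Y := by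
    refine ⟨fun e => Finset.ext fun z => ⟨fun hz => ?_, fun hz => ?_⟩, fun e => by rw [e]⟩
    · obtain ⟨x, hx, e'⟩ := Finset.mem_image.1 (e ▸ Finset.mem_image_of_mem (toTorus N) hz)
      exact key x hx z hz e' ▸ hx
    · obtain ⟨x, hx, e'⟩ := Finset.mem_image.1 (e ▸ Finset.mem_image_of_mem (toTorus N) hz)
      exact key z hz x hx e'.symm ▸ hx
  change (if _ then _ else _) =
    PhI N ε ((∏ k ∈ (Finset.range 1).filter fun _ => o.oS = Y, (1 + o.O (per N n) • tau k)) - 1)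
  by_cases h : o.oS = Y
  · rw [if_pos (hi.2 h), Finset.filter_true_of_mem fun _ _ => h, Finset.prod_range_one, add_sub_cancel_left, map_smul, PhI_tau]
  · rw [if_neg (mt hi.1 h), Finset.filter_false_of_mem fun _ _ => h, Finset.prod_empty, sub_self, map_zero]

/-- `grp_rel` with the ring map `F ↦ fun n => PhI (F (per N n))` (`dT_eq`, `injOn_toTorus`, D4 `image_cl`), `edT_image`, `hat_red`, `map_hat`;
`q`: `s0_q_bulk`, `PhI_mk_per` -/
theorem s0T_rel [NeZero N] (ε : Sec) {p : Par} {o : Ob} {c : ℝ × ℝ} (hc : -1 < c.2) (hI : InitOK p o.R c o.g) (hF : Fit N o) (μ : ℝ)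
    {V : Finset Site → ℝ} (hV : PotOK o.R V) (hN : 4 * (o.R + 2) ≤ N) {z : Site} (hz : 2 * supd o.y.1 z ≤ N) {ρ : ℕ} (hρ : 8 * ρ ≤ N) :
    (o.g.s0 p c μ V).Rel (toTorus N) (PhI N ε) ↑(box z ρ) (s0T N ε p o c μ V) := by
  have hd : ∀ x ∈ (↑(box z ρ) : Set Site), ∀ y ∈ (↑(box z ρ) : Set Site), supd x y ≤ 2 * ρ := fun x hx y hy => by
    simp only [Finset.mem_coe, box, Finset.mem_product, Finset.mem_Icc] at hx hy
    unfold supd
    omega
  have hO : ∀ Y : Finset Site, ↑Y ⊆ (↑(box z ρ) : Set Site) → ∀ n,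
      actOT N o (Y.image (toTorus N)) n = PhI N ε (o.g.actO Y (per N n)) := fun Y hY n =>
    actOT_image ε hF (fun x hx => by
      have h1 := hY hx
      simp only [Finset.mem_coe, box, Finset.mem_product, Finset.mem_Icc] at h1
      unfold supd at hz ⊢
      omega) n
  have hV' : ∀ Y : Finset Site, ↑Y ⊆ (↑(box z ρ) : Set Site) → ∀ n,
      actVT N o μ V (Y.image (toTorus N)) n = PhI N ε (o.g.actV μ V Y (per N n)) := fun Y hY n =>
    actVT_image ε o μ hV (fun x hx y hy => by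
      have := hd x (hY hx) y (hY hy)
      omega) n
  have key : ∀ {P : Finset Site → Cfg → Al} {P' : Finset (XT N) → Cfg → AlT N} (Z : Finset Site),
      ↑Z ⊆ (↑(box z ρ) : Set Site) → (∀ Y, DependsOn (P Y) ↑(edgesIn Y)) →
      (∀ Y : Finset Site, ↑Y ⊆ (↑(box z ρ) : Set Site) → ∀ n, P' (Y.image (toTorus N)) n = PhI N ε (P Y (per N n))) →
      hat (xT N ε o c) (edT N (Z.image (toTorus N))) ((GT N).grp p.l0 p.l0 P' (fun _ => 0) (Z.image (toTorus N))) =
        PhI N ε (hat (o.g.xE c) (edgesIn Z) (geoZ.grp p.l0 p.l0 P (fun _ => 0) Z)) := fun {P P'} Z hZ hdep hP => by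
    let Ψ : (Cfg → Al) →+* (Cfg → AlT N) :=
      RingHom.pi fun n => (PhI N ε : Al →+* AlT N).comp (Pi.evalRingHom (fun _ => Al) (per N n))
    have h1 := grp_rel geoZ (GT N) (toTorus N) Ψ (Z := Z) (le_refl p.l0) (le_refl p.l0)
      (injOn_toTorus fun x hx y hy => by
        have := hd x (hZ hx) y (hZ hy)
        omega)
      (fun x hx y hy => Or.inl (by
        rw [D4.geoZ_d]
        refine dT_eq ?_
        have := hd x (hZ hx) y (hZ hy)
        omega)) (P := P) (K := fun _ => 0) (P' := P') (K' := fun _ => 0)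
      (fun Y hY => by
        rw [D4.image_cl]
        exact funext fun n => hP Y ((Finset.coe_subset.2 hY).trans hZ) n)
      fun _ _ => (map_zero Ψ).symm
    rw [D4.image_cl] at h1
    have h2 := edT_image (N := N) (Z := Z) fun x hx y hy => by
      have := hd x (hZ hx) y (hZ hy)
      omega
    rw [h1, h2.1, map_hat]
    exact hat_red (xT N ε o c) (xT_red ε o c) (edgesIn Z) h2.2
      (F := fun n => PhI N ε (geoZ.grp p.l0 p.l0 P (fun _ => 0) Z n))
      (fun n n' hn => congrArg (PhI N ε) (D4.grp_dependsOn p.l0 hdep Z hn))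
  have hM : ∀ Z : Finset Site, ↑Z ⊆ (↑(box z ρ) : Set Site) →
      M0T N ε p o c (Z.image (toTorus N)) = PhI N ε (o.g.M0 p c Z) := fun Z hZ =>
    key Z hZ (D4.actO_dependsOn hI) hO
  refine ⟨fun x _ => ?_, fun _ _ => (map_zero (PhI N ε)).symm, fun Z hZ => ?_, fun Z hZ => ?_⟩
  · have hq : ∀ y : Site, (o.g.s0 p c μ V).q y = c.1 • mX wPl y + c.2 • kX wPl y := fun y =>
      s0_q_bulk hc p μ V (𝔤 := o.g) (Set.mem_univ y) fun α =>
        ⟨Set.mem_univ _, abs_of_pos (show (0 : ℝ) < tc by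
          unfold tc
          rw [sub_pos, Real.lt_sqrt zero_le_one]
          norm_num)⟩
    change PhI N ε ((o.g.s0 p c μ V).q (lift (toTorus N x))) = _
    have h3 := PhI_mk_per ε (toTorus_lift (toTorus N x))
    rw [hq, hq, map_add, map_add, map_smul, map_smul, map_smul, map_smul, h3.1, h3.2]
  · rw [D4.image_cl]
    exact hM Z hZ
  · rw [D4.image_cl]
    change _ - M0T N ε p o c _ = PhI N ε (_ - o.g.M0 p c Z)
    rw [map_sub, hM Z hZ]
    congr 1
    refine key Z hZ (D4.act_dependsOn hI μ V) fun Y hY n => ?_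
    simp only [Pi.add_apply, Pi.mul_apply, map_add, map_mul, hO Y hY, hV' Y hY]

/-! ### task E/InitT-c (the Boltzmann factor) -/

theorem PhI_iE (ε : Sec) (X : Ev HE) : PhI N ε (BA.iE Sum.inl X) = iT N (Phi N ε X) := by

  refine Subtype.ext ?_
  simp only [PhI, iT, Phi, D1.coe_gmapE, BA.coe_iE, coe_gE, gmap_comp]
  congr 2
  refine D1.gv_ext fun i => ?_
  simp only [LinearMap.comp_apply, Finsupp.lmapDomain_apply, Finsupp.mapDomain_single, TL_single, TI]
  rw [show (Finsupp.single (Sum.inl i) 1 : GV Ix) = dl i from rfl, cb_dl, dl, Finsupp.smul_single, smul_eq_mul, mul_one]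

theorem cst_iT (g : IT N → IT N → ℝ) (X : Ev (IT N)) :
    cstA (muE (extG g) (iT N X)) = algebraMap ℝ (AlT N) (gauss g (X : Gr (IT N))) := by

  refine Subtype.ext ?_
  have h1 : gmap (Finsupp.lmapDomain ℝ ℝ (Sum.inl : IT N → IxT N)) (mu g (X : Gr (IT N))) =
      mu (extG g) (gmap (Finsupp.lmapDomain ℝ ℝ Sum.inl) (X : Gr (IT N))) :=
    gmap_mu _ (S := Set.univ) (fun i _ j _ => by
      simp only [Finsupp.lmapDomain_apply, Finsupp.mapDomain_single, bil_single]; rfl) (mem_supA_univ _)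
  simp only [cstA, iT, D1.coe_gmapE, D1.coe_muE]
  rw [← h1, gmap_comp]
  have h2 : (vmap (Sum.elim (fun _ => 0) fun p => dz p.1 p.2) : GV (IxT N) →ₗ[ℝ] GV (IxT N)) ∘ₗ
      Finsupp.lmapDomain ℝ ℝ (Sum.inl : IT N → IxT N) = 0 := by
    refine D1.gv_ext fun i => ?_
    simp only [LinearMap.comp_apply, Finsupp.lmapDomain_apply, Finsupp.mapDomain_single, LinearMap.zero_apply]
    exact cb_dl _ _ i
  rw [h2, gmap_zero]
  rfl

/-- `xi_hat` (`M + K = hat (grp act)`), `∏_Y (1 + act Y) = pertF (tShapes) · (1 + O τ)` (`Finset.prod_fiberwise`), `hat_const_mul`, `map_hat`,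
`PhI_iE`, `BA.iE_pLoc`, `sum_dom`, `map_exA`; `wT t e = t`, `√(1 + c.2) ^ 2 = 1 + c.2` -/
theorem s0T_Z [NeZero N] (ε : Sec) {p : Par} {o : Ob} (hR : 10 * o.R + 20 ≤ p.l0) {c : ℝ × ℝ} (hc : -1 < c.2)
    (hI : InitOK p o.R c o.g) (μ : ℝ) (V : Finset Site → ℝ) :
    (s0T N ε p o c μ V).Z (GT N) augE p.l0 Finset.univ =
      iT N (XB N ε (Real.sqrt (1 + c.2)) (tOf c) (pertF (tShapes N o.R) μ V)) +
        tau 0 * iT N (XB N ε (Real.sqrt (1 + c.2)) (tOf c) fun n => pertF (tShapes N o.R) μ V n * o.O n) := by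

  obtain ⟨o1, -, -, o4⟩ := hI.obs 0 (show 0 < 1 from one_pos)
  have htc : 0 < tc := by
    have : (1 : ℝ) < Real.sqrt 2 := Real.lt_sqrt_of_sq_lt (by norm_num)
    unfold tc; linarith
  have hw : o.g.wT (tOf c) = fun _ => tOf c := by
    funext e
    have h1 : o.g.w e = tc := rfl
    rw [Geom.wT, h1, if_pos (abs_of_pos htc), div_mul_cancel₀ _ htc.ne']
  have hr : Real.sqrt (1 + c.2) ^ 2 = 1 + c.2 := Real.sq_sqrt (by linarith)
  have hq : ∀ x, (s0T N ε p o c μ V).q x + (s0T N ε p o c μ V).qm x =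
      iT N (Phi N ε (pLoc id (fun _ => Real.sqrt (1 + c.2)) wPl (fun _ => tOf c) (lift x))) := by
    intro x
    rw [← PhI_iE, BA.iE_pLoc]
    have h1 : ∀ y, y ∈ o.g.Λ := fun _ => trivial
    simp only [s0T, Geom.s0, hw, add_zero, h1, if_true]
    rfl
  have hx : xT N ε o c = fun e => iT N ((Real.sqrt (1 + c.2) ^ 2 * tOf c) • Phi N ε (eM id e)) := by
    funext e
    rw [map_smul, ← PhI_iE, BA.iE_eM, hr, xT, Geom.xE, hw, map_smul]
  have hMK : (fun Y => (s0T N ε p o c μ V).M Y + (s0T N ε p o c μ V).K Y) = fun Z => hat (xT N ε o c) (edT N Z)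
      ((GT N).grp p.l0 p.l0 (fun Y => actOT N o Y + actVT N o μ V Y + actOT N o Y * actVT N o μ V Y) (fun _ => 0) Z) := by
    funext Z
    exact add_sub_cancel _ _
  have hP : ∀ Y, DependsOn (actOT N o Y + actVT N o μ V Y + actOT N o Y * actVT N o μ V Y) ↑(edT N Y) := by
    intro Y n n' hn
    simp only [Pi.add_apply, Pi.mul_apply]
    rw [actOT_dep o4 Y hn, actVT_dep o μ V Y hn]
  have hcn : ∀ Y, ¬ (GT N).Conn p.l0 Y → actOT N o Y + actVT N o μ V Y + actOT N o Y * actVT N o μ V Y = 0 := by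
    intro Y hY
    have h1 : actOT N o Y = 0 := by
      funext n
      refine if_neg fun h => hY ?_
      rw [h]
      exact conn_image o1
    have h2 : actVT N o μ V Y = 0 := actVT_eq_zero o μ V fun h => hY ⟨h.1, fun x hx y hy =>
      Relation.ReflTransGen.single ⟨hx, hy, (h.2 x hx y hy).trans (by omega)⟩⟩
    rw [h1, h2]; simp
  have hprod : ∏ Y ∈ (Finset.univ : Finset (XT N)).powerset,
      (1 + (actOT N o Y + actVT N o μ V Y + actOT N o Y * actVT N o μ V Y)) =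
      (fun n => algebraMap ℝ (AlT N) (pertF (tShapes N o.R) μ V (per N n))) - fun n => (-tau 0) *
        algebraMap ℝ (AlT N) (pertF (tShapes N o.R) μ V (per N n) * o.O (per N n)) := by
    funext n
    have e1 : ∀ Y, (1 + (actOT N o Y + actVT N o μ V Y + actOT N o Y * actVT N o μ V Y)) n =
        (1 + actOT N o Y n) * (1 + actVT N o μ V Y n) := fun Y => by
      simp only [Pi.add_apply, Pi.mul_apply, Pi.one_apply]; ring
    have e2 : ∏ Y ∈ (Finset.univ : Finset (XT N)).powerset, (1 + actOT N o Y n) = 1 + o.O (per N n) • tau 0 := by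
      rw [Finset.prod_eq_single_of_mem (o.oS.image (toTorus N)) (Finset.mem_powerset.2 (Finset.subset_univ _))]
      · rw [actOT, if_pos rfl]
      · intro Y _ hY
        rw [actOT, if_neg hY, add_zero]
    have e3 : ∏ Y ∈ (Finset.univ : Finset (XT N)).powerset, (1 + actVT N o μ V Y n) =
        algebraMap ℝ (AlT N) (pertF (tShapes N o.R) μ V (per N n)) := by
      simp only [actVT, map_sub, map_one, add_sub_cancel]
      rw [← map_prod]
      congr 1
      exact Finset.prod_fiberwise_of_maps_to (fun B _ => Finset.mem_powerset.2 (Finset.subset_univ _)) _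
    rw [Finset.prod_apply, Finset.prod_congr rfl fun Y _ => e1 Y, Finset.prod_mul_distrib, e2, e3, Pi.sub_apply,
      map_mul, Algebra.smul_def]
    ring
  rw [St.Z, hMK, xi_hat (GT N) p.l0 edT_mono edT_disj _ hP hcn, hprod, edT_univ, hat_sub, hat_const_mul]
  simp only [hq, XB, map_mul (iT N), map_hat, AlgHom.commutes]
  rw [← map_exA (fun F h => BA.matb_nil F h) (iT N) (fun F => D4.augE_gmapE _ F), sum_dom, map_sum, hx]
  ring

theorem itc_coefT {H : Type} (A : Ev (IxH H)) : coefT [0] A =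
    aug (ctr (Finsupp.lapply (Sum.inr (0, true))) (ctr (Finsupp.lapply (Sum.inr (0, false))) (A : Gr (IxH H)))) := by
  simp [coefT, dTau]

theorem itc_two {I : Type} (d d' : Module.Dual ℝ (GV I)) (A B : Ev I) :
    aug (ctr d' ((A : Gr I) * ctr d (B : Gr I))) = augE A * aug (ctr d' (ctr d (B : Gr I))) := by
  rw [ctr_even_mul _ A.2, map_add, map_mul, map_mul, aug_odd ((ctr_evenOdd d').1 _ A.2), zero_mul, zero_add]
  rfl

theorem coefT_mul {H : Type} (A B : Ev (IxH H)) : coefT [0] (A * B) = coefT [0] A * augE B + augE A * coefT [0] B := by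
  rw [itc_coefT, itc_coefT, itc_coefT, MulMemClass.coe_mul, ctr_even_mul _ A.2, map_add, map_add, itc_two, ← even_comm B,
    itc_two, mul_comm (augE B)]

/-- `ctr_exp`, or `coefT_mul` and induction on powers -/
theorem coefT_exA {H : Type} (A : Ev (IxH H)) :
    augE (exA augE A) = Real.exp (augE A) ∧ coefT [0] (exA augE A) = Real.exp (augE A) * coefT [0] A := by
  have hn : IsNilpotent (A - algebraMap ℝ _ (augE A)) := D1.nil_augE _ (by simp)
  have h1 : augE (exA augE A) = Real.exp (augE A) := by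
    rw [exA, map_smul, hn.map_exp augE]
    simp
  refine ⟨h1, ?_⟩
  have h2 : ∀ d : Module.Dual ℝ (GV (IxH H)), ctr d ((exA augE A : Ev (IxH H)) : Gr (IxH H)) =
      ((exA augE A : Ev (IxH H)) : Gr (IxH H)) * ctr d (A : Gr (IxH H)) := fun d => by
    rw [even_comm, exA, SetLike.val_smul, map_smul, mul_smul_comm]
    congr 1
    have e := hn.map_exp (Subalgebra.val _)
    simp only [Subalgebra.coe_val] at e
    rw [e, ctr_exp d (A - algebraMap ℝ _ (augE A)).2 (hn.map (Subalgebra.val _)), AddSubgroupClass.coe_sub, map_sub,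
      SubalgebraClass.coe_algebraMap, CliffordAlgebra.contractLeft_algebraMap, sub_zero]
  rw [itc_coefT, itc_coefT, h2, itc_two, h1]

theorem coefT_lin {H : Type} (a b : ℝ) : augE (algebraMap ℝ (Ev (IxH H)) a + tau 0 * algebraMap ℝ (Ev (IxH H)) b) = a ∧
    coefT [0] (algebraMap ℝ (Ev (IxH H)) a + tau 0 * algebraMap ℝ (Ev (IxH H)) b) = b := by
  have h0 : augE (tau 0 : Ev (IxH H)) = 0 := by
    change aug (th _ * th _) = 0
    rw [map_mul, th, aug_iota, zero_mul]
  refine ⟨by simp [h0], ?_⟩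
  have ha := (D1.dTau_of_mem (H := H) 0 (Subalgebra.algebraMap_mem _ a)).1
  have hb := (D1.dTau_of_mem (H := H) 0 (Subalgebra.algebraMap_mem _ b)).2
  simp only [coefT, List.map_cons, List.map_nil, List.prod_cons, List.prod_nil, mul_one, AddMemClass.coe_add,
    MulMemClass.coe_mul, SubalgebraClass.coe_algebraMap, map_add, ha, hb, map_zero, zero_add, AlgHom.commutes]
  rfl

/-! ### task E/InitT-d (size) -/

theorem bd_xT [NeZero N] (ε : Sec) {p : Par} {o : Ob} {c : ℝ × ℝ} (hI : InitOK p o.R c o.g) (hΓ : 0 < o.Gam 0) (h1 : |c.1| ≤ 1 / 10)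
    (h2 : |c.2| ≤ 1 / 10) (Y : Finset (XT N)) {e : Edge} (he : e ∈ edT N Y) : BT N ε p o 0 Y (xT N ε o c e) (2 * o.Gam 0 ^ 2) := by
  obtain ⟨-, h3, h4⟩ := Finset.mem_filter.1 he
  have h5 := bd_push (N := N) ε (D4.bd_xE hI hΓ h1 h2 {e.1, e.1 + uv e.2} (e := e) (D4.mem_edgesIn.2 ⟨by simp, by simp⟩))
  refine GBd.mono h5 (Set.biUnion_subset_biUnion_left fun x hx => ?_) le_rfl
  obtain ⟨z, hz, rfl⟩ := Finset.mem_image.1 hx
  rcases Finset.mem_insert.1 hz with rfl | hz
  · exact h3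
  · rw [Finset.mem_singleton.1 hz]
    exact h4

/-- the number of shapes near a point is bounded uniformly in `N`: `B ↦ (π (anc B), B - anc B)` is injective on `tShapes` with values in
`ball y (l + R + 2) × shapes0 R` (`filter_dT`, `card_box`) -/
theorem card_near (R l : ℕ) : ∃ n₁ : ℕ, ∀ (N : ℕ) [NeZero N] (y : XT N),
    ((tShapes N R).filter fun B => ∃ z ∈ bSites B, dT y (toTorus N z) ≤ l).card ≤ n₁ := by
  refine ⟨(2 * (l + (2 * R + 1)) + 1) ^ 2 * (shapes0 R).card, fun N _ y => ?_⟩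
  refine (Finset.card_le_card_of_injOn (t := (box (lift y) (l + (2 * R + 1))).image (toTorus N) ×ˢ shapes0 R)
    (fun B => (toTorus N (anc B), B.image (· + -anc B))) (fun B hB => ?_) fun B hB B' hB' h => ?_).trans ?_
  · obtain ⟨hB, z, hz, hd⟩ := Finset.mem_filter.1 (Finset.mem_coe.1 hB)
    have hs := (mem_tShapes.1 hB).1
    refine Finset.mem_coe.2 (Finset.mem_product.2 ⟨?_, ena_norm hs⟩)
    rw [← filter_dT, toTorus_lift]
    obtain ⟨x, hx⟩ := hs.1
    have h1 := (D4.tiny_bSites hs).2 z hz x (D4.subset_bSites B hx)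
    have h2 := mem_box.1 (ena_sub_box hs hx)
    have h3 := supd_triangle z x (anc B)
    have h4 := dT_tri y (toTorus N z) (toTorus N (anc B))
    have h5 := dT_le (N := N) z (anc B)
    exact Finset.mem_filter.2 ⟨Finset.mem_univ _, by dsimp only; omega⟩
  · have h1 := (mem_tShapes.1 (Finset.mem_filter.1 (Finset.mem_coe.1 hB)).1).2
    have h2 := (mem_tShapes.1 (Finset.mem_filter.1 (Finset.mem_coe.1 hB')).1).2
    simp only [Prod.mk.injEq] at h
    have h3 : anc B = anc B' := by rw [← redS_of_mem h1, ← redS_of_mem h2, redS_eq_iff.2 h.1]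
    have h4 := congrArg (Finset.image (· + anc B)) h.2
    rwa [← h3, ena_image, ena_image, neg_add_cancel, ena_image0, ena_image0] at h4
  · rw [Finset.card_product]
    exact Nat.mul_le_mul_right _ (Finset.card_image_le.trans (card_box _ _).le)

/-- majorant of the perturbation: `b Y = exp (|μ| M · #fibre Y) - 1` (D4 `V_bdd`, `abs_sB_le`); `b Y ≠ 0` forces `|Y| ≤ (R + 2)²`;
`Σ (e^{a_Y} - 1) ≤ e^{Σ a_Y} - 1 ≤ 2 Σ a_Y`, `card_near`, `card_edT` -/
theorem actVT_bd {R : ℕ} {V : Finset Site → ℝ} (hV : PotOK R V) (l : ℕ) {ξ : ℝ} (hξ : 0 ≤ ξ) : ∃ C ε₀ : ℝ, 0 ≤ C ∧ 0 < ε₀ ∧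
    ∀ (N : ℕ) [NeZero N] (o : Ob) (μ : ℝ), o.R = R → |μ| ≤ ε₀ → ∃ b : Finset (XT N) → ℝ,
      (∀ Y, 0 ≤ b Y ∧ ∀ n, ∃ t : ℝ, |t| ≤ b Y ∧ actVT N o μ V Y n = t • (1 : AlT N)) ∧
      (∀ Y, ¬ (Y.Nonempty ∧ ∀ x ∈ Y, ∀ y ∈ Y, dT x y ≤ R + 1) → b Y = 0) ∧
      ∀ (y : XT N) (𝒮 : Finset (Finset (XT N))), (∀ Z ∈ 𝒮, ∃ z ∈ Z, dT y z ≤ l) →
        ∑ Z ∈ 𝒮, (1 + 2 * ξ) ^ (edT N Z).card * b Z ≤ C * |μ| := by
  obtain ⟨M, hM, hB⟩ := D4.V_bdd hV
  obtain ⟨n₀, h₀⟩ := card_near R 0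
  obtain ⟨n₁, h₁⟩ := card_near R l
  have hn : (0 : ℝ) ≤ n₀ * M := by positivity
  refine ⟨(1 + 2 * ξ) ^ (2 * (2 * R + 3) ^ 2) * (2 * M) * n₁, 1 / (n₀ * M + 1), by positivity, by positivity,
    fun N _ o μ hR hμ => ?_⟩
  subst hR
  set fib := fun Y : Finset (XT N) => (tShapes N o.R).filter fun B => (bSites B).image (toTorus N) = Y with hfib
  have hT : ∀ Y, ∀ B ∈ fib Y, D4.Tiny o.R (bSites B) ∧ (bSites B).image (toTorus N) = Y := fun Y B hB =>
    ⟨D4.tiny_bSites (mem_tShapes.1 (Finset.mem_filter.1 hB).1).1, (Finset.mem_filter.1 hB).2⟩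
  have hc : ∀ Y, ((fib Y).card : ℝ) ≤ n₀ := fun Y => by
    rcases (fib Y).eq_empty_or_nonempty with h | ⟨B, hB⟩
    · rw [h]; simp
    · obtain ⟨⟨⟨z, hz⟩, -⟩, rfl⟩ := hT Y B hB
      refine Nat.cast_le.2 (le_trans (Finset.card_le_card fun B' hB' => ?_) (h₀ N (toTorus N z)))
      obtain ⟨z', hz', e⟩ := Finset.mem_image.1 ((hT _ B' hB').2 ▸ Finset.mem_image_of_mem (toTorus N) hz :
        toTorus N z ∈ (bSites B').image (toTorus N))
      exact Finset.mem_filter.2 ⟨(Finset.mem_filter.1 hB').1, z', hz', by rw [e]; exact ((GT N).d_self _).le⟩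
  refine ⟨fun Y => 2 * ((fib Y).card * (M * |μ|)), fun Y => ⟨by positivity, fun n =>
    ⟨pertF (fib Y) μ V (per N n) - 1, ?_, Algebra.algebraMap_eq_smul_one _⟩⟩, fun Y hY => ?_, fun y 𝒮 h𝒮 => ?_⟩
  · rw [pertF, ← Real.exp_sum]
    have h1 : |∑ B ∈ fib Y, μ * V B * sB B (per N n)| ≤ (fib Y).card * (M * |μ|) := by
      refine (Finset.abs_sum_le_sum_abs _ _).trans ((Finset.sum_le_card_nsmul _ _ (M * |μ|) fun B _ => ?_).trans_eq
        (nsmul_eq_mul _ _))
      rw [abs_mul, abs_mul, mul_comm M]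
      exact (mul_le_of_le_one_right (by positivity) (D4.abs_sB_le B _)).trans
        (mul_le_mul_of_nonneg_left (hB B) (abs_nonneg _))
    have h2 : (fib Y).card * (M * |μ|) ≤ 1 := by
      have h3 := (le_div_iff₀ (by positivity)).1 hμ
      have h4 := mul_le_mul_of_nonneg_right (hc Y) (show 0 ≤ M * |μ| by positivity)
      nlinarith [abs_nonneg μ]
    refine (Real.abs_exp_sub_one_le (h1.trans h2)).trans ?_
    linarith
  · have : fib Y = ∅ := Finset.eq_empty_of_forall_notMem fun B hB => hY <| by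
      obtain ⟨⟨h1, h2⟩, rfl⟩ := hT Y B hB
      refine ⟨h1.image _, fun x hx y hy => ?_⟩
      obtain ⟨x', hx', rfl⟩ := Finset.mem_image.1 hx
      obtain ⟨y', hy', rfl⟩ := Finset.mem_image.1 hy
      exact (dT_le x' y').trans (h2 x' hx' y' hy')
    simp [this]
  · have h1 : ∀ Z ∈ 𝒮, (1 + 2 * ξ) ^ (edT N Z).card * (2 * ((fib Z).card * (M * |μ|))) ≤
        (1 + 2 * ξ) ^ (2 * (2 * o.R + 3) ^ 2) * (2 * M) * |μ| * (fib Z).card := fun Z _ => by
      rcases (fib Z).eq_empty_or_nonempty with h | ⟨B, hB⟩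
      · rw [h]; simp
      · obtain ⟨h1, rfl⟩ := hT Z B hB
        have h2 : (edT N ((bSites B).image (toTorus N))).card ≤ 2 * (2 * o.R + 3) ^ 2 :=
          (card_edT _).trans (Nat.mul_le_mul_left 2 (Finset.card_image_le.trans h1.card.1))
        exact (mul_le_mul_of_nonneg_right (pow_le_pow_right₀ (by linarith) h2) (by positivity)).trans_eq (by ring)
    refine (Finset.sum_le_sum h1).trans ?_
    rw [← Finset.mul_sum, ← Nat.cast_sum, mul_right_comm _ (n₁ : ℝ)]
    refine mul_le_mul_of_nonneg_left (Nat.cast_le.2 (le_trans ?_ (h₁ N y))) (by positivity)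
    simp only [hfib]
    rw [Finset.sum_card_fiberwise_eq_card_filter]
    refine Finset.card_le_card fun B hB => ?_
    obtain ⟨hB1, hB2⟩ := Finset.mem_filter.1 hB
    obtain ⟨z, hz, hd⟩ := h𝒮 _ hB2
    obtain ⟨z, hz', rfl⟩ := Finset.mem_image.1 hz
    exact Finset.mem_filter.2 ⟨hB1, z, hz', hd⟩

/-- `bd_hat_grp`, `grp_bound k.a` (with `ε₀ := max ε₁ (C |μ|)`), `actVT_bd`; the source majorant is `h * b` on `π oS` (`bd_tau`, `bd_push`, `PhI_tau`),
`cov ≤ card`, `edT_image` -/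
theorem s0T_bound {R : ℕ} {k : Cons} (hk : ConsOK R k) {V : Finset Site → ℝ} (hV : PotOK R V) :
    ∃ C₀ ε₀ : ℝ, 1 ≤ C₀ ∧ 0 < ε₀ ∧ ∀ (N : ℕ) [NeZero N] (ε : Sec) (o : Ob) (c : ℝ × ℝ) (μ ε₁ : ℝ), o.R = R → InitOK k.p R c o.g →
      o.Gam 0 = k.Γ₀ → |c.1| ≤ 1 / 10 → |c.2| ≤ 1 / 10 → |μ| ≤ ε₀ → ε₁ ≤ ε₀ → 0 < o.h → Src0 k o.g ε₁ → Fit N o → 16 ≤ N →
      (GT N).PN (BT N ε k.p o 0) k.p.l0 k.a (s0T N ε k.p o c μ V).K (C₀ * |μ|) ∧
      ∃ b, BT N ε k.p o 0 (o.oS.image (toTorus N)) (M0T N ε k.p o c (o.oS.image (toTorus N))) b ∧ k.a ^ o.oS.card * b ≤ ε₁ := by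
  have hκ : (0 : ℝ) ≤ 2 * k.Γ₀ ^ 2 := by positivity
  obtain ⟨CV, εV, hCV, hεV, hact⟩ := actVT_bd hV k.p.l0 hκ
  have ha : 1 ≤ k.a := by linarith [hk.one.2.1, hk.one.2.2.1]
  obtain ⟨Cg, εg, hCg, hεg, hgrp⟩ := grp_bound k.a ha
  have hl0 : 1 ≤ k.p.l0 := hk.pok.2.2.1
  have hΓ : 0 < k.Γ₀ := by
    have h1 : 0 < k.p.l 1 := Nat.mul_pos hl0 (Nat.pow_pos (by have := hk.pok.1; omega))
    have h2 : (0 : ℝ) < k.p.l 1 := by exact_mod_cast h1
    have h3 := hk.one.1
    have h4 := hk.gam.1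
    rw [hk.gam.2]
    have : 0 < k.Γ₁ := by linarith
    positivity
  have hE : 0 ≤ Cg * CV := mul_nonneg hCg.le hCV
  refine ⟨1 + Cg * CV, min (min εV εg) (εg / (CV + 1)), by linarith, by positivity,
    fun N _ ε o c μ ε₁ hR hI hG h1 h2 hμ hε hh hS hF hN => ?_⟩
  subst hR
  simp only [le_min_iff] at hμ hε
  have hB : BdAx (BT N ε k.p o 0) augE := bdAx_BdU _
  obtain ⟨b, hb, hsum⟩ := hS
  replace hb : ∀ n, |o.O n| ≤ b 0 := hb 0 Nat.one_pos
  replace hsum : (3 * k.a) ^ o.oS.card * (1 + 4 * k.Γ₀ ^ 2) ^ (edgesIn o.oS).card * (o.h * b 0) ≤ ε₁ := by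
    simpa [Ob.g, gPlane] using hsum
  rw [show 1 + 4 * k.Γ₀ ^ 2 = 1 + 2 * (2 * k.Γ₀ ^ 2) by ring] at hsum
  have hb0 : 0 ≤ b 0 := (abs_nonneg _).trans (hb fun _ => false)
  obtain ⟨o1, o2, -, o4⟩ := hI.obs 0 Nat.one_pos
  have htau : BT N ε k.p o 0 (o.oS.image (toTorus N)) (tau 0) o.h := by
    have := bd_push (N := N) ε (bd_tau k.p o.g 0 0 Nat.one_pos hh)
    rw [PhI_tau] at this
    exact hB.mono this (Finset.image_subset_image (Finset.singleton_subset_iff.2 o2)) le_rfl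
  have hw : (1 : ℝ) ≤ 1 + 2 * (2 * k.Γ₀ ^ 2) := by linarith
  refine ⟨?_, o.h * ((1 + 2 * (2 * k.Γ₀ ^ 2)) ^ (edgesIn o.oS).card * b 0), ?_, le_trans ?_ hsum⟩
  · obtain ⟨b₁, c1, c2, c3⟩ := hact N o μ rfl hμ.1.1
    have b₀ : ∀ Y n, BT N ε k.p o 0 Y (actOT N o Y n) (if Y = o.oS.image (toTorus N) then o.h * b 0 else 0) := fun Y n => by
      rw [actOT]
      split_ifs with hY
      · rw [hY, mul_comm]
        exact hB.mono (hB.smul _ htau) subset_rfl (mul_le_mul_of_nonneg_right (hb _) hh.le)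
      · exact hB.zero Y
    have b₁' : ∀ Y n, BT N ε k.p o 0 Y (actVT N o μ V Y n) (b₁ Y) := fun Y n => by
      obtain ⟨t, ht, ht'⟩ := (c1 Y).2 n
      rw [ht']
      exact hB.mono (hB.smul t (hB.one Y)) subset_rfl (by rwa [mul_one])
    have key := bd_hat_grp (GT N) k.p.l0 hB edT_mono hκ (fun Y e he => hG ▸ bd_xT ε hI (hG ▸ hΓ) h1 h2 Y he)
      (actOT_dep o4) (actVT_dep o μ V) b₀ b₁' (fun _ => rfl) fun _ => rfl
    refine ⟨_, fun Z => ⟨hB.nonneg (key Z), key Z⟩, fun y 𝒮 h𝒮 => ?_⟩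
    have e3 : CV * |μ| ≤ εg := by
      have := (le_div_iff₀ (by positivity)).1 hμ.2
      nlinarith [abs_nonneg μ]
    refine (hgrp (XT N) (GT N) k.p.l0 _ _ εg (CV * |μ|) hl0 (fun Y => ⟨mul_nonneg (by positivity) (hB.nonneg (b₀ Y fun _ => false)),
      mul_nonneg (by positivity) (c1 Y).1⟩) (fun Y hY => ?_) (fun Y hY => ?_) e3 le_rfl
      (fun y 𝒮 h𝒮 => ⟨?_, c3 y 𝒮 h𝒮⟩) y 𝒮 h𝒮).trans (by nlinarith [abs_nonneg μ])
    · have hl := hk.l0.2
      rw [c2 Y fun h => hY ⟨⟨h.1, fun x hx y hy => (h.2 x hx y hy).trans (by omega)⟩, h.1, fun x hx y hy =>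
        Relation.ReflTransGen.single ⟨hx, hy, (h.2 x hx y hy).trans (by omega)⟩⟩, mul_zero]
    · rw [if_neg fun e : Y = _ => hY (by rw [e]; exact conn_image o1), mul_zero]
    · simp only [mul_ite, mul_zero, Finset.sum_ite_eq']
      split_ifs
      · refine le_trans ?_ (hsum.trans hε.1.2)
        have d1 : (GT N).cov k.p.l0 (o.oS.image (toTorus N)) ≤ o.oS.card :=
          ((GT N).cov_le fun z hz => ⟨z, hz, by rw [(GT N).d_self]; exact Nat.zero_le _⟩).trans Finset.card_image_le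
        have d2 : (edT N (o.oS.image (toTorus N))).card ≤ (edgesIn o.oS).card := by
          rw [(edT_image fun x hx y hy => ?_).1]
          · exact Finset.card_image_le
          · have f1 := hF x hx
            have f2 := hF y hy
            have f3 := supd_triangle x o.y.1 y
            rw [supd_comm x o.y.1] at f3
            omega
        rw [mul_assoc]
        have : 0 ≤ o.h * b 0 := by positivity
        gcongr
        linarith
      · exact hεg.le
  · rw [M0T_eq ε hI hF hN, if_pos rfl]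
    have hB' : BdAx (o.g.Bd k.p 0) augE := bdAx_BdU _
    refine hB.mul htau (bd_push ε (bd_hat hB' hκ (fun e he => hG ▸ D4.bd_xE hI (hΓ.trans_eq hG.symm) h1 h2 _ he) fun n => ?_))
    rw [Algebra.algebraMap_eq_smul_one]
    exact hB'.mono (hB'.smul _ (hB'.one _)) subset_rfl (by rw [mul_one]; exact hb n)
  · rw [mul_left_comm o.h, mul_assoc]
    have : 0 ≤ (1 + 2 * (2 * k.Γ₀ ^ 2)) ^ (edgesIn o.oS).card * (o.h * b 0) := by positivity
    gcongr
    linarith

end Crest.Agent.R165.E
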