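import Crest.Agent.R165.E.Mat
import Crest.Agent.R165.E.Geo

/-! # R165/E (torus, owner helper12): the torus kernels are close to the plane kernel -/

set_option autoImplicit false
noncomputable section
open Classical Crest.ProbabilityR.IsingModel

namespace Crest.Agent.R165.E
open BA

variable {N : ℕ}

/-- `lap_eq_0 .. lap_eq_3`; the coefficients of each `c β` add up to `0` -/
theorem harm_of_const {s : Fn} {x : Site} {c : Fin 4 → ℝ} (h : ∀ y ∈ box x 2, ∀ β, opA wPl s (y, β) = c β) (α : Fin 4) :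
    lap (fun y => s (y, α)) x = 0 := by
  obtain ⟨a, b⟩ := x
  have h' : ∀ c' d β, a - 2 ≤ c' → c' ≤ a + 2 → b - 2 ≤ d → d ≤ b + 2 → opA wPl s ((c', d), β) = c β :=
    fun c' d β h1 h2 h3 h4 => h _ (b1_mem_box.2 ⟨⟨h1, h2⟩, h3, h4⟩) β
  rw [lap_eq]
  induction α using b1_fin4
  · have := lap_eq_0 s a b
    simp (disch := omega) only [h'] at this
    linear_combination this
  · have := lap_eq_1 s a b
    simp (disch := omega) only [h'] at this
    linear_combination this
  · have := lap_eq_2 s a b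
    simp (disch := omega) only [h'] at this
    linear_combination this
  · have := lap_eq_3 s a b
    simp (disch := omega) only [h'] at this
    linear_combination this

/-- shells have `8 n` points -/
theorem sum_inv_box (x : Site) (R : ℕ) : ∑ y ∈ box x R, 1 / ((supd x y : ℝ) + 1) ≤ 8 * R + 1 := by
  simpa only [supd_comm x] using sum_inv_supd_self x R

theorem gL_per [NeZero N] (ε : Sec) (g : IT N → IT N → ℝ) (k : HE) (x n : Site) (α : Fin 4) :
    gL N ε g k (x + pv N n, α) = chi N ε (pv N n) * gL N ε g k (x, α) := by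
  simp only [gL, piH, chi_add_pv, toTorus_add, toTorus_pv, add_zero]
  ring

theorem kera_chi [NeZero N] (ε : Sec) (x a : Site) :
    chi N ε x * chi N ε (lift (toTorus N x) + a) = chi N ε (x + a) := by
  have h := chi_shift ε (toTorus_lift (toTorus N x)).symm a
  rw [chi_of_mem ε (lift_mem _), mul_one] at h
  rw [← h, mul_comm, mul_assoc, chi_sq, mul_one]

theorem kera_tor [NeZero N] (y : XT N) (a : Site) : toTorus N (lift y + a) = y + toTorus N a := by
  rw [toTorus_add, toTorus_lift]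

theorem kera_op [NeZero N] {ε : Sec} {κ : ℝ} {g : IT N → IT N → ℝ} (hg : IsKerT N ε κ g) (k i : HE) :
    opA wPl (gL N ε g k) i = (if piH N i = piH N k then chi N ε k.1 * chi N ε i.1 else 0) -
      chi N ε k.1 * chi N ε i.1 * (κ / (N : ℝ) ^ 2) * ∑ β, j4 i.2 β * ∑ y : XT N, g (piH N k) (y, β) := by
  have h := sum_aT ε tc κ (g (piH N k)) i
  rw [hg.2] at h
  have e : opA wPl (gL N ε g k) i = chi N ε k.1 * opA (fun _ => tc) (up N ε (g (piH N k))) i := by
    simp only [opA_eq, gL, up, wPl, Fin.sum_univ_four]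
    ring
  rw [e, eq_sub_of_add_eq h.symm]
  split_ifs <;> ring

/-- `kerT_unique` for `g' k j = gL (liftH k + a) (liftH j + a)` (`sum_aT`; `opA` commutes with shifts; the `jT` term only matters for
`ε = (false, false)`, where `chi = 1` and the sum over the torus is shift invariant) -/
theorem gL_shift [NeZero N] {ε : Sec} {κ : ℝ} (hA : Adm N ε κ) {g : IT N → IT N → ℝ} (hg : IsKerT N ε κ g) (a : Site) (i j : HE) :
    gL N ε g (i.1 + a, i.2) (j.1 + a, j.2) = gL N ε g i j := by
  have key : g = fun k j => gL N ε g (lift k.1 + a, k.2) (lift j.1 + a, j.2) := by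
    refine kerT_unique hg.2 fun i k => ?_
    have h := sum_aT ε tc κ (fun j : IT N => gL N ε g (lift k.1 + a, k.2) (lift j.1 + a, j.2)) (liftH i)
    have e1 : chi N ε (liftH i).1 = 1 := chi_of_mem ε (lift_mem (N := N) i.1)
    have e2 : up N ε (fun j : IT N => gL N ε g (lift k.1 + a, k.2) (lift j.1 + a, j.2)) =
        shift a (gL N ε g (lift k.1 + a, k.2)) := by
      funext j
      simp only [up, shift, gL, piH, ← kera_chi ε j.1 a, toTorus_add, toTorus_lift]
      ring
    have e3 : piH N ((liftH i).1 + a, (liftH i).2) = piH N (lift k.1 + a, k.2) ↔ i = k := by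
      simp only [piH, liftH, kera_tor, Prod.mk.injEq, add_left_inj]
      exact Prod.ext_iff.symm
    rw [e1, piH_liftH, one_mul, one_mul, e2, show (fun _ => tc) = wPl from rfl, opA_shift, shift, kera_op hg] at h
    rw [h]
    simp only [e3]
    have e4 : (if i = k then chi N ε (lift k.1 + a) * chi N ε ((liftH i).1 + a) else 0) = if i = k then 1 else 0 := by
      split_ifs with hik
      · subst hik
        exact chi_sq ε _
      · rfl
    rw [e4]
    rcases hA with ⟨-, rfl⟩ | ⟨rfl, -⟩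
    · simp
    · have e5 : ∀ β, ∑ y : XT N, gL N (false, false) g (lift k.1 + a, k.2) (lift y + a, β) =
          ∑ y : XT N, g (piH N (lift k.1 + a, k.2)) (y, β) := fun β => by
        rw [← Equiv.sum_comp (Equiv.addRight (toTorus N a)) fun y => g (piH N (lift k.1 + a, k.2)) (y, β)]
        simp only [gL, chi_ff, one_mul, piH, kera_tor, Equiv.coe_addRight]
      simp only [e5, chi_ff]
      ring
  have := congrFun (congrFun key (piH N i)) (piH N j)
  rw [gL.eq_1 N ε g i j, this]
  simp only [gL, piH, ← kera_chi ε i.1 a, ← kera_chi ε j.1 a, toTorus_add, toTorus_lift]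
  ring

/-- sum the equation over the torus: `(sym tc κ 1 1) S = e_{k.2}` for `S β = ∑ y, g k (y, β)`, and the Pfaffian is `κ` -/
theorem sum_ker_le [NeZero N] {κ : ℝ} (hκ : |κ| ≤ 1) {g : IT N → IT N → ℝ} (hg : IsKerT N (false, false) κ g) (k : IT N) (β : Fin 4) :
    |κ * ∑ y : XT N, g k (y, β)| ≤ 2 := by
  set S : Fin 4 → ℝ := fun β => ∑ y : XT N, g k (y, β) with hS
  have hN : (N : ℝ) ≠ 0 := Nat.cast_ne_zero.2 (NeZero.ne N)
  have h : ∀ α, (if α = k.2 then 1 else 0 : ℝ) =
      ∑ β, A0 α β * S β + sgA α * tc * S (α + 2) + κ * ∑ β, j4 α β * S β := by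
    intro α
    have h1 : ∀ y : XT N, (if (y, α) = k then 1 else 0 : ℝ) = ∑ β, A0 α β * g k (y, β) +
        sgA α * tc * g k (y + toTorus N (dv α), α + 2) + κ / (N : ℝ) ^ 2 * ∑ β, j4 α β * S β := by
      intro y
      have h2 := sum_aT (false, false) tc κ (g k) (liftH (y, α))
      rw [piH_liftH, hg.2, opA_eq] at h2
      simpa only [chi_ff, one_mul, up, piH, liftH, oppHE, toTorus_lift, kera_tor] using h2
    have h3 := Finset.sum_congr rfl fun y (_ : y ∈ Finset.univ) => h1 y
    have h5 : ∑ y, g k (y + toTorus N (dv α), α + 2) = S (α + 2) :=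
      Equiv.sum_comp (Equiv.addRight (toTorus N (dv α))) fun y => g k (y, α + 2)
    rw [Finset.sum_add_distrib, Finset.sum_add_distrib, Finset.sum_comm, ← Finset.mul_sum, h5, Finset.sum_const, Finset.card_univ,
      Fintype.card_prod, ZMod.card, nsmul_eq_mul] at h3
    simp only [← Finset.mul_sum] at h3
    have h4 : ∑ y : XT N, (if (y, α) = k then 1 else 0 : ℝ) = if α = k.2 then 1 else 0 := by
      obtain ⟨k1, k2⟩ := k
      by_cases hk : α = k2 <;> simp [hk]
    rw [← h4, h3]
    push_cast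
    field_simp
    rfl
  obtain ⟨e, he⟩ : ∃ e : Fin 4 → ℝ, ∀ α, e α = if α = k.2 then 1 else 0 := ⟨_, fun _ => rfl⟩
  simp only [← he] at h
  have h0 := h 0
  have h1 := h 1
  have h2 := h 2
  have h3 := h 3
  simp [Fin.sum_univ_four, A0, sgA, j4] at h0 h1 h2 h3
  have f0 : κ * S 0 = -e 1 + (1 + tc) * e 2 - e 3 := by
    linear_combination h1 - (1 + tc) * h2 + h3 + S 0 * tc_sq
  have f1 : κ * S 1 = e 0 - e 2 + (1 + tc) * e 3 := by
    linear_combination -h0 + h2 - (1 + tc) * h3 + S 1 * tc_sq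
  have f2 : κ * S 2 = -(1 + tc) * e 0 + e 1 - (1 + κ) * e 3 := by
    linear_combination (1 + tc) * h0 - h1 + (1 + κ) * h3 + S 2 * tc_sq
  have f3 : κ * S 3 = e 0 - (1 + tc) * e 1 + (1 + κ) * e 2 := by
    linear_combination -h0 + (1 + tc) * h1 - (1 + κ) * h2 + S 3 * tc_sq
  obtain ⟨t0, t1⟩ := tc_pos
  obtain ⟨k0, k1⟩ := abs_le.1 hκ
  show |κ * S β| ≤ 2
  generalize k.2 = γ at he
  induction β using b1_fin4 <;> simp only [f0, f1, f2, f3, he] <;> induction γ using b1_fin4 <;>
    simp [abs_le] <;> constructor <;> linarith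

theorem gL_eq [NeZero N] {ε : Sec} {κ : ℝ} (hA : Adm N ε κ) {g : IT N → IT N → ℝ} (hg : IsKerT N ε κ g) (k : HE) :
    ∃ c : Fin 4 → ℝ, (∀ α, |c α| ≤ 2 / (N : ℝ) ^ 2) ∧ ∀ i, opA wPl (gL N ε g k) i =
      (if piH N i = piH N k then chi N ε k.1 * chi N ε i.1 else 0) + c i.2 := by
  rcases hA with ⟨-, rfl⟩ | ⟨rfl, hκ⟩
  · exact ⟨0, fun α => by simp; positivity, fun i => by simp [kera_op hg]⟩
  have hN : (1 : ℝ) ≤ N := by exact_mod_cast Nat.pos_of_ne_zero (NeZero.ne N)
  have hκ1 : |κ| ≤ 1 := by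
    rw [hκ, div_le_one (by positivity)]
    linarith
  refine ⟨fun α => -(κ / (N : ℝ) ^ 2 * ∑ β, j4 α β * ∑ y : XT N, g (piH N k) (y, β)), fun α => ?_, fun i => ?_⟩
  · have h0 := sum_ker_le hκ1 hg (piH N k) 0
    have h1 := sum_ker_le hκ1 hg (piH N k) 1
    rw [abs_neg, div_mul_eq_mul_div, abs_div, abs_of_pos (by positivity : (0 : ℝ) < (N : ℝ) ^ 2)]
    refine div_le_div_of_nonneg_right ?_ (by positivity)
    induction α using b1_fin4
    · simpa [Fin.sum_univ_four, j4] using h1
    · simpa [Fin.sum_univ_four, j4] using h0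
    · simp [j4]
    · simp [j4]
  · rw [kera_op hg]
    simp only [chi_ff]
    ring

theorem exists_bK : ∃ S : Finset Site, (∀ m, m ∈ S ↔ supd m 0 ≤ 37) ∧ S.card ≤ 75 ^ 2 := by
  obtain ⟨r, hr⟩ : ∃ r : ℕ, r = 37 := ⟨_, rfl⟩
  exact ⟨box 0 r, fun m => by rw [mem_box, hr], by rw [card_box, hr]⟩

def bK : Finset Site := exists_bK.choose

theorem mem_bK {m : Site} : m ∈ bK ↔ supd m 0 ≤ 37 := exists_bK.choose_spec.1 m

/-- subtract the nearby images of the plane kernel -/
def imK (N : ℕ) (ε : Sec) (g : IT N → IT N → ℝ) (k : HE) : Fn := fun i =>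
  gL N ε g k i - ∑ n ∈ bK, chi N ε (pv N n) * gPl (k.1 + pv N n, k.2) i

theorem glb_mul {a b c : ℤ} (hN : 0 < c) (h : a ≠ b) : c ≤ c * a - c * b ∨ c ≤ c * b - c * a := by
  rcases lt_or_gt_of_ne h with h | h
  · right; nlinarith
  · left; nlinarith

theorem glb_far [NeZero N] {n m : Site} (h : n ≠ m) (k x : Site) : N ≤ supd (k + pv N n) (x + pv N m) + supd k x := by
  have hN : (0 : ℤ) < N := by exact_mod_cast Nat.pos_of_ne_zero (NeZero.ne N)
  by_cases h1 : n.1 = m.1
  · have := glb_mul hN (show n.2 ≠ m.2 from fun h2 => h (Prod.ext h1 h2))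
    simp only [supd, pv, Prod.fst_add, Prod.snd_add]
    omega
  · have := glb_mul hN h1
    simp only [supd, pv, Prod.fst_add, Prod.snd_add]
    omega

theorem glb_box [NeZero N] {m : Site} {k x : Site} (h : supd (x + pv N m) k + supd k x < 38 * N) : m ∈ bK := by
  have hN : (0 : ℤ) < N := by exact_mod_cast Nat.pos_of_ne_zero (NeZero.ne N)
  simp only [supd, pv, Prod.fst_add, Prod.snd_add] at h
  have key : ∀ a : ℤ, N * a < 38 * N → -(38 * N) < N * a → a.natAbs ≤ 37 := fun a h1 h2 => by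
    have h3 : a < 38 := by nlinarith
    have h4 : -38 < a := by nlinarith
    omega
  have h1 := key m.1 (by omega) (by omega)
  have h2 := key m.2 (by omega) (by omega)
  rw [mem_bK]
  simp only [supd, Prod.fst_zero, Prod.snd_zero, sub_zero]
  omega

theorem imK_op [NeZero N] {ε : Sec} {κ : ℝ} (hA : Adm N ε κ) {g : IT N → IT N → ℝ} (hg : IsKerT N ε κ g) (k : HE) :
    ∃ c : Fin 4 → ℝ, ∀ y ∈ box k.1 (37 * N), ∀ β, opA wPl (imK N ε g k) (y, β) = c β := by
  have hN := Nat.pos_of_ne_zero (NeZero.ne N)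
  obtain ⟨c, -, hc⟩ := gL_eq hA hg k
  refine ⟨c, fun y hy β => ?_⟩
  have e : opA wPl (imK N ε g k) (y, β) = opA wPl (gL N ε g k) (y, β) -
      ∑ n ∈ bK, chi N ε (pv N n) * opA wPl (gPl (k.1 + pv N n, k.2)) (y, β) := by
    simp only [opA_eq, imK, mul_sub, Finset.sum_sub_distrib, mul_add, Finset.sum_add_distrib, Finset.mul_sum]
    rw [Finset.sum_comm (s := bK)]
    simp only [mul_left_comm (chi N ε _)]
    ring
  rw [e, hc]
  simp only [gPl_ker.2]
  split_ifs with h
  · obtain ⟨m, rfl⟩ := toTorus_eq_iff.1 (congrArg Prod.fst h).symm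
    obtain rfl : β = k.2 := congrArg Prod.snd h
    have hm : m ∈ bK := glb_box (N := N) (k := k.1) (x := k.1) (by have := mem_box.1 hy; rw [supd_self]; omega)
    rw [Finset.sum_eq_single_of_mem m hm fun n _ hn => ?_, if_pos rfl, chi_add_pv, ← mul_assoc, chi_sq]
    · ring
    · rw [if_neg, mul_zero]
      intro h1
      have h2 := glb_far (N := N) hn k.1 k.1
      rw [← (Prod.mk.inj h1).1, supd_self, supd_self] at h2
      omega
  · rw [Finset.sum_eq_zero fun n _ => ?_]
    · ring
    · rw [if_neg, mul_zero]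
      intro h1
      apply h
      rw [h1]
      simp only [piH, toTorus_add, toTorus_pv, add_zero]

theorem imK_near [NeZero N] (ε : Sec) (g : IT N → IT N → ℝ) (k : HE) {C : ℝ} (hC : ∀ i j, |gPl i j| ≤ C / (supd i.1 j.1 + 1))
    {x m : Site} (hx : 4 * supd k.1 x ≤ 3 * N) (hm : m ∈ bK) (β : Fin 4) :
    |imK N ε g k (x + pv N m, β) - chi N ε (pv N m) * (gL N ε g k (x, β) - gPl k (x, β))| ≤ 75 ^ 2 * (4 * C / N) := by
  have hN : (0 : ℝ) < N := by exact_mod_cast Nat.pos_of_ne_zero (NeZero.ne N)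
  have hC0 : 0 ≤ C := by simpa [supd_self] using (abs_nonneg _).trans (hC k k)
  have e : imK N ε g k (x + pv N m, β) - chi N ε (pv N m) * (gL N ε g k (x, β) - gPl k (x, β)) =
      -∑ n ∈ bK.erase m, chi N ε (pv N n) * gPl (k.1 + pv N n, k.2) (x + pv N m, β) := by
    rw [imK, ← Finset.add_sum_erase _ _ hm, gL_per, gPl_shift (pv N m) k (x, β)]
    ring
  rw [e, abs_neg]
  refine (Finset.abs_sum_le_sum_abs _ _).trans ((Finset.sum_le_card_nsmul _ _ (4 * C / N) fun n hn => ?_).trans ?_)
  · rw [abs_mul, abs_chi, one_mul]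
    refine (hC _ _).trans ?_
    have h1 := glb_far (N := N) (Finset.ne_of_mem_erase hn) k.1 x
    have h2 : (N : ℝ) ≤ 4 * supd (k.1 + pv N n) (x + pv N m) := by exact_mod_cast (by omega : N ≤ 4 * supd (k.1 + pv N n) (x + pv N m))
    rw [div_le_div_iff₀ (by positivity) hN]
    nlinarith
  · rw [nsmul_eq_mul]
    refine mul_le_mul_of_nonneg_right ?_ (by positivity)
    exact_mod_cast (Finset.card_erase_le (s := bK) (a := m)).trans exists_bK.choose_spec.2

theorem imK_osc [NeZero N] {ε : Sec} {κ : ℝ} (hA : Adm N ε κ) {g : IT N → IT N → ℝ} (hg : IsKerT N ε κ g) (k : HE) {M : ℝ}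
    (hM : ∀ y ∈ box k.1 (37 * N), ∀ β, |imK N ε g k (y, β)| ≤ M) {x y : Site} (hx : supd x k.1 ≤ N) (hy : y ∈ box x (2 * N)) (β : Fin 4) :
    |imK N ε g k (y, β) - imK N ε g k (x, β)| ≤ M / 2 := by
  have hN := Nat.pos_of_ne_zero (NeZero.ne N)
  have hN' : (0 : ℝ) < N := by exact_mod_cast hN
  obtain ⟨c, hc⟩ := imK_op hA hg k
  have h := lip_box (fun y => imK N ε g k (y, β)) (g := 2 * M / (32 * N : ℕ) + 0 * (32 * N : ℕ)) hy fun w hw α =>
    grad_rhs (fun y => imK N ε g k (y, β)) w (32 * N) M 0 (by omega) (fun z hz => by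
      rw [harm_of_const (c := c) (fun v hv => hc v (by
        have := supd_triangle v z k.1
        have := supd_triangle z w k.1
        have := supd_triangle w x k.1
        rw [mem_box] at *
        omega)), abs_zero]) (fun z hz => hM z (by
        have := supd_triangle z w k.1
        have := supd_triangle w x k.1
        rw [mem_box] at *
        omega) β) α
  refine h.trans (le_of_eq ?_)
  push_cast
  field_simp
  ring

/-- **kernel estimate** -/
theorem gL_bd : ∃ C : ℝ, ∀ (N : ℕ) [NeZero N] (ε : Sec) (κ : ℝ) (g : IT N → IT N → ℝ), Adm N ε κ → IsKerT N ε κ g →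
    ∀ i j : HE, 4 * supd i.1 j.1 ≤ 3 * N → |gL N ε g i j - gPl i j| ≤ C / N := by
  obtain ⟨C, hC⟩ := gPl_bound
  refine ⟨2 * (4 + 9 * C) + 5 * (75 ^ 2 * (4 * C)), fun N _ ε κ g hA hg k j hj => ?_⟩
  have hN := Nat.pos_of_ne_zero (NeZero.ne N)
  have hN' : (1 : ℝ) ≤ N := by exact_mod_cast hN
  have hC0 : 0 ≤ C := by simpa [supd_self] using (abs_nonneg _).trans (hC k k)
  have hD : ∀ i : HE, i ∈ ((box k.1 N).filter fun x => 4 * supd k.1 x ≤ 3 * N) ×ˢ (Finset.univ : Finset (Fin 4)) ↔
      4 * supd k.1 i.1 ≤ 3 * N := fun i => by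
    simp only [Finset.mem_product, Finset.mem_filter, Finset.mem_univ, and_true, mem_box, supd_comm i.1]
    omega
  obtain ⟨⟨x, β⟩, hx, hmax⟩ := Finset.exists_max_image _ (fun i => |gL N ε g k i - gPl k i|) ⟨j, (hD j).2 hj⟩
  simp only [hD] at hx hmax
  refine (hmax j hj).trans ?_
  set M := |gL N ε g k (x, β) - gPl k (x, β)| with hMd
  set B : ℝ := 75 ^ 2 * (4 * C / N) with hB
  have hB0 : 0 ≤ B := by positivity
  have hnear : ∀ y : XT N, 2 * supd k.1 (near N k.1 y) ≤ N := fun y => by rw [supd_near]; exact two_dT_le _ _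
  have hM : ∀ y ∈ box k.1 (37 * N), ∀ γ, |imK N ε g k (y, γ)| ≤ M + B := fun y hy γ => by
    obtain ⟨m, hm⟩ := toTorus_eq_iff.1 (toTorus_near k.1 (toTorus N y))
    have h1 := hnear (toTorus N y)
    have h2 := imK_near ε g k hC (x := near N k.1 (toTorus N y)) (m := m) (by omega)
      (glb_box (N := N) (k := k.1) (x := near N k.1 (toTorus N y)) (by rw [← hm]; have := mem_box.1 hy; omega)) γ
    have h3 := hmax (near N k.1 (toTorus N y), γ) (by simp only; omega)
    rw [← hm] at h2
    have h4 := abs_sub_abs_le_abs_sub (imK N ε g k (y, γ))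
      (chi N ε (pv N m) * (gL N ε g k (near N k.1 (toTorus N y), γ) - gPl k (near N k.1 (toTorus N y), γ)))
    rw [abs_mul, abs_chi, one_mul] at h4
    linarith
  have h0 : ∀ y, 4 * supd k.1 y ≤ 3 * N → |imK N ε g k (y, β) - (gL N ε g k (y, β) - gPl k (y, β))| ≤ B := fun y hy => by
    have := imK_near ε g k hC hy (m := 0) (by simp [mem_bK, supd_self]) β
    rwa [chi_pv, show pv N 0 = 0 by simp [pv], add_zero, show sgn ε.1 (0 : Site).1 * sgn ε.2 (0 : Site).2 = 1 by simp [sgn],
      one_mul] at this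
  have hxk : supd x k.1 ≤ N := by rw [supd_comm]; omega
  have key : M ≤ (4 + 9 * C) / N + 2 * B + (M + B) / 2 := by
    rcases hA with ⟨hε, hκ⟩ | ⟨rfl, hκ⟩
    · obtain ⟨m, hm, hs, hχ⟩ : ∃ m ∈ bK, x + pv N m ∈ box x (2 * N) ∧ chi N ε (pv N m) = -1 := by
        obtain ⟨a, b⟩ := ε
        cases a
        · cases b
          · exact absurd rfl hε
          · exact ⟨(0, 1), by simp [mem_bK, supd], by simp [mem_box, supd, pv]; omega, by simp [chi_pv, sgn]⟩
        · exact ⟨(1, 0), by simp [mem_bK, supd], by simp [mem_box, supd, pv]; omega, by simp [chi_pv, sgn]⟩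
      have h1 := imK_near ε g k hC hx hm β
      have h2 := imK_osc (Or.inl ⟨hε, hκ⟩) hg k hM hxk hs β
      have h3 := h0 x hx
      have h4 : 0 ≤ (4 + 9 * C) / N := by positivity
      rw [hχ] at h1
      have h5 : 0 ≤ M := abs_nonneg _
      rw [abs_le] at h1 h2 h3
      refine abs_le.2 ⟨?_, ?_⟩ <;> linarith [h1.1, h1.2, h2.1, h2.2, h3.1, h3.2]
    · have h1 : ∀ y : XT N, |(gL N (false, false) g k (x, β) - gPl k (x, β)) -
          (g (piH N k) (y, β) - gPl k (near N k.1 y, β))| ≤ 2 * B + (M + B) / 2 := fun y => by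
        have h2 := hnear y
        have h3 := h0 (near N k.1 y) (by omega)
        have h4 := h0 x hx
        have h5 := imK_osc (Or.inr ⟨rfl, hκ⟩) hg k hM hxk (y := near N k.1 y) (by
          have := supd_triangle (near N k.1 y) k.1 x
          rw [supd_comm] at h2
          rw [mem_box]
          omega) β
        have h6 : gL N (false, false) g k (near N k.1 y, β) = g (piH N k) (y, β) := by
          simp only [gL, chi_ff, one_mul, piH, toTorus_near]
        rw [h6] at h3
        rw [abs_le] at h3 h4 h5 ⊢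
        constructor <;> linarith [h3.1, h3.2, h4.1, h4.2, h5.1, h5.2]
      have h2 : |∑ y : XT N, g (piH N k) (y, β)| ≤ 4 * N := by
        have := sum_ker_le (by rw [hκ, div_le_one (by positivity)]; linarith) hg (piH N k) β
        rw [abs_mul, hκ, div_mul_eq_mul_div, div_le_iff₀ (by positivity)] at this
        linarith
      have h3 : |∑ y : XT N, gPl k (near N k.1 y, β)| ≤ 9 * C * N := by
        refine (Finset.abs_sum_le_sum_abs _ _).trans ?_
        have hi : Function.Injective (near N k.1) := fun a b h => by rw [← toTorus_near k.1 a, h, toTorus_near]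
        calc ∑ y : XT N, |gPl k (near N k.1 y, β)| ≤ ∑ y : XT N, C * (1 / ((supd k.1 (near N k.1 y) : ℝ) + 1)) :=
              Finset.sum_le_sum fun y _ => by rw [mul_one_div]; exact hC _ _
          _ = C * ∑ z ∈ Finset.univ.image (near N k.1), 1 / ((supd k.1 z : ℝ) + 1) := by
              rw [Finset.sum_image hi.injOn, Finset.mul_sum]
          _ ≤ C * (8 * N + 1) := by
              refine mul_le_mul_of_nonneg_left ((Finset.sum_le_sum_of_subset_of_nonneg (fun z hz => ?_)
                fun _ _ _ => by positivity).trans (sum_inv_box k.1 N)) hC0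
              obtain ⟨y, -, rfl⟩ := Finset.mem_image.1 hz
              have := hnear y
              rw [mem_box, supd_comm]
              omega
          _ ≤ 9 * C * N := by nlinarith
      have h4 := (Finset.abs_sum_le_sum_abs _ _).trans (Finset.sum_le_card_nsmul Finset.univ _ _ fun y _ => h1 y)
      rw [Finset.sum_sub_distrib, Finset.sum_const, Finset.sum_sub_distrib, Finset.card_univ, Fintype.card_prod, ZMod.card,
        nsmul_eq_mul, nsmul_eq_mul] at h4
      have h5 : ((N * N : ℕ) : ℝ) * M ≤ (N * N : ℕ) * (2 * B + (M + B) / 2) + (4 + 9 * C) * N := by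
        have h6 := abs_sub_abs_le_abs_sub (((N * N : ℕ) : ℝ) * (gL N (false, false) g k (x, β) - gPl k (x, β)))
          (∑ y : XT N, g (piH N k) (y, β) - ∑ y : XT N, gPl k (near N k.1 y, β))
        have h7 := abs_sub (∑ y : XT N, g (piH N k) (y, β)) (∑ y : XT N, gPl k (near N k.1 y, β))
        rw [abs_mul, Nat.abs_cast, ← hMd] at h6
        linarith
      have h6 : (4 + 9 * C) * N = (N * N : ℕ) * ((4 + 9 * C) / N) := by
        push_cast
        field_simp
      rw [h6, ← mul_add] at h5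
      have := le_of_mul_le_mul_left h5 (by positivity)
      linarith
  have e : (2 * (4 + 9 * C) + 5 * (75 ^ 2 * (4 * C))) / N = 2 * ((4 + 9 * C) / N) + 5 * B := by
    rw [hB]
    ring
  rw [e]
  linarith

end Crest.Agent.R165.E
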