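import Crest.Agent.R165.E.Defs

/-! # R165/E (torus, owner helper12): matrix form -/

set_option autoImplicit false
noncomputable section
open Classical Crest.ProbabilityR.IsingModel

namespace Crest.Agent.R165.E
open BA

variable {N : ℕ}

theorem antisym_a0T : Antisym (a0T N) := by
  rintro ⟨x, α⟩ ⟨y, β⟩
  by_cases h : x = y
  · subst h
    fin_cases α <;> fin_cases β <;> simp [a0T, A0]
  · simp [a0T, h, Ne.symm h]

theorem antisym_g0T' : Antisym (g0T N) := by
  rintro ⟨x, α⟩ ⟨y, β⟩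
  by_cases h : x = y
  · subst h
    fin_cases α <;> fin_cases β <;> simp [g0T, G0]
  · simp [g0T, h, Ne.symm h]

theorem mata_dv (α : Fin 4) : dv (α + 2) = -dv α := by
  fin_cases α <;> simp [dv]

theorem mata_sgA (α : Fin 4) : sgA (α + 2) = -sgA α := by
  fin_cases α <;> simp [sgA]

theorem mata_opp_piH [NeZero N] (i : HE) : piH N (oppHE (liftH (piH N i))) = piH N (oppHE i) := by
  simp only [piH, oppHE, liftH, toTorus_add, toTorus_lift]

theorem mata_opp_opp [NeZero N] (i : IT N) :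
    piH N (oppHE (liftH (piH N (oppHE (liftH i))))) = i := by
  rw [mata_opp_piH, oppHE_oppHE, piH_liftH]

/-- `oppHE_oppHE`, `chi_shift`, `chi_of_mem` -/
theorem antisym_qT [NeZero N] (ε : Sec) (t : ℝ) : Antisym (qT N ε t) := by
  intro i j
  by_cases h : j = piH N (oppHE (liftH i))
  · have h' : i = piH N (oppHE (liftH j)) := by rw [h, mata_opp_opp]
    rw [qT, qT, if_pos h, if_pos h']
    have h1 : j.1 = toTorus N (lift i.1 + dv i.2) := by rw [h]; rfl
    have h2 : j.2 = i.2 + 2 := by rw [h]; rfl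
    have h3 := chi_shift ε (x := lift j.1) (y := lift i.1 + dv i.2) (by rw [toTorus_lift, h1])
      (dv j.2)
    rw [chi_of_mem ε (lift_mem j.1), mul_one, h2, mata_dv, add_neg_cancel_right,
      chi_of_mem ε (lift_mem i.1), one_mul] at h3
    rw [h2, mata_dv, h3, mata_sgA]
    ring
  · have h' : i ≠ piH N (oppHE (liftH j)) := fun e => h (by rw [e, mata_opp_opp])
    simp [qT, h, h']

theorem antisym_jT (κ : ℝ) : Antisym (jT N κ) := by
  rintro ⟨x, α⟩ ⟨y, β⟩
  fin_cases α <;> fin_cases β <;> simp [jT, j4]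

theorem sum_a0T_g0T [NeZero N] (i k : IT N) : ∑ j, a0T N i j * g0T N k j = if i = k then 1 else 0 := by
  obtain ⟨x, α⟩ := i
  obtain ⟨y, β⟩ := k
  rw [Fintype.sum_prod_type, Finset.sum_eq_single x (fun z _ hz => by simp [a0T, hz.symm])
    (fun h => absurd (Finset.mem_univ _) h)]
  by_cases h : x = y
  · subst h
    fin_cases α <;> fin_cases β <;> simp [a0T, g0T, G0, A0, Fin.sum_univ_four]
  · simp [g0T, h, Ne.symm h]

/-- the torus operator is `opA` on quasi-periodic lifts (`opA_eq`, `chi_shift`, `Fintype.sum_prod_type`) -/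
theorem sum_aT [NeZero N] (ε : Sec) (t κ : ℝ) (f : IT N → ℝ) (i : HE) :
    chi N ε i.1 * ∑ j, aT N ε t κ (piH N i) j * f j =
      opA (fun _ => t) (up N ε f) i + chi N ε i.1 * (κ / (N : ℝ) ^ 2) * ∑ β, j4 i.2 β * ∑ y : XT N, f (y, β) := by
  have h1 : ∑ j, a0T N (piH N i) j * f j = ∑ β, A0 i.2 β * f (toTorus N i.1, β) := by
    rw [Fintype.sum_prod_type, Finset.sum_eq_single (toTorus N i.1)
      (fun z _ hz => by simp [a0T, piH, hz.symm]) (fun h => absurd (Finset.mem_univ _) h)]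
    simp [a0T, piH]
  have h2 : ∑ j, qT N ε t (piH N i) j * f j =
      sgA i.2 * t * chi N ε (lift (toTorus N i.1) + dv i.2) * f (piH N (oppHE i)) := by
    simp only [qT, mata_opp_piH, ite_mul, zero_mul, Finset.sum_ite_eq', Finset.mem_univ, if_true]
    rfl
  have h3 : ∑ j, jT N κ (piH N i) j * f j =
      κ / (N : ℝ) ^ 2 * ∑ β, j4 i.2 β * ∑ y : XT N, f (y, β) := by
    rw [Fintype.sum_prod_type, Finset.sum_comm, Finset.mul_sum]
    refine Finset.sum_congr rfl fun β _ => ?_
    rw [Finset.mul_sum, Finset.mul_sum]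
    refine Finset.sum_congr rfl fun y _ => ?_
    simp only [jT, piH]
    ring
  have h4 := chi_shift ε (x := lift (toTorus N i.1)) (y := i.1) (toTorus_lift _) (dv i.2)
  rw [chi_of_mem ε (lift_mem _), mul_one] at h4
  have h5 := chi_sq (N := N) ε i.1
  simp only [aT, Pi.add_apply, add_mul, Finset.sum_add_distrib]
  rw [h1, h2, h3, h4, opA_eq, mul_add, mul_add, Finset.mul_sum]
  have h6 : ∑ β, chi N ε i.1 * (A0 i.2 β * f (toTorus N i.1, β)) =
      ∑ β, A0 i.2 β * up N ε f (i.1, β) := by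
    refine Finset.sum_congr rfl fun β _ => ?_
    simp only [up, piH]
    ring
  have h7 : up N ε f (oppHE i) = chi N ε (i.1 + dv i.2) * f (piH N (oppHE i)) := rfl
  rw [h6, h7]
  linear_combination (sgA i.2 * t * chi N ε (i.1 + dv i.2) * f (piH N (oppHE i))) * h5

theorem qT_smul (ε : Sec) (t : ℝ) : qT N ε t = t • qT N ε 1 := by
  funext i j
  simp only [qT, Pi.smul_apply, smul_eq_mul]
  split_ifs <;> ring

theorem quad_add {I : Type} (s : Finset I) (a b : I → I → ℝ) : quad s (a + b) = quad s a + quad s b := by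
  simp only [quad, Pi.add_apply, add_smul, Finset.sum_add_distrib, smul_add]

theorem matb_sum [NeZero N] {M : Type} [AddCommMonoid M] (Φ : Edge → M) (h : ∀ e, Φ (red N e) = Φ e) :
    ∑ x ∈ dom N, ∑ α, Φ (edgeOf x α) = ∑ e ∈ EN N, Φ e + ∑ e ∈ EN N, Φ e := by
  have h1 : ∀ j a, ∑ x ∈ dom N, Φ (x - a, j) = ∑ x ∈ dom N, Φ (x, j) := fun j a => by
    simp only [sub_eq_add_neg]
    refine sum_dom_shift (fun x => Φ (x, j)) (fun x n => ?_) _
    rw [← h, ← h (x, j)]
    exact congrArg (fun y => Φ (y, j)) (redS_eq_iff.2 (by rw [toTorus_add, toTorus_pv, add_zero]))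
  simp only [EN, Finset.sum_product, Fin.sum_univ_four, Fin.sum_univ_two, Finset.sum_add_distrib]
  rw [add_assoc]
  exact congrArg₂ _ rfl (congrArg₂ _ (h1 0 (1, 0)) (h1 1 (0, 1)))

/-- the inner sum keeps `j = opp i`; `Fintype.sum_prod_type`, `Fin.sum_univ_four`; the terms `α = 2, 3` are reindexed by a shift
(`sum_dom_shift`) and `th_swap`; `Phi_eM` -/
theorem quad_qT [NeZero N] (ε : Sec) (t : ℝ) :
    quad Finset.univ (qT N ε t) = ((∑ e ∈ EN N, t • Phi N ε (eM id e) : Ev (IT N)) : Gr (IT N)) := by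
  have h1 : ∀ i : IT N, ∑ j, qT N ε t i j • (th i * th j) =
      ((t • Phi N ε (eM id (edgeOf (lift i.1) i.2)) : Ev (IT N)) : Gr (IT N)) := fun i => by
    simp only [qT, ite_smul, zero_smul, Finset.sum_ite_eq', Finset.mem_univ, if_true]
    have h2 : chi N ε (liftH i).1 = 1 := chi_of_mem ε (lift_mem _)
    rcases oppHE_cases (liftH i) with h | h
    · have h3 : eM id (edgeOf (lift i.1) i.2) = th2 (liftH i) (oppHE (liftH i)) := congrArg₂ th2 h.1 h.2.1
      rw [h3, Phi_th2, h2, piH_liftH, show sgA i.2 = 1 from h.2.2, one_mul, one_mul, smul_smul]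
      rfl
    · have h3 : eM id (edgeOf (lift i.1) i.2) = th2 (oppHE (liftH i)) (liftH i) := congrArg₂ th2 h.2.1 h.1
      rw [h3, Phi_th2, h2, piH_liftH, show sgA i.2 = -1 from h.2.2, mul_one, smul_smul, th_swap, neg_one_mul, neg_mul,
        neg_smul_neg]
      rfl
  rw [quad, Finset.sum_congr rfl fun i _ => h1 i, ← AddSubmonoidClass.coe_finsetSum, Fintype.sum_prod_type,
    ← sum_dom fun x => ∑ α, t • Phi N ε (eM id (edgeOf x α)),
    matb_sum (fun e => t • Phi N ε (eM id e)) fun e => by rw [Phi_eM_red], ← two_smul ℝ, SetLike.val_smul, smul_smul]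
  norm_num

theorem quad_a0T [NeZero N] :
    quad Finset.univ (a0T N) = ((∑ x ∈ dom N, a0M (piH N) x : Ev (IT N)) : Gr (IT N)) := by
  rw [quad, Fintype.sum_prod_type, Finset.smul_sum, sum_dom, AddSubmonoidClass.coe_finsetSum]
  refine Finset.sum_congr rfl fun x _ => ?_
  have h1 : ∀ α, ∑ j, a0T N (x, α) j • (th (x, α) * th j) = ∑ β, ((if α < β then th (x, α) * th (x, β) else 0) +
      if β < α then th (x, β) * th (x, α) else 0) := fun α => by
    rw [Fintype.sum_prod_type, Finset.sum_eq_single_of_mem x (Finset.mem_univ _) fun y _ hy => by simp [a0T, hy.symm]]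
    refine Finset.sum_congr rfl fun β _ => ?_
    rcases lt_trichotomy α β with h | rfl | h
    · simp [a0T, A0, h, h.not_gt]
    · simp [a0T, A0]
    · rw [th_swap (x, β), a0T, if_pos rfl, A0, if_neg h.not_gt, if_pos h, if_neg h.not_gt, if_pos h]
      simp
  have h2 : ((a0M (piH N) (lift x) : Ev (IT N)) : Gr (IT N)) = ∑ α, ∑ β, if α < β then th (x, α) * th (x, β) else 0 := by
    simp only [a0M, AddSubmonoidClass.coe_finsetSum, piH, toTorus_lift]
    refine Finset.sum_congr rfl fun α _ => Finset.sum_congr rfl fun β _ => ?_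
    split_ifs <;> rfl
  simp only [h1, Finset.sum_add_distrib]
  rw [Finset.sum_comm (f := fun α β : Fin 4 => if β < α then th (x, β) * th (x, α) else 0), ← h2]
  module

/-- `quad univ (jT N κ) = (κ / N²) • (η₀ * η₁)`, `η_a = ∑ y, th (y, a) = ι (∑ ..)`; `ExteriorAlgebra.ι_sq_zero`, `iota_swap` -/
theorem quad_jT_sq [NeZero N] (κ : ℝ) : quad Finset.univ (jT N κ) * quad Finset.univ (jT N κ) = 0 := by
  let η : Fin 4 → Gr (IT N) := fun a => ExteriorAlgebra.ι ℝ (∑ y : XT N, Finsupp.single (y, a) (1 : ℝ))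
  have h1 : quad Finset.univ (jT N κ) = (1 / 2 : ℝ) • ∑ α, ∑ β, (κ / (N : ℝ) ^ 2 * j4 α β) • (η α * η β) := by
    simp only [quad, η, map_sum, Finset.sum_mul_sum, Finset.smul_sum, Fintype.sum_prod_type_right (α₂ := Fin 4)]
    exact Finset.sum_congr rfl fun α _ => Finset.sum_comm
  have h2 : quad Finset.univ (jT N κ) = (κ / (N : ℝ) ^ 2) • (η 0 * η 1) := by
    have h3 : η 1 * η 0 = -(η 0 * η 1) := iota_swap _ _
    rw [h1]
    simp [Fin.sum_univ_four, j4, h3]
    module
  rw [h2, smul_mul_smul_comm, mul_assoc, ← mul_assoc (η 1), iota_swap, neg_mul, mul_assoc, ExteriorAlgebra.ι_sq_zero]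
  simp

theorem jT_neg (κ : ℝ) : jT N (-κ) = (-1 : ℝ) • jT N κ := by
  funext i j
  simp only [jT, Pi.smul_apply, smul_eq_mul]
  ring

/-- `exp (Q + K) = exp Q * (1 + K)` (`IsNilpotent.exp_add_of_commute`, `commute_of_even`, `exp_real` with `k = 2`) -/
theorem exp_avg [NeZero N] (q : IT N → IT N → ℝ) (κ : ℝ) :
    IsNilpotent.exp (quad Finset.univ (q + jT N 0)) = (1 / 2 : ℝ) • (IsNilpotent.exp (quad Finset.univ (q + jT N κ)) +
      IsNilpotent.exp (quad Finset.univ (q + jT N (-κ)))) := by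
  have h1 : ∀ κ, IsNilpotent.exp (quad Finset.univ (q + jT N κ)) =
      IsNilpotent.exp (quad Finset.univ q) * (1 + quad Finset.univ (jT N κ)) := fun κ => by
    rw [quad_add, IsNilpotent.exp_add_of_commute (commute_of_even (quad_even _ _) _) (quad_nilpotent _ _)
      (quad_nilpotent _ _), exp_real (k := 2) ((sq _).trans (quad_jT_sq κ))]
    simp [Finset.sum_range_succ]
  have h2 : jT N 0 = (0 : ℝ) • jT N 0 := by
    funext i j
    simp [jT]
  rw [h1, h1, h1, jT_neg, h2, quad_smul, quad_smul, ← mul_add, ← mul_smul_comm]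
  congr 1
  module

/-- every torus edge is counted twice with weight `1/2` (`sum_dom_shift`, `Phi_eM_red`) -/
theorem sum_pLoc [NeZero N] (ε : Sec) (r t : ℝ) :
    ∑ x ∈ dom N, Phi N ε (pLoc id (fun _ => r) wPl (fun _ => t) x) =
      (r ^ 2 - 1) • ∑ x ∈ dom N, a0M (piH N) x + ∑ e ∈ EN N, (r ^ 2 * t - tc) • Phi N ε (eM id e) := by
  simp only [pLoc, map_add, map_smul, map_sum, Phi_a0M, Finset.sum_add_distrib, wPl]
  rw [matb_sum (fun e => (1 / 2 * (r * r * t - tc)) • Phi N ε (eM id e)) fun e => by rw [Phi_eM_red],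
    ← Finset.smul_sum, ← Finset.smul_sum, ← Finset.smul_sum]
  module

/-- `Matrix.det_submatrix_equiv_self` with `Equiv.subtypeUnivEquiv` -/
theorem det_univ {I : Type} [Fintype I] (a : I → I → ℝ) :
    (Matrix.of fun i j : ↥(Finset.univ : Finset I) => a i j).det = (Matrix.of a).det := by
  rw [← Matrix.det_submatrix_equiv_self
    (Equiv.subtypeUnivEquiv (p := fun i : I => i ∈ (Finset.univ : Finset I)) Finset.mem_univ)
    (Matrix.of a)]
  congr 1

/-- `a0T = 1 ⊗ₖ A0` (`Matrix.det_kronecker`), or `det_aT` with `t = κ = 0` -/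
theorem det_a0T [NeZero N] : (Matrix.of (a0T N)).det = 1 := by
  have h1 : (Matrix.of (a0T N)).submatrix (Equiv.prodComm (Fin 4) (XT N)) (Equiv.prodComm (Fin 4) (XT N)) =
      Matrix.blockDiagonal fun _ => Matrix.of A0 := by
    ext ⟨α, x⟩ ⟨β, y⟩
    rw [Matrix.blockDiagonal_apply]
    simp [a0T]
  have h2 : Matrix.of A0 = !![0, 1, 1, 1; -1, 0, 1, 1; -1, -1, 0, 1; -1, -1, -1, 0] := by
    ext α β
    fin_cases α <;> fin_cases β <;> simp [A0]
  have h3 : (Matrix.of A0).det = 1 := by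
    rw [h2]
    simp [Matrix.det_succ_row_zero, Fin.sum_univ_succ, Fin.succAbove]
    norm_num
  rw [← Matrix.det_submatrix_equiv_self (Equiv.prodComm (Fin 4) (XT N)), h1, Matrix.det_blockDiagonal]
  simp [h3]

theorem mata_antisym_q [NeZero N] (ε : Sec) (t κ : ℝ) : Antisym (qT N ε t + jT N κ) := by
  intro i j
  simp only [Pi.add_apply]
  rw [antisym_qT ε t i j, antisym_jT κ i j]
  ring

/-- `gauss_exp_sq`, `det_univ`, `det_a0T` -/
theorem PT_sq [NeZero N] (ε : Sec) (t κ : ℝ) : PT N ε t κ ^ 2 = (Matrix.of (aT N ε t κ)).det := by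
  have h := gauss_exp_sq Finset.univ (antisym_a0T (N := N)) (mata_antisym_q ε t κ) antisym_g0T'
    fun i _ k _ => by convert sum_a0T_g0T i k
  have h1 := (det_univ (a0T N)).trans (by convert det_a0T (N := N))
  have h2 := det_univ (aT N ε t κ)
  have h3 : PT N ε t κ ^ 2 * 1 = (Matrix.of (aT N ε t κ)).det := by
    rw [← h1, PT]
    convert h.trans h2
  rwa [mul_one] at h3

/-- `exists_cov` -/
theorem exists_kerT_of [NeZero N] (ε : Sec) (κ : ℝ) (h : PT N ε tc κ ≠ 0) : ∃ g, IsKerT N ε κ g := by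
  have ha : Antisym (aT N ε tc κ) := by
    intro i j
    rw [aT, aT, antisym_a0T i j, mata_antisym_q ε tc κ i j]
    ring
  have hd : (Matrix.of (aT N ε tc κ)).det ≠ 0 := by
    rw [← PT_sq]
    exact pow_ne_zero 2 h
  obtain ⟨g, hg, h1, -⟩ := exists_cov Finset.univ ha (by rw [det_univ]; convert hd)
  exact ⟨g, hg, fun i k => by convert h1 i (Finset.mem_univ _) k (Finset.mem_univ _)⟩

/-- `Matrix.right_inv_eq_right_inv` -/
theorem kerT_unique [NeZero N] {ε : Sec} {κ : ℝ} {g g' : IT N → IT N → ℝ}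
    (h : ∀ i k, ∑ j, aT N ε tc κ i j * g k j = if i = k then 1 else 0)
    (h' : ∀ i k, ∑ j, aT N ε tc κ i j * g' k j = if i = k then 1 else 0) : g = g' := by
  have h1 : Matrix.of (aT N ε tc κ) * (Matrix.of g).transpose = 1 := by
    ext i k
    rw [Matrix.mul_apply, Matrix.one_apply]
    exact h i k
  have h2 : Matrix.of (aT N ε tc κ) * (Matrix.of g').transpose = 1 := by
    ext i k
    rw [Matrix.mul_apply, Matrix.one_apply]
    exact h' i k
  have h3 := Matrix.right_inv_eq_right_inv h1 h2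
  funext i j
  exact congrFun (congrFun h3 j) i

end Crest.Agent.R165.E
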