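import Crest.Agent.R165.D3.Defs
import Crest.Agent.R165.B.Pot7
import Crest.Agent.R165.B3.DB

/-! # R165/E/StepTa1: elementary properties of the plane one-particle sets (helper42) -/

set_option autoImplicit false
set_option linter.unusedVariables false
noncomputable section
open Classical Crest.ProbabilityR.IsingModel

namespace Crest.Agent.R165.E
def sa1U (p : Par) (Γ : ℕ → ℝ) (j : ℕ) (x : Site) : Set (GV Ix) := (gPl0 0 Γ).Ups p j x
def sa1R (p : Par) (j : ℕ) : ℕ := if j = 0 then 3 else p.lam j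

theorem sa1_iff {p : Par} {Γ : ℕ → ℝ} {j : ℕ} {x : Site} {u : GV Ix} : u ∈ sa1U p Γ j x ↔
    (∀ i ∈ u.support, ∃ a : HE, i = Sum.inl a ∧ a.1 ∈ box x (sa1R p j)) ∧
      if j = 0 then Γ 0 * ∑ i ∈ u.support, |u i| ≤ 1 else ∀ f m s : Fn, Mult (box x (2 * p.lam j)) (p.lam j) m →
        SolOn wPl (box x (2 * p.lam j)) s → WB ∅ (box x (2 * p.lam j + 1)) (p.lam j) (Γ j / Real.sqrt (p.lam j)) s →
        (∀ i : HE, i.1 ∈ box x (p.lam j) → f i = m i * s i) → |pr u (extF f)| ≤ 1 := by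
  refine and_congr Iff.rfl (if_congr Iff.rfl rfl ?_).to_iff
  exact propext ⟨fun h f m s h1 h2 h3 h4 => h f ⟨m, s, h1, h2, h3, h4⟩,
    fun h f ⟨m, s, h1, h2, h3, h4⟩ => h f m s h1 h2 h3 h4⟩

theorem sa1_pr (u : GV Ix) (f : Ix → ℝ) : pr u f = ∑ i ∈ u.support, u i * f i := by
  simp [pr, Finsupp.linearCombination_apply, Finsupp.sum]

theorem sa1_pr_smul (t : ℝ) (u : GV Ix) (f : Ix → ℝ) : pr (t • u) f = t * pr u f :=
  map_smul (Finsupp.linearCombination ℝ f) t u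

theorem sa1_pr_smul' (t : ℝ) (u : GV Ix) (f : Fn) : pr (t • u) (extF f) = pr u (extF (t • f)) := by
  rw [sa1_pr_smul, sa1_pr, sa1_pr, Finset.mul_sum]
  refine Finset.sum_congr rfl fun i _ => ?_
  rcases i with a | q <;> simp [extF, mul_left_comm]

theorem sa1_sol {W : Set Site} {s : Fn} (h : SolOn wPl W s) (t : ℝ) : SolOn wPl W (t • s) := by
  intro x hx α
  have h1 : opA wPl (t • s) (x, α) = t * opA wPl s (x, α) := by
    have e : ∀ y n, sv (t • s) y n = t * sv s y n := fun y n => by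
      unfold sv
      split_ifs <;> simp
    simp only [opA, opp, e]
    ring
  rw [h1, h x hx α, mul_zero]

theorem sa1_shiftV (a : Site) (u : GV Ix) :
    shiftV a u = Finsupp.mapDomain (Sum.map (fun i : HE => ((i.1 + a, i.2) : HE)) id) u := by
  induction u using Finsupp.induction_linear with
  | zero => simp
  | add u v hu hv => rw [map_add, Finsupp.mapDomain_add, hu, hv]
  | single i t => rcases i with i | q <;> simp [shiftV, vmap, dl, dz]

theorem sa1_ups_smul {p : Par} {Γ : ℕ → ℝ} {j : ℕ} (hΓ : 0 ≤ Γ j) {x : Site} {u : GV Ix} (h : u ∈ sa1U p Γ j x) {t : ℝ} (ht : |t| ≤ 1) :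
    t • u ∈ sa1U p Γ j x := by
  rw [sa1_iff] at h ⊢
  refine ⟨fun i hi => h.1 i (Finsupp.support_smul hi), ?_⟩
  have h2 := h.2
  split_ifs at h2 ⊢ with hj
  · subst hj
    refine le_trans (mul_le_mul_of_nonneg_left ?_ hΓ) h2
    refine le_trans (Finset.sum_le_sum fun i _ => ?_)
      (Finset.sum_le_sum_of_subset_of_nonneg Finsupp.support_smul fun _ _ _ => abs_nonneg _)
    rw [Finsupp.smul_apply, smul_eq_mul, abs_mul]
    exact mul_le_of_le_one_left (abs_nonneg _) ht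
  · intro f m s h3 h4 h5 h6
    rw [sa1_pr_smul, abs_mul]
    exact mul_le_one₀ ht (abs_nonneg _) (h2 f m s h3 h4 h5 h6)

theorem sa1_ups_shift {p : Par} {Γ : ℕ → ℝ} {j : ℕ} {x : Site} {u : GV Ix} (h : u ∈ sa1U p Γ j x) (a : Site) :
    shiftV a u ∈ sa1U p Γ j (x + a) := by
  have hi : Function.Injective (Sum.map (fun i : HE => ((i.1 + a, i.2) : HE)) (id : ℕ × Bool → ℕ × Bool)) := by
    refine Function.Injective.sumMap (fun i i' e => ?_) Function.injective_id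
    obtain ⟨e1, e2⟩ := Prod.ext_iff.1 e
    exact Prod.ext (add_right_cancel e1) e2
  rw [sa1_iff] at h ⊢
  rw [sa1_shiftV, Finsupp.mapDomain_support_of_injective hi]
  refine ⟨fun i hi => ?_, ?_⟩
  · obtain ⟨i', hi', rfl⟩ := Finset.mem_image.1 hi
    obtain ⟨b, rfl, hb⟩ := h.1 i' hi'
    exact ⟨_, rfl, add_mem_box.2 hb⟩
  have h2 := h.2
  split_ifs at h2 ⊢ with hj
  · rw [Finset.sum_image fun _ _ _ _ e => hi e]
    simpa only [Finsupp.mapDomain_apply hi] using h2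
  · intro f m s h3 h4 h5 h6
    have e : pr (Finsupp.mapDomain (Sum.map (fun i : HE => ((i.1 + a, i.2) : HE)) id) u) (extF f) =
        pr u (extF (shift a f)) := by
      rw [pr, Finsupp.linearCombination_mapDomain, pr]
      congr 2
      funext i
      rcases i with i | q <;> rfl
    rw [e]
    refine h2 _ (shift a m) (shift a s) (fun y hy α β γ δ => ?_) (fun y hy α => ?_) (fun y hy α => ?_)
      fun i hi => h6 _ (add_mem_box.2 hi)
    · simpa only [shift, dif, add_right_comm _ a] using h3 (y + a) (add_mem_box.2 hy) α β γ δ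
    · rw [opA_shift]
      exact h4 (y + a) (add_mem_box.2 hy) α
    · simpa only [shift, B3.dB_empty] using h5 (y + a) (add_mem_box.2 hy) α

theorem sa1_ups_scale {p : Par} {Γ Γ' : ℕ → ℝ} {j : ℕ} (hj : 1 ≤ j) (hΓ : 0 < Γ j) (hΓ' : 0 < Γ' j) {x : Site} {u : GV Ix}
    (h : u ∈ sa1U p Γ j x) : (Γ j / Γ' j) • u ∈ sa1U p Γ' j x := by
  rw [sa1_iff] at h ⊢
  refine ⟨fun i hi => h.1 i (Finsupp.support_smul hi), ?_⟩
  have h2 := h.2
  rw [if_neg (by omega)] at h2 ⊢
  intro f m s h3 h4 h5 h6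
  rw [sa1_pr_smul']
  refine h2 _ m ((Γ j / Γ' j) • s) h3 (sa1_sol h4 _) (fun y hy α => ?_) fun i hi => ?_
  · have h7 := mul_le_mul_of_nonneg_left (h5 y hy α) (sq_nonneg (Γ j / Γ' j))
    have e : Γ j / Γ' j * (Γ' j / Real.sqrt (p.lam j)) = Γ j / Real.sqrt (p.lam j) := by
      rw [← mul_div_assoc, div_mul_cancel₀ _ hΓ'.ne']
    rw [← mul_assoc, ← mul_assoc, ← mul_pow, ← mul_pow, e] at h7
    exact h7
  · simp only [Pi.smul_apply, smul_eq_mul, h6 i hi]
    ring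

theorem sa1_ups_half {p : Par} (hp : p.OK) {Γ : ℕ → ℝ} {j : ℕ} (h0 : 0 < Γ j) (h1 : 0 < Γ (j + 1)) (h2 : Γ (j + 1) ≤ 2 * Γ j)
    {x : Site} {u : GV Ix} (h : u ∈ sa1U p Γ j x) : (2 : ℝ) • u ∈ sa1U p Γ (j + 1) x := by
  have l8 : 8 ≤ p.lam j := (D3.lam_eq hp j).2.2.1
  have lL : 400 * p.lam j ≤ p.lam (j + 1) := by
    rw [(D3.lam_eq hp j).2.2.2.1]
    exact Nat.mul_le_mul_right _ hp.1
  have hsq : ∀ (G : ℝ) (l : ℕ), 1 ≤ l → (G / Real.sqrt l) ^ 2 * (l : ℝ) = G ^ 2 := fun G l hl => by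
    have : (0 : ℝ) < l := by exact_mod_cast hl
    rw [div_pow, Real.sq_sqrt this.le, div_mul_cancel₀ _ this.ne']
  have hr : sa1R p j ≤ p.lam j := by
    unfold sa1R
    split_ifs <;> omega
  rw [sa1_iff] at h ⊢
  refine ⟨fun i hi => ?_, ?_⟩
  · obtain ⟨b, rfl, hb⟩ := h.1 i (Finsupp.support_smul hi)
    exact ⟨b, rfl, box_mono x (show sa1R p j ≤ p.lam (j + 1) by omega) hb⟩
  rw [if_neg (Nat.succ_ne_zero j)]
  intro f m s h3 h4 h5 h6
  have hs : ∀ y ∈ box x (2 * p.lam j + 1), ∀ α, (2 * s (y, α)) ^ 2 * (p.lam j : ℝ) ≤ Γ j ^ 2 := fun y hy α => by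
    have h7 := h5 y (box_mono x (by omega) hy) α
    rw [B3.dB_empty, hsq _ _ (by omega)] at h7
    have h8 : (400 : ℝ) * p.lam j ≤ p.lam (j + 1) := by exact_mod_cast lL
    have h9 := mul_le_mul_of_nonneg_left h8 (sq_nonneg (s (y, α)))
    nlinarith [pow_le_pow_left₀ h1.le h2 2]
  have hu := h.2
  rw [sa1_pr_smul']
  split_ifs at hu with hj
  · subst hj
    refine le_trans ?_ hu
    rw [sa1_pr, Finset.mul_sum]
    refine (Finset.abs_sum_le_sum_abs _ _).trans (Finset.sum_le_sum fun i hi => ?_)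
    obtain ⟨b, rfl, hb⟩ := h.1 i hi
    rw [abs_mul, mul_comm]
    refine mul_le_mul_of_nonneg_right ?_ (abs_nonneg _)
    have h7 := hs b.1 (box_mono x (by omega) hb) b.2
    have h8 := (h3 b.1 (box_mono x (by omega) hb) b.2 0 0 0).1
    have h9 : (8 : ℝ) ≤ p.lam 0 := by exact_mod_cast l8
    have h10 : |2 * s b| ≤ Γ 0 := abs_le_of_sq_le_sq (by nlinarith [sq_nonneg (2 * s b)]) h0.le
    show |2 * f b| ≤ Γ 0
    rw [h6 b (box_mono x (by omega) hb), mul_left_comm, abs_mul]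
    exact (mul_le_of_le_one_left (abs_nonneg _) h8).trans h10
  · refine hu _ m ((2 : ℝ) • s) (fun y hy α β γ δ => ?_) (sa1_sol (fun y hy => h4 y (box_mono x (by omega) hy)) _)
      (fun y hy α => ?_) fun i hi => ?_
    · obtain ⟨a1, a2, a3, a4, a5⟩ := h3 y (box_mono x (by omega) hy) α β γ δ
      have b0 : (0 : ℝ) < p.lam j := by exact_mod_cast (by omega : 0 < p.lam j)
      have b1 : (p.lam j : ℝ) ≤ p.lam (j + 1) := by exact_mod_cast (by omega : p.lam j ≤ p.lam (j + 1))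
      have b2 := one_div_le_one_div_of_le b0 b1
      have b3 := one_div_le_one_div_of_le (pow_pos b0 2) (pow_le_pow_left₀ b0.le b1 2)
      exact ⟨a1, a2.trans b2, a3.trans b2, a4.trans b3, a5.trans b3⟩
    · rw [B3.dB_empty, hsq _ _ (by omega)]
      exact hs y hy α
    · simp only [Pi.smul_apply, smul_eq_mul, h6 i (box_mono x (by omega) hi)]
      ring

end Crest.Agent.R165.E
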