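import Crest.Agent.R165.E.Chart
import Crest.Agent.R165.E.Cross
import Crest.Agent.R165.E.StepTa1

/-! # R165/E (torus, owner helper12): one-particle sets and the analytic axioms of the torus step -/

set_option autoImplicit false
noncomputable section
open Classical Crest.ProbabilityR.IsingModel

namespace Crest.Agent.R165.E

variable {N : ℕ}

/-! ### task E/StepT-a (one-particle sets) -/

theorem ups_supp {p : Par} {Γ : ℕ → ℝ} {j : ℕ} {x : Site} {u : GV Ix} (h : u ∈ ups p Γ j x) :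
    ∀ i ∈ u.support, ∃ a : HE, i = Sum.inl a ∧ a.1 ∈ box x (rad p j) := h.1

theorem ups_smul {p : Par} {Γ : ℕ → ℝ} {j : ℕ} (hΓ : 0 ≤ Γ j) {x : Site} {u : GV Ix} (h : u ∈ ups p Γ j x) {t : ℝ} (ht : |t| ≤ 1) :
    t • u ∈ ups p Γ j x :=
  sa1_ups_smul hΓ h ht

/-- shift the multiplier and the solution (`shift`, `opA` commutes with shifts, `dB ∅ l x = l`); `pr (shiftV a u) (extF f) = pr u (extF (shift a f))` -/
theorem ups_shift {p : Par} {Γ : ℕ → ℝ} {j : ℕ} {x : Site} {u : GV Ix} (h : u ∈ ups p Γ j x) (a : Site) :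
    shiftV a u ∈ ups p Γ j (x + a) :=
  sa1_ups_shift h a

theorem ups_scale {p : Par} {Γ Γ' : ℕ → ℝ} {j : ℕ} (hj : 1 ≤ j) (hΓ : 0 < Γ j) (hΓ' : 0 < Γ' j) {x : Site} {u : GV Ix}
    (h : u ∈ ups p Γ j x) : (Γ j / Γ' j) • u ∈ ups p Γ' j x :=
  sa1_ups_scale hj hΓ hΓ' h

/-- a test function at scale `j+1` is `(Γ (j+1) / Γ j) √(λ_j/λ_{j+1}) ≤ 2/20` times a test function at scale `j`; for `j = 0` use
`|f| ≤ Γ 1 / √λ₁` on the support -/
theorem ups_half {p : Par} (hp : p.OK) {Γ : ℕ → ℝ} {j : ℕ} (h0 : 0 < Γ j) (h1 : 0 < Γ (j + 1)) (h2 : Γ (j + 1) ≤ 2 * Γ j)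
    {x : Site} {u : GV Ix} (h : u ∈ ups p Γ j x) : (2 : ℝ) • u ∈ ups p Γ (j + 1) x :=
  sa1_ups_half hp h0 h1 h2 h

theorem sta2_ext {I M : Type} [AddCommGroup M] [Module ℝ M] {T T' : GV I →ₗ[ℝ] M} {u : GV I}
    (h : ∀ i ∈ u.support, T (Finsupp.single i 1) = T' (Finsupp.single i 1)) : T u = T' u := by
  rw [← Finsupp.sum_single u, Finsupp.sum, map_sum, map_sum]
  refine Finset.sum_congr rfl fun i hi => ?_
  rw [← Finsupp.smul_single_one, map_smul, map_smul, h i hi]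

theorem sta2_TI_dl (ε : Sec) (a : HE) : TI N ε (Finsupp.single (Sum.inl a) 1) = chi N ε a.1 • dl (piH N a) :=
  D1.vmap_single _ _

theorem sta2_eq {x y : Site} (h : toTorus N x = toTorus N y) (hd : supd x y < N) : x = y := by
  obtain ⟨n, rfl⟩ := toTorus_eq_iff.1 h
  have key : ∀ k : ℤ, ((N : ℤ) * k).natAbs < N → k = 0 := fun k hk => by
    rw [Int.natAbs_mul, Int.natAbs_natCast] at hk
    by_contra h0
    have : 1 ≤ k.natAbs := by omega
    nlinarith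
  simp only [supd, pv, Prod.fst_add, Prod.snd_add, sub_add_cancel_left, Int.natAbs_neg, max_lt_iff] at hd
  simp [pv, key _ hd.1, key _ hd.2]

theorem TI_dz (ε : Sec) (k : ℕ) (b : Bool) : TI N ε (dz k b) = dz k b := by
  exact D1.vmap_single _ _

/-- `near N x₀ x = z + pv N n`; `TI u = TI (chi (pv n) • shiftV (pv n) u)` -/
theorem UT_cases [NeZero N] {ε : Sec} {p : Par} {o : Ob} {j : ℕ} (hΓ : 0 ≤ o.Gam j) {x : XT N} {v : GV (IxT N)}
    (h : v ∈ UT N ε p o j x) (x₀ : Site) :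
    (∃ u ∈ ups p o.Gam j (near N x₀ x), v = TI N ε u) ∨
      ∃ b t, |t| ≤ o.h ^ (-(1 / 2 : ℝ)) ∧ v = t • dz 0 b ∧ dT x (toTorus N o.y.1) ≤ rad p j := by
  obtain ⟨z, rfl, u, hu | ⟨k, b, t, hk, hy, ht, rfl⟩, rfl⟩ := h
  · obtain ⟨n, hn⟩ := toTorus_eq_iff.1 (toTorus_near x₀ (toTorus N z)).symm
    rw [ups_ob] at hu
    refine Or.inl ⟨chi N ε (pv N n) • shiftV (pv N n) u, hn ▸ ups_smul hΓ (ups_shift hu _) (abs_chi ε _).le, ?_⟩
    refine sta2_ext (T' := TI N ε ∘ₗ (chi N ε (pv N n) • shiftV (pv N n))) fun i hi => ?_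
    obtain ⟨a, rfl, -⟩ := ups_supp hu i hi
    have e1 : shiftV (pv N n) (Finsupp.single (Sum.inl a) 1) = Finsupp.single (Sum.inl (a.1 + pv N n, a.2)) 1 :=
      D1.vmap_single _ _
    have e2 : piH N (a.1 + pv N n, a.2) = piH N a := by simp only [piH, toTorus_add, toTorus_pv, add_zero]
    rw [LinearMap.comp_apply, LinearMap.smul_apply, map_smul, e1, sta2_TI_dl, sta2_TI_dl, e2, smul_smul, chi_add_pv,
      mul_left_comm, chi_sq, mul_one]
  · obtain rfl : k = 0 := Nat.lt_one_iff.1 hk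
    refine Or.inr ⟨b, t, ht, by rw [map_smul, TI_dz], (dT_le _ _).trans ?_⟩
    rw [supd_comm]
    exact mem_box.1 hy

theorem UT_src [NeZero N] {ε : Sec} {p : Par} {o : Ob} {j : ℕ} {x : XT N} {b : Bool} {t : ℝ} (ht : |t| ≤ o.h ^ (-(1 / 2 : ℝ)))
    (hx : dT x (toTorus N o.y.1) ≤ rad p j) : t • dz 0 b ∈ UT N ε p o j x := by
  refine ⟨near N o.y.1 x, toTorus_near _ _, t • dz 0 b, Or.inr ⟨0, b, t, Nat.one_pos, mem_box.2 ?_, ht, rfl⟩,
    by rw [map_smul, TI_dz]⟩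
  change supd o.y.1 _ ≤ rad p j
  rw [supd_near]
  exact ((GT N).d_comm _ _).trans_le hx

theorem sta2_inr (ε : Sec) {p : Par} {Γ : ℕ → ℝ} {j : ℕ} {x : Site} {u : GV Ix} (hu : u ∈ ups p Γ j x) (q : ℕ × Bool) :
    TI N ε u (Sum.inr q) = 0 := by
  refine sta2_ext (T := Finsupp.lapply (Sum.inr q) ∘ₗ TI N ε) (T' := 0) fun i hi => ?_
  obtain ⟨a, rfl, -⟩ := ups_supp hu i hi
  rw [LinearMap.comp_apply, sta2_TI_dl]
  simp [dl]

/-- hypothesis `hU` of `final_cst`, `bdT_cst` -/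
theorem UT_split {ε : Sec} {p : Par} {o : Ob} {j : ℕ} {x : XT N} {v : GV (IxT N)} (h : v ∈ UT N ε p o j x) :
    (∀ i ∈ v.support, ∃ a, i = Sum.inl a) ∨ ∃ k b t, |t| ≤ o.h ^ (-(1 / 2 : ℝ)) ∧ v = t • dz k b := by
  obtain ⟨z, rfl, u, hu | ⟨k, b, t, -, -, ht, rfl⟩, rfl⟩ := h
  · refine Or.inl fun i hi => ?_
    rcases i with a | q
    · exact ⟨a, rfl⟩
    · exact absurd (sta2_inr ε (ups_ob p o j z ▸ hu) q) (Finsupp.mem_support_iff.1 hi)
  · exact Or.inr ⟨k, b, t, ht, by rw [map_smul, TI_dz]⟩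

theorem bd_push (ε : Sec) {p : Par} {o : Ob} {j : ℕ} {Z : Finset Site} {F : Al} {c : ℝ} (h : o.g.Bd p j Z F c) :
    BT N ε p o j (Z.image (toTorus N)) (PhI N ε F) c := by
  refine GBd.gmap h (TI N ε) fun u hu => ?_
  obtain ⟨z, hz, hu⟩ := Set.mem_iUnion₂.1 hu
  exact Set.mem_iUnion₂.2 ⟨toTorus N z, Finset.mem_image_of_mem _ hz, z, rfl, u, hu, rfl⟩

/-- `GBd.gmap` with `SI`; `UT_cases`; `SI x (TI u) = u` for `u` supported near `x`; for the sources `near N x (π y) = y` -/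
theorem bd_pull [NeZero N] (ε : Sec) {p : Par} {o : Ob} {j : ℕ} (hΓ : 0 ≤ o.Gam j) {x : Site} {r : ℕ}
    (hx : 8 * supd o.y.1 x ≤ 5 * N) (hr : 8 * (r + rad p j) < N) {Z : Finset (XT N)} (hZ : ∀ z ∈ Z, dT (toTorus N x) z ≤ r)
    {F : AlT N} {c : ℝ} (h : BT N ε p o j Z F c) : o.g.Bd p j (Z.image (near N x)) (PsI N ε x F) c := by
  refine GBd.gmap h (SI N ε x) fun v hv => ?_
  obtain ⟨z, hz, hv⟩ := Set.mem_iUnion₂.1 hv
  have h1 : supd x (near N x z) ≤ r := by rw [supd_near]; exact hZ z hz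
  refine Set.mem_iUnion₂.2 ⟨near N x z, Finset.mem_image_of_mem _ hz, ?_⟩
  rcases UT_cases hΓ hv x with ⟨u, hu, rfl⟩ | ⟨b, t, ht, rfl, hd⟩
  · have e : SI N ε x (TI N ε u) = u := by
      refine sta2_ext (T := SI N ε x ∘ₗ TI N ε) (T' := LinearMap.id) fun i hi => ?_
      obtain ⟨a, rfl, ha⟩ := ups_supp hu i hi
      have h2 := mem_box.1 ha
      have h3 := supd_triangle x (near N x z) a.1
      rw [supd_comm (near N x z)] at h3
      have h4 : near N x (toTorus N a.1) = a.1 := near_toTorus (by omega)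
      have e1 : SI N ε x (dl (piH N a)) = chi N ε (near N x (piH N a).1) • dl (nearH N x (piH N a)) := D1.vmap_single _ _
      rw [LinearMap.comp_apply, sta2_TI_dl, map_smul, e1]
      simp only [piH, nearH, h4, smul_smul, chi_sq, one_smul, LinearMap.id_apply]
      rfl
    rw [e]
    exact Or.inl hu
  · have e1 : SI N ε x (dz 0 b) = dz 0 b := D1.vmap_single _ _
    rw [map_smul, e1]
    refine Or.inr ⟨0, b, t, Nat.one_pos, mem_box.2 ?_, ht, rfl⟩
    have h2 : supd (near N x z) (near N (near N x z) (toTorus N o.y.1)) ≤ rad p j := by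
      rw [supd_near, toTorus_near]; exact hd
    have h3 := supd_triangle o.y.1 x (near N x z)
    have h4 := supd_triangle o.y.1 (near N x z) (near N (near N x z) (toTorus N o.y.1))
    have h5 := sta2_eq (toTorus_near (near N x z) (toTorus N o.y.1)).symm (by omega)
    rw [← h5, supd_comm] at h2
    exact h2

theorem sta2_cst {H : Type} {v : GV (IxH H)} (hv : ∀ q, v (Sum.inr q) = 0) (q : ℕ × Bool) :
    vmap (Sum.elim (fun _ : H => (0 : GV (IxH H))) fun p => dz p.1 p.2) v (Sum.inr q) = 0 := by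
  have h : vmap (Sum.elim (fun _ : H => (0 : GV (IxH H))) fun p => dz p.1 p.2) v = (0 : GV (IxH H) →ₗ[ℝ] GV (IxH H)) v := by
    refine sta2_ext fun i hi => ?_
    rcases i with a | q
    · rw [D1.vmap_single]; rfl
    · exact absurd (hv q) (Finsupp.mem_support_iff.1 hi)
  rw [h]; rfl

/-- no source vector, no `τ` coefficient (`ctr_congr`, `ctr_zero`) -/
theorem coefT_far [NeZero N] {ε : Sec} {p : Par} {o : Ob} {j : ℕ} (hΓ : 0 ≤ o.Gam j) {x : XT N}
    (hx : rad p j < dT x (toTorus N o.y.1)) {F : AlT N} {c : ℝ} (h : BT N ε p o j {x} F c) : coefT [0] (cstA F) = 0 := by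
  have h1 : GBd {u : GV (IxT N) | u (Sum.inr (0, false)) = 0} (cstA F : Gr (IxT N)) c := by
    refine GBd.gmap h _ fun v hv => ?_
    obtain ⟨z, hz, hv'⟩ := Set.mem_iUnion₂.1 hv
    rw [Finset.mem_singleton.1 hz] at hv'
    refine sta2_cst (fun q => ?_) _
    rcases UT_cases hΓ hv' 0 with ⟨u, hu, h'⟩ | ⟨b, t, -, -, hd⟩
    · rw [h']; exact sta2_inr ε hu q
    · omega
  obtain ⟨L, h2, h3, -⟩ := h1
  have h4 : ctr (Finsupp.lapply (Sum.inr (0, false))) (cstA F : Gr (IxT N)) = 0 := by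
    rw [h3, map_list_sum, List.map_map]
    refine List.sum_eq_zero fun y hy => ?_
    obtain ⟨q, hq, rfl⟩ := List.mem_map.1 hy
    rw [Function.comp_apply, map_smul, R165.ctr_wedge_zero (h2 q hq), smul_zero]
  simp only [coefT, List.map_cons, List.map_nil, List.prod_cons, List.prod_nil, mul_one, dTau, LinearMap.comp_apply]
  rw [h4, map_zero, map_zero]

/-! ### task E/StepT-b -/

theorem stb1_TI_supp (ε : Sec) {A : Set Site} {u : GV Ix} (hu : ∀ i ∈ u.support, ∃ a : HE, i = Sum.inl a ∧ a.1 ∈ A)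
    {G : IT N → IT N → ℝ} {B : Set Site} {v : GV Ix} (hv : ∀ i ∈ v.support, ∃ a : HE, i = Sum.inl a ∧ a.1 ∈ B)
    {k : HE → HE → ℝ} (h : ∀ i j : HE, i.1 ∈ A → j.1 ∈ B → gL N ε G i j = k i j ∧ gL N ε G j i = k j i) :
    bil (extG G) (TI N ε u) (TI N ε v) = bil (extG k) u v := by
  rw [bil_TI]
  exact bil_congr (fun i j hi hj => by rw [(h i j hi hj).1, (h i j hi hj).2]) hu hv

theorem stb1_extG_zero {H : Type} : extG (0 : H → H → ℝ) = 0 := by
  funext i j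
  rcases i with i | i <;> rcases j with j | j <;> rfl

/-- `gram_net` with `l = ℓ_{j+1}`, `r = 6 l`; chart centred at `lift a`; `UT_cases`, `Cross.null` (`bil_src`), `Cross.push` with `TI`,
`bil_TI`, `bil_congr`, `gL_perK`, `cov_ob`; far cells: `perK_far` -/
theorem gram_stepT [NeZero N] (ε : Sec) {p : Par} (hp : p.OK) {o : Ob} {j : ℕ} (hΓ : 0 ≤ o.Gam j) (hN : 100 * p.l (j + 1) ≤ N)
    (hG : Gram (⋃ x, o.g.U p j x) (o.g.Cov p j) (1 / 60)) : Gram (⋃ x, UT N ε p o j x) (CovT N ε p j) (1 / 4) := by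
  obtain ⟨f1, f2, f3, f4, f5, f6, f7⟩ := lam_facts hp j
  obtain ⟨g1, -, g3, -, -, -, -⟩ := lam_facts hp (j + 1)
  obtain ⟨c1, c2, -⟩ := cov_facts hp j
  refine gram_net (GT N) (l := p.l (j + 1)) (by omega) (6 * p.l (j + 1)) _ (δ := 1 / 60) ?_ ?_ ?_
  · intro x y hxy u hu v hv
    change 6 * p.l (j + 1) < dT x y + 4 * p.l (j + 1) at hxy
    rcases UT_cases hΓ hu 0 with ⟨u, hu', rfl⟩ | ⟨b, t, -, rfl, -⟩
    · rcases UT_cases hΓ hv 0 with ⟨v, hv', rfl⟩ | ⟨b, t, -, rfl, -⟩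
      · rw [CovT, stb1_TI_supp ε (A := ↑(box (near N 0 x) (rad p j))) (ups_supp hu')
          (B := ↑(box (near N 0 y) (rad p j))) (ups_supp hv') (k := 0) fun a b ha hb => ?_, stb1_extG_zero, bil_zero]
        · rfl
        have a1 := (dT_le (N := N) _ _).trans (mem_box_supd.1 (Finset.mem_coe.1 ha))
        have a2 := (dT_le (N := N) _ _).trans (mem_box_supd.1 (Finset.mem_coe.1 hb))
        rw [toTorus_near] at a1 a2
        have a3 := dT_tri x (toTorus N a.1) y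
        have a4 := dT_tri (toTorus N a.1) (toTorus N b.1) y
        have a5 : dT x (toTorus N a.1) = dT (toTorus N a.1) x := (GT N).d_comm _ _
        have a6 : dT (toTorus N b.1) (toTorus N a.1) = dT (toTorus N a.1) (toTorus N b.1) := (GT N).d_comm _ _
        constructor
        · rw [gL, perK_far ε c2 (a := piH N a) (b := piH N b) (by change _ < dT (toTorus N a.1) (toTorus N b.1); omega),
            mul_zero]
          rfl
        · rw [gL, perK_far ε c2 (a := piH N b) (b := piH N a) (by change _ < dT (toTorus N b.1) (toTorus N a.1); omega),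
            mul_zero]
          rfl
      · rw [bil_swap, CovT, bil_src, neg_zero]
    · rw [CovT, bil_src]
  · intro a b hab
    change dT a b ≤ _ at hab
    let W : XT N → Set (GV Ix) := fun c => ⋃ x ∈ (GT N).ball c (2 * p.l (j + 1)), ups p o.Gam j (near N (lift a) x)
    have hW : ∀ c, W c ⊆ ⋃ x, o.g.U p j x := fun c u hu => by
      simp only [W, Set.mem_iUnion] at hu ⊢
      obtain ⟨x, -, hu⟩ := hu
      exact ⟨_, Or.inl hu⟩
    have hs : ∀ c, dT a c ≤ 6 * p.l (j + 1) → ∀ u ∈ W c, ∀ i ∈ u.support, ∃ e : HE, i = Sum.inl e ∧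
        e.1 ∈ {z | supd (lift a) z ≤ 9 * p.l (j + 1)} := fun c hc u hu i hi => by
      simp only [W, Set.mem_iUnion] at hu
      obtain ⟨x, hx, hu⟩ := hu
      obtain ⟨e, rfl, he⟩ := ups_supp hu i hi
      refine ⟨e, rfl, ?_⟩
      have a1 : dT c x ≤ 2 * p.l (j + 1) := ((GT N).mem_ball _ _ _).1 hx
      have a2 := supd_near (lift a) x
      rw [toTorus_lift] at a2
      have a3 := dT_tri a c x
      have a4 := supd_triangle (lift a) (near N (lift a) x) e.1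
      have a5 := mem_box_supd.1 he
      rw [supd_comm] at a5
      change supd (lift a) e.1 ≤ _
      omega
    have h1 : Cross (W a) (W b) (o.g.Cov p j) (1 / 60) := Cross.of_gram hG (hW a) (hW b)
    have h2 : Cross (TI N ε '' W a) (TI N ε '' W b) (CovT N ε p j) (1 / 60) := by
      refine h1.push (TI N ε) (fun u hu => hu) (fun u hu => hu) fun u hu v hv => ?_
      rw [cov_ob hp, CovT]
      refine stb1_TI_supp ε (hs a (by simp [dT]) u hu) (hs b hab v hv) fun e e' he he' => ?_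
      change supd (lift a) e.1 ≤ _ at he
      change supd (lift a) e'.1 ≤ _ at he'
      have a1 := supd_triangle e.1 (lift a) e'.1
      rw [supd_comm e.1 (lift a)] at a1
      have a2 := supd_comm e'.1 e.1
      exact ⟨gL_perK ε c1 c2 (by omega) (by omega), gL_perK ε c1 c2 (by omega) (by omega)⟩
    have hn : ∀ c, ∀ u ∈ ⋃ x ∈ (GT N).ball c (2 * p.l (j + 1)), UT N ε p o j x,
        u ∈ TI N ε '' W c ∨ ∀ v, bil (CovT N ε p j) u v = 0 := fun c u hu => by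
      simp only [Set.mem_iUnion] at hu
      obtain ⟨x, hx, hu⟩ := hu
      rcases UT_cases hΓ hu (lift a) with ⟨u, hu', rfl⟩ | ⟨b, t, -, rfl, -⟩
      · exact Or.inl ⟨u, Set.mem_iUnion₂.2 ⟨x, hx, hu'⟩, rfl⟩
      · exact Or.inr fun v => bil_src _ _ _ _ v
    exact h2.null (hn a) (hn b)
  · rw [Nat.mul_div_cancel _ (by omega)]
    norm_num

/-- `op_h1` with no labels (`Lb = Empty`, `κL = 0`, `N₀ = 0`): `ups_half`, `UT_src`, `bil_src` -/
theorem h1T [NeZero N] (ε : Sec) {p : Par} (hp : p.OK) {o : Ob} {j : ℕ} (h0 : 0 < o.Gam j) (h1 : 0 < o.Gam (j + 1))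
    (h2 : o.Gam (j + 1) ≤ 2 * o.Gam j) (hG : Gram (⋃ x, UT N ε p o j x) (CovT N ε p j) (1 / 4))
    {Z : Finset (XT N)} {F : AlT N} {c : ℝ} (h : BT N ε p o j Z F c) :
    BT N ε p o (j + 1) Z (muE (CovT N ε p j) F) c := by
  obtain ⟨-, -, -, -, -, -, f7⟩ := lam_facts hp j
  have hh : ∀ {t s : ℝ}, |t| ≤ o.h ^ (-(1 / 2 : ℝ)) → |s| ≤ 1 → |s * t| ≤ o.h ^ (-(1 / 2 : ℝ)) := fun {t s} ht hs => by
    rw [abs_mul]
    exact (mul_le_of_le_one_left (abs_nonneg t) hs).trans ht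
  have bal : ∀ x, ∀ u ∈ UT N ε p o (j + 1) x, ∀ t : ℝ, |t| ≤ 1 → t • u ∈ UT N ε p o (j + 1) x := fun x u hu s hs => by
    rcases UT_cases h1.le hu 0 with ⟨u, hu', rfl⟩ | ⟨b, t, ht, rfl, hx⟩
    · exact ⟨_, toTorus_near 0 x, s • u, Or.inl (ups_smul h1.le hu' hs), (map_smul _ _ _).symm⟩
    · rw [smul_smul]
      exact UT_src (hh ht hs) hx
  have op : OP (GT N) (p.l (j + 1)) (UT N ε p o j) (UT N ε p o (j + 1)) (CovT N ε p j) 0 0 Empty (fun _ _ => none)
      Empty.elim := by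
    refine ⟨bal, fun x => ?_, hG, fun x u hu _ => ?_, fun x u hu a ha => a.elim, fun Z => ⟨∅, by simp, fun _ _ _ _ a => a.elim⟩⟩
    · refine ⟨lift x, toTorus_lift x, 0, Or.inl ⟨by simp, ?_⟩, (map_zero _).symm⟩
      rw [if_neg (Nat.succ_ne_zero j)]
      intro f _
      simp [pr]
    · rcases UT_cases h0.le hu 0 with ⟨u, hu', rfl⟩ | ⟨b, t, ht, rfl, hx⟩
      · refine Or.inl ⟨TI N ε ((2 : ℝ) • u), ⟨_, toTorus_near 0 x, _, Or.inl (ups_half hp h0 h1 h2 hu'), rfl⟩, ?_⟩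
        rw [map_smul, smul_smul]
        norm_num
      · exact Or.inr ⟨UT_src ht (hx.trans f7), fun v => bil_src _ _ _ _ v⟩
  have := op_h1 op le_rfl h
  rwa [pow_zero, one_pow, one_mul] at this

/-- transfer of `h2`, `h3` through the chart at an admissible lift `x` (`PsI_mem`, `bd_pull`, `PhI_PsI`, `mu_chart`, `loc_chart`, `bd_push`) -/
theorem h23T [NeZero N] (ε : Sec) {p : Par} (hp : p.OK) {o : Ob} {j : ℕ} (hΓ : 0 ≤ o.Gam j) (hN : 100 * p.l (j + 1) ≤ N)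
    {Λ θ : ℝ} {κ : Site → ℝ} (hA : (o.g.sp p j).Ana geoZ (o.g.Lc p j) (o.g.Bd p j) (o.g.Bd p (j + 1)) Λ θ κ)
    {x : Site} (hx : 8 * supd o.y.1 x ≤ 5 * N) {Z : Finset (XT N)} (hZ : (GT N).Small (p.l j) Z) (hxZ : toTorus N x ∈ Z)
    {F : AlT N} {c : ℝ} (hF : F ∈ LcT N p j Z) (h : BT N ε p o j Z F c) :
    BT N ε p o (j + 1) Z ((spT N ε p o j).mu F - (spT N ε p o j).loc (toTorus N x) ((spT N ε p o j).mu F)) (κ x * c) ∧
      BT N ε p o (j + 1) {toTorus N x} ((spT N ε p o j).loc (toTorus N x) ((spT N ε p o j).mu F)) (Λ * c) := by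
  obtain ⟨e1, -, e2, e3, -, e4, -⟩ := lam_facts hp j
  have e5 := (lam_facts hp (j + 1)).1
  have e6 : p.rho j = 3 * p.l j + 3 := rfl
  have hd : geoZ.d = supd := exists_geoZ.choose_spec.1
  have hZr : ∀ z ∈ Z, dT (toTorus N x) z ≤ 2 * p.l j := fun z hz => hZ.2 _ hxZ z hz
  have hZ' : ∀ z ∈ Z.image (near N x), supd x z ≤ 2 * p.l j := fun z hz => by
    obtain ⟨a, ha, rfl⟩ := Finset.mem_image.1 hz
    rw [supd_near]
    exact hZr a ha
  have hF' : PsI N ε x F ∈ o.g.Lc p j (Z.image (near N x)) := PsI_mem ε (by omega) hZr hF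
  have hB := bd_pull ε hΓ hx (by omega) hZr h
  have hS : geoZ.Small (o.g.sp p j).l (Z.image (near N x)) := by
    refine ⟨hZ.1.image _, fun a ha b hb => ?_⟩
    have h1 := hZ' a ha
    have h2 := hZ' b hb
    have h3 := supd_triangle a x b
    rw [supd_comm a x] at h3
    obtain ⟨a', ha', rfl⟩ := Finset.mem_image.1 ha
    obtain ⟨b', hb', rfl⟩ := Finset.mem_image.1 hb
    rw [hd, ← dT_eq (N := N) (by omega), toTorus_near, toTorus_near]
    exact hZ.2 a' ha' b' hb'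
  have hxZ' : x ∈ Z.image (near N x) :=
    Finset.mem_image.2 ⟨_, hxZ, near_toTorus (by rw [supd_self]; omega)⟩
  have him : (Z.image (near N x)).image (toTorus N) = Z := by
    rw [Finset.image_image]
    simp only [Function.comp_def, toTorus_near, Finset.image_id']
  obtain ⟨c1, c2, -⟩ := cov_facts hp j
  have hmu : (spT N ε p o j).mu F = PhI N ε ((o.g.sp p j).mu (PsI N ε x F)) := by
    have := mu_chart (N := N) ε c1 c2 (by omega) (ρ := 2 * p.l j + p.rho j) (by omega) (over_of_lc hF' hZ')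
    rw [PhI_PsI, ← cov_ob hp o j] at this
    exact this
  have hG := (sp_alg p hp.1 hp.2.1 hp.2.2.1 o.g j).mu_mem hF'
  have hloc := loc_chart (N := N) ε hp o j (r := 2 * p.l j + p.rho j) (by omega) (over_of_lc hG hZ') hG.2
  have h2 := bd_push (N := N) ε (hA.h2 hS hxZ' hF' hB)
  have h3 := bd_push (N := N) ε (hA.h3 hS hxZ' hF' hB)
  rw [him, map_sub] at h2
  rw [Finset.image_singleton] at h3
  rw [hmu, hloc]
  exact ⟨h2, h3⟩

/-- the minimum over the admissible lifts. `κT x = inf' {z ∈ box y₀ N | π z = x, 8 supd y₀ z ≤ 5N} κ` (contains `near N y₀ x`).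
For the sum: centre `ỹ = near N y₀ y`, keep the centres within `l' + l` of `ỹ`, project them, `kb' a = kb (near N ỹ a)`. -/
theorem min_lift [NeZero N] (y₀ : Site) {l l' : ℕ} (hN : 100 * l' ≤ N) (hl : l ≤ l') {κ : Site → ℝ} {θ : ℝ} (h0 : ∀ x, 0 ≤ κ x)
    (hs : ∀ y, ∃ (C : Finset Site) (kb : Site → ℝ), (∀ z ∈ geoZ.ball y l', ∃ c ∈ C, geoZ.d c z ≤ l) ∧
      (∀ c ∈ C, ∀ x ∈ geoZ.ball c (3 * l), κ x ≤ kb c) ∧ ∑ c ∈ C, kb c ≤ θ) :
    ∃ κT : XT N → ℝ, (∀ x, ∃ z, toTorus N z = x ∧ 8 * supd y₀ z ≤ 5 * N ∧ κT x = κ z) ∧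
      ∀ y, ∃ (C : Finset (XT N)) (kb : XT N → ℝ), (∀ z ∈ (GT N).ball y l', ∃ c ∈ C, (GT N).d c z ≤ l) ∧
        (∀ c ∈ C, ∀ x ∈ (GT N).ball c (3 * l), κT x ≤ kb c) ∧ ∑ c ∈ C, kb c ≤ θ := by
  have hd : geoZ.d = supd := exists_geoZ.choose_spec.1
  have hN0 : 0 < N := NeZero.pos N
  have hnear : ∀ x : XT N, 2 * supd y₀ (near N y₀ x) ≤ N := fun x => by
    rw [supd_near]
    exact two_dT_le _ _
  have hex : ∀ x : XT N, ∃ z, (toTorus N z = x ∧ 8 * supd y₀ z ≤ 5 * N) ∧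
      ∀ z', toTorus N z' = x → 8 * supd y₀ z' ≤ 5 * N → κ z ≤ κ z' := fun x => by
    obtain ⟨z, hz, h⟩ := ((box y₀ N).filter fun z => toTorus N z = x ∧ 8 * supd y₀ z ≤ 5 * N).exists_min_image κ
      ⟨near N y₀ x, Finset.mem_filter.2 ⟨mem_box.2 (by rw [supd_comm]; have := hnear x; omega), toTorus_near _ _,
        by have := hnear x; omega⟩⟩
    exact ⟨z, (Finset.mem_filter.1 hz).2, fun z' h1 h2 =>
      h z' (Finset.mem_filter.2 ⟨mem_box.2 (by rw [supd_comm]; omega), h1, h2⟩)⟩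
  choose zz hz1 hz2 using hex
  refine ⟨fun x => κ (zz x), fun x => ⟨zz x, (hz1 x).1, (hz1 x).2, rfl⟩, fun y => ?_⟩
  obtain ⟨C, kb, h1, h2, h3⟩ := hs (near N y₀ y)
  simp only [Geo.mem_ball, hd] at h1 h2
  have hinv : ∀ c ∈ C.filter fun c => supd (near N y₀ y) c ≤ l' + l, near N (near N y₀ y) (toTorus N c) = c := fun c hc =>
    near_toTorus (by have := (Finset.mem_filter.1 hc).2; omega)
  refine ⟨(C.filter fun c => supd (near N y₀ y) c ≤ l' + l).image (toTorus N), fun a => kb (near N (near N y₀ y) a),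
    fun z hz => ?_, fun a ha x hx => ?_, ?_⟩
  · have hz' : supd (near N y₀ y) (near N (near N y₀ y) z) ≤ l' := by
      rw [supd_near, toTorus_near]
      exact ((GT N).mem_ball _ _ _).1 hz
    obtain ⟨c, hc, hcz⟩ := h1 _ hz'
    have h4 := supd_triangle (near N y₀ y) (near N (near N y₀ y) z) c
    rw [supd_comm (near N (near N y₀ y) z) c] at h4
    refine ⟨toTorus N c, Finset.mem_image_of_mem _ (Finset.mem_filter.2 ⟨hc, by omega⟩), ?_⟩
    have h5 := dT_le (N := N) c (near N (near N y₀ y) z)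
    rw [toTorus_near] at h5
    exact h5.trans hcz
  · obtain ⟨c, hc, rfl⟩ := Finset.mem_image.1 ha
    have h4 : supd c (near N c x) ≤ 3 * l := by
      rw [supd_near]
      exact ((GT N).mem_ball _ _ _).1 hx
    have h5 := supd_triangle y₀ (near N y₀ y) c
    have h6 := supd_triangle y₀ c (near N c x)
    have h7 := hnear y
    have h8 := (Finset.mem_filter.1 hc).2
    simp only [hinv c hc]
    exact (hz2 x _ (toTorus_near c x) (by omega)).trans (h2 c (Finset.mem_filter.1 hc).1 _ h4)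
  · rw [Finset.sum_image fun a ha b hb e => by rw [← hinv a ha, e, hinv b hb]]
    refine le_trans (le_of_eq (Finset.sum_congr rfl fun c hc => by rw [hinv c hc])) (le_trans ?_ h3)
    exact Finset.sum_le_sum_of_subset_of_nonneg (Finset.filter_subset _ _) fun c hc _ =>
      (h0 c).trans (h2 c hc c (by rw [supd_self]; omega))

theorem spT_ana [NeZero N] (ε : Sec) {p : Par} (hp : p.OK) {o : Ob} {j : ℕ} (h0 : 0 < o.Gam j) (h1 : 0 < o.Gam (j + 1))
    (h2 : o.Gam (j + 1) ≤ 2 * o.Gam j) (hN : 100 * p.l (j + 1) ≤ N) {Λ θ : ℝ} (hΛ : 1 ≤ Λ)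
    (hG : Gram (⋃ x, o.g.U p j x) (o.g.Cov p j) (1 / 60))
    (hA : ∃ κ, (o.g.sp p j).Ana geoZ (o.g.Lc p j) (o.g.Bd p j) (o.g.Bd p (j + 1)) Λ θ κ) :
    ∃ κ, (spT N ε p o j).Ana (GT N) (LcT N p j) (BT N ε p o j) (BT N ε p o (j + 1)) Λ θ κ := by
  obtain ⟨κ, hA⟩ := hA
  have e3 := (lam_facts hp j).2.2.2.1
  obtain ⟨κT, k1, k2⟩ := min_lift (N := N) o.y.1 (l := p.l j) hN (by omega) hA.κ_nonneg hA.κ_sum
  refine ⟨κT, fun {Z F c} _ h => ?_, fun {Z x F c} hZ hx hF h => ?_, fun {Z x F c} hZ hx hF h => ?_, fun x => ?_, k2⟩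
  · exact GBd.mono (h1T ε hp h0 h1 h2 (gram_stepT ε hp h0.le hN hG) h) subset_rfl
      (le_mul_of_one_le_left (GBd.nonneg h) (one_le_pow₀ hΛ))
  · obtain ⟨z, rfl, hz, e⟩ := k1 x
    rw [e]
    exact (h23T ε hp h0.le hN hA hz hZ hx hF h).1
  · obtain ⟨z, rfl, hz, -⟩ := k1 x
    exact (h23T ε hp h0.le hN hA hz hZ hx hF h).2
  · obtain ⟨z, -, -, e⟩ := k1 x
    rw [e]
    exact hA.κ_nonneg z

end Crest.Agent.R165.E
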