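import Crest.Agent.R165.E.Four

/-! # R165/E (torus, owner helper12): the five weights -/

set_option autoImplicit false
noncomputable section
open Classical Crest.ProbabilityR.IsingModel

namespace Crest.Agent.R165.E
open BA

variable {N : ℕ}

theorem dd_tc (a b : ℝ) : dd tc a b = 2 * tc ^ 2 * ((4 - 2 * Real.cos b) - 2 * Real.cos a) := by
  unfold dd
  linear_combination (tc ^ 2 - 2 * tc - 1 + 2 * tc * (Real.cos a + Real.cos b)) * tc_sq

/-- `dd t a b = (1 - 2t - t²)² + 2 (t - t³) ((1 - cos a) + (1 - cos b))`; for `t = 0` it is `1` -/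
theorem dd_pos {t a b : ℝ} (h0 : 0 ≤ t) (h1 : t ≤ tc) (h : Real.cos a < 1 ∨ Real.cos b < 1) : 0 < dd t a b := by
  rcases h0.eq_or_lt with rfl | h0
  · simp [dd]
  have h2 : t < 1 := h1.trans_lt tc_pos.2
  have h3 : 0 < t - t ^ 3 := by nlinarith [mul_pos h0 (show 0 < 1 - t ^ 2 by nlinarith)]
  have h4 : 0 < (1 - Real.cos a) + (1 - Real.cos b) := by
    have := Real.cos_le_one a
    have := Real.cos_le_one b
    rcases h with h | h <;> linarith
  have e : dd t a b = (1 - 2 * t - t ^ 2) ^ 2 + 2 * ((t - t ^ 3) * ((1 - Real.cos a) + (1 - Real.cos b))) := by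
    unfold dd; ring
  rw [e]
  positivity

/-- `t ↦ PT N ε t 0` is continuous (`qT_smul`, `quad_smul`, `hasDerivAt_exp`), equals `1` at `0` and has no zero on `[0, tc]`
(`PT_sq`, `det_aT`, `dd_pos`, `cos_mom_lt`); `intermediate_value_Icc'` -/
theorem PT_pos [NeZero N] {ε : Sec} (h : ε ≠ (false, false)) : 0 < PT N ε tc 0 := by
  have e : ∀ t, PT N ε t 0 = gauss (g0T N) (IsNilpotent.exp (t • quad Finset.univ (qT N ε 1))) := fun t => by
    have : jT N 0 = 0 := by funext i j; simp [jT]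
    rw [PT, this, add_zero, qT_smul, quad_smul]
  have hc : Continuous fun t => PT N ε t 0 := by
    simp only [e]
    exact continuous_iff_continuousAt.2 fun t =>
      ((hasDerivAt_exp (gauss (g0T N)) (quad_nilpotent _ _)).1 t).continuousAt
  by_contra hn
  obtain ⟨t, ht, h0⟩ := intermediate_value_Icc' tc_pos.1.le hc.continuousOn (show (0 : ℝ) ∈ Set.Icc _ _ from
    ⟨not_lt.1 hn, by rw [e, zero_smul, IsNilpotent.exp_zero, gauss_one]; exact zero_le_one⟩)
  have h1 := PT_sq (N := N) ε t 0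
  rw [det_aT, show PT N ε t 0 = 0 from h0, zero_pow two_ne_zero] at h1
  refine (Finset.prod_pos fun b hb => Finset.prod_pos fun a ha => dd_pos ht.1 ht.2 ?_).ne h1
  obtain ⟨_ | _, _ | _⟩ := ε
  · exact absurd rfl h
  · exact Or.inr (cos_mom_lt (Finset.mem_range.1 hb) (Or.inl rfl))
  · exact Or.inl (cos_mom_lt (Finset.mem_range.1 ha) (Or.inl rfl))
  · exact Or.inl (cos_mom_lt (Finset.mem_range.1 ha) (Or.inl rfl))

theorem PT_deg_ne [NeZero N] {κ : ℝ} (h : κ ≠ 0) : PT N (false, false) tc κ ≠ 0 := by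
  intro h0
  have h1 := PT_sq (N := N) (false, false) tc κ
  rw [det_aT_deg, h0, zero_pow two_ne_zero] at h1
  refine (mul_pos (mul_pos (sq_pos_of_ne_zero h) (Finset.prod_pos fun a ha => dd_pos tc_pos.1.le le_rfl (Or.inl ?_)))
    (Finset.prod_pos fun b hb => Finset.prod_pos fun a _ => dd_pos tc_pos.1.le le_rfl (Or.inr ?_))).ne h1
  · exact cos_mom_lt (Finset.mem_range.1 (Finset.mem_erase.1 ha).2) (Or.inr (Finset.mem_erase.1 ha).1)
  · exact cos_mom_lt (Finset.mem_range.1 (Finset.mem_erase.1 hb).2) (Or.inr (Finset.mem_erase.1 hb).1)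

/-- compare the squares row by row: `det_aT_deg`, `det_aT`, `dd_tc`, `prod_cos_le` for `b ≠ 0`; for `b = 0`: `κ² c^(N-1) N²` against `4 c^N`,
`c = 2 tc² ≥ 1/4` -/
theorem PT_deg_le [NeZero N] {κ : ℝ} (h : |κ| = 1 / (2 * N)) :
    |PT N (false, false) tc κ| ≤ PT N (true, false) tc 0 / 2 := by
  have hN : N ≠ 0 := NeZero.ne N
  have hN' : (0 : ℝ) < N := by positivity
  have hc : 1 / 4 ≤ 2 * tc ^ 2 := by nlinarith [tc_sq, tc_pos.1]
  have h0 : 0 ∈ Finset.range N := Finset.mem_range.2 (Nat.pos_of_ne_zero hN)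
  have hp := PT_pos (N := N) (ε := (true, false)) (by simp)
  refine abs_le_of_sq_le_sq ?_ (by positivity)
  rw [div_pow, PT_sq, PT_sq, det_aT_deg, det_aT, ← Finset.mul_prod_erase _ _ h0, mul_div_right_comm]
  have e : (4 : ℝ) - 2 * 1 = 2 := by norm_num
  have e0 : mom N false 0 = 0 := by simp [mom]
  simp only [dd_tc, Finset.prod_mul_distrib (f := fun _ => 2 * tc ^ 2), e0, Real.cos_zero, e, prod_cos_one hN,
    prod_cos_four hN, Finset.prod_const, Finset.card_erase_of_mem h0, Finset.card_range]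
  have hz : ∀ b, 2 ≤ 4 - 2 * Real.cos (mom N false b) := fun b => by linarith [Real.cos_le_one (mom N false b)]
  have hn : ∀ b, 0 ≤ ∏ a ∈ Finset.range N, (4 - 2 * Real.cos (mom N false b) - 2 * Real.cos (mom N false a)) := fun b =>
    Finset.prod_nonneg fun a _ => by linarith [Real.cos_le_one (mom N false a), hz b]
  refine mul_le_mul ?_ (Finset.prod_le_prod (fun b _ => mul_nonneg (by positivity) (hn b)) fun b _ =>
    mul_le_mul_of_nonneg_left (prod_cos_le hN (hz b)) (by positivity))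
    (Finset.prod_nonneg fun b _ => mul_nonneg (by positivity) (hn b)) (by positivity)
  obtain ⟨n, rfl⟩ := Nat.exists_eq_succ_of_ne_zero hN
  rw [← sq_abs κ, h, Nat.succ_sub_one, pow_succ (2 * tc ^ 2)]
  have h1 : 0 < (2 * tc ^ 2) ^ n := by positivity
  calc _ = (2 * tc ^ 2) ^ n * (1 / 4) := by field_simp; ring
    _ ≤ (2 * tc ^ 2) ^ n * (2 * tc ^ 2) := by gcongr
    _ = _ := by ring

end Crest.Agent.R165.E
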